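import Crest.Agent.R89.Model

/-! Conjugate vectors in the planted model. -/

set_option autoImplicit false

namespace Crest.Agent.R89

open scoped ComplexOrder
open Finset Crest.Agent.R120 Sum

lemma sum3_swap {ι : Type*} [Fintype ι] (f : ι → ι → ι → ℝ) :
    ∑ a, ∑ b, ∑ c, f a b c = ∑ c, ∑ b, ∑ a, f a b c :=
  Finset.sum_comm.trans ((Finset.sum_congr rfl fun _ _ => Finset.sum_comm).trans Finset.sum_comm)

lemma count7 {ι : Type} [Fintype ι] (τ : Fin 7) (hτ : τ ≠ 0) (f g : List ι → ℝ) :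
    ∑ j : ι × ι × ι, f (pre7 τ (inr j)) * g (post7 τ (inr j)) = Fintype.card ι *
      ((∑ b ∈ Wd ι (![0, 0, 1, 2, 0, 1, 2] τ), f b) * ∑ b ∈ Wd ι (![0, 2, 1, 0, 2, 1, 0] τ), g b) := by
  have h1 : ∀ f : List ι → ℝ, ∑ b ∈ Wd ι 1, f b = ∑ a, f [a] := fun f => by
    simp [sum_Wd_succ, sum_Wd_zero]
  have h2 : ∀ f : List ι → ℝ, ∑ b ∈ Wd ι 2, f b = ∑ a, ∑ b, f [a, b] := fun f => by
    simp [sum_Wd_succ, sum_Wd_zero]
  simp only [Fintype.sum_prod_type, pre7, post7]
  fin_cases τ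
  · exact absurd rfl hτ
  any_goals simp [h1, h2, sum_Wd_zero, Finset.mul_sum, Finset.sum_mul]; done
  all_goals rw [sum3_swap]; simp [h1, h2, sum_Wd_zero, Finset.mul_sum, Finset.sum_mul]

namespace Fock

variable {ι : Type} [DecidableEq ι] {B : Type} [CStarAlgebra B] [PartialOrder B]
  [StarOrderedRing B] (F : Fock (JJ ι ⊕ JJ ι) B) (lam sig gam : ℝ) {t : ℝ} (ht : 0 < t)

include ht in
lemma ω_OO (β : JJ ι) (b : B) : F.ω (F.OO lam sig gam t β * b) =
    sg sig t β * F.ω (F.EE sig t β * b) + F.ω (F.YY lam gam β * b) := by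
  have h1 : ((sg sig t β : ℝ) : ℂ) ≠ 0 := by exact_mod_cast (sg_pos sig ht β).ne'
  simp only [OO, ZZ, EE, add_mul, smul_mul_assoc, map_add, map_smul, F.ωs, smul_eq_mul]
  field_simp
  ring

include ht in
lemma ω_YO (β : JJ ι) : F.ω (F.YY lam gam β * F.OO lam sig gam t β) =
    ((n2 F.ω (F.YY lam gam β) ^ 2 : ℝ) : ℂ) := by
  rw [F.tr_comm (F.YY_mem _ _ _) (F.OO_mem _ _ _ _ _), ω_OO _ _ _ _ ht,
    (F.comm_EE lam sig gam t β β).eq, Complex.ofReal_pow, n2_sq, (F.YY_sa _ _ _).star_eq]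
  have := (F.noise lam sig gam ht).ωE (F.YY lam gam β) β
  simp only [noise] at this
  rw [this, mul_zero, zero_add]

include ht in
lemma ω_OO_OO (β : JJ ι) : (F.ω (F.OO lam sig gam t β * F.OO lam sig gam t β)).re =
    nu sig β ^ 2 + t + n2 F.ω (F.YY lam gam β) ^ 2 := by
  have := (F.noise lam sig gam ht).ω_E_O β
  simp only [noise] at this
  rw [ω_OO _ _ _ _ ht, ω_YO _ _ _ _ ht, this, ← sg_sq sig ht, ← Complex.ofReal_mul,
    ← Complex.ofReal_add, Complex.ofReal_re, sq (sg _ _ _)]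

lemma wv_xx (w : List ι) : wv F.xx w = wv F.s (w.map fun l => inl (inl l)) :=
  (wv_map _ F.s w).symm

lemma norm_wv_xx (w : List ι) : ‖wv F.xx w‖ ≤ 2 ^ w.length := by
  simpa [wv_xx] using F.norm_wv (w.map fun l => inl (inl l))

lemma n2_YY_le (hg : 0 ≤ gam) (j : ι × ι × ι) : n2 F.ω (F.YY lam gam (inr j)) ≤ 16 * gam := by
  obtain ⟨a, b, c⟩ := j
  refine (n2_le_norm F.one _).trans ?_
  rw [YY, norm_smul, Complex.norm_real, Real.norm_of_nonneg hg, mul_comm]
  refine mul_le_mul_of_nonneg_right ((norm_add_le _ _).trans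
    ((add_le_add (F.norm_wv_xx _) (F.norm_wv_xx _)).trans ?_)) hg
  norm_num

lemma le_n2_YY (j : ι × ι × ι) : gam ^ 2 ≤ n2 F.ω (F.YY lam gam (inr j)) ^ 2 := by
  obtain ⟨a, b, c⟩ := j
  have h0 : ∀ w, 0 ≤ (F.ω (wv F.xx w)).re := fun w => by
    simpa [wv_xx] using (Complex.le_def.1 (F.mom_nonneg (w.map fun l => inl (inl l)))).1
  have h1 : 1 ≤ (F.ω (wv F.xx ([a, b, c] ++ [c, b, a]))).re := by
    have := (F.mom_le (inl (inl c)) []).trans ((F.mom_le (inl (inl b)) _).trans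
      (F.mom_le (inl (inl a)) _))
    rw [wv_nil, F.one] at this
    exact (Complex.le_def.1 this).1
  rw [n2_sq_re, (F.YY_sa _ _ _).star_eq, YY, smul_mul_smul_comm, map_smul, ← Complex.ofReal_mul,
    smul_eq_mul, Complex.re_ofReal_mul, add_mul, mul_add, mul_add, map_add, map_add, map_add,
    ← wv_append, ← wv_append, ← wv_append, ← wv_append, sq]
  refine le_mul_of_one_le_right (mul_self_nonneg _) ?_
  simp only [Complex.add_re]
  linarith [h0 ([a, b, c] ++ [a, b, c]), h0 ([c, b, a] ++ [a, b, c]), h0 ([c, b, a] ++ [c, b, a])]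

lemma ω_sandwich (t : ℝ) (j : ι × ι × ι) (d₁ d₂ : List ι) (u : List (JJ ι)) :
    F.ω (wv F.xx d₂ * F.s (inl (inr j)) * wv F.xx d₁ * wv (F.OO lam sig gam t) u) =
      sp u fun a α c => if α = inr j then sig * (F.ω (wv F.xx d₁ * wv (F.OO lam sig gam t) a) *
        F.ω (wv F.xx d₂ * wv (F.OO lam sig gam t) c)) else 0 := by
  have hx := wv_mem_gen F.xx_mem
  have hO := wv_mem_gen (F.OO_mem lam sig gam t)
  have hc := commute_wv (F.comm_xx (i := inl (inr j)) (by simp))
  have e : ∀ d x y z : B, x * (d * y) * z = x * (d * y - y * d) * z + x * y * (d * z) := by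
    intros; noncomm_ring
  rw [mul_assoc, mul_assoc, F.tr_comm (hx _) (mul_mem (subset_gen _ ⟨_, rfl⟩)
    (mul_mem (hx _) (hO _))), mul_assoc, F.ωs, ← mul_assoc, ← mul_assoc, (hc _).eq,
    mul_assoc (wv _ d₁), e, (hc _).eq, ← mul_assoc _ (wv _ d₂), map_add, F.ωD, add_zero,
    comm_wv_gen, sp_eq_sum, sp_eq_sum, Finset.mul_sum, Finset.sum_mul, map_sum]
  refine Finset.sum_congr rfl fun k _ => ?_
  rw [comm_OO, (F.comm_YY lam gam (by simp) _).eq, sub_self, F.comm, F.comm,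
    F.tr_comm (hx d₂) (hO _), ← F.ωP]
  generalize u[k] = α
  by_cases h : α = inr j
  · simp [h, nu, mul_assoc]
  · simp [h, Ne.symm h]

variable [Fintype ι]

include ht in
lemma conj_X (hl : 0 < lam) (hs : 0 < sig) (hg : 0 ≤ gam) (l : ι) :
    ∃ ξ, Conj F.ω.toLinearMap (F.OO lam sig gam t) (inl l) ξ ∧
      ‖ξ‖ ≤ lam⁻¹ * (2 + Fintype.card ι ^ 3 * (56 * (gam / sig))) := by
  have hl' : (lam : ℂ) ≠ 0 := by exact_mod_cast hl.ne'
  have hs' : (sig : ℂ) ≠ 0 := by exact_mod_cast hs.ne'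
  refine ⟨((lam⁻¹ : ℝ) : ℂ) • (F.xx l - ∑ j : ι × ι × ι, ∑ τ : Fin 7, if lt7 τ (inr j) = l then
    ((th7 lam gam τ (inr j) / sig : ℝ) : ℂ) • (wv F.xx (post7 τ (inr j)) * F.s (inl (inr j)) *
      wv F.xx (pre7 τ (inr j))) else 0), fun u => ?_, ?_⟩
  · have h := (F.plant lam sig gam ht).planted l [] u
    simp only [plant, noise, div_mul_cancel₀ _ (sg_pos sig ht _).ne', wv_cons, wv_nil, mul_one,
      List.length_nil, Finset.sum_range_zero, zero_add, List.append_nil] at h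
    simp only [PositiveLinearMap.coe_toLinearMap, smul_mul_assoc, map_smul, sub_mul, map_sub, h,
      Finset.sum_mul, map_sum, ite_mul, zero_mul, apply_ite F.ω, map_zero, ω_sandwich, sp_eq_sum,
      smul_eq_mul]
    have e : ∀ (c : Prop) [Decidable c] (x : ℂ) (f : Fin u.length → ℂ),
        (if c then x * ∑ k, f k else 0) = ∑ k, if c then x * f k else 0 := fun c _ x f => by
      split_ifs <;> simp [Finset.mul_sum]
    have e' : ∀ f : ι × ι × ι → Fin 7 → Fin u.length → ℂ,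
        ∑ j, ∑ τ, ∑ k, f j τ k = ∑ k, ∑ j, ∑ τ, f j τ k := fun f => Finset.sum_comm_cycle
    simp only [e]
    rw [e', ← Finset.sum_sub_distrib, Finset.mul_sum]
    refine Finset.sum_congr rfl fun k _ => ?_
    generalize u[k] = α
    rcases α with l' | j
    · simp [lt7, th7, pre7, post7, hl', Fin.sum_univ_succ]
    · rw [Finset.sum_eq_single j (fun j' _ h => by simp [Ne.symm h]) (by simp)]
      simp [← mul_assoc, hs']
  · rw [norm_smul, Complex.norm_real, Real.norm_of_nonneg (by positivity)]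
    refine mul_le_mul_of_nonneg_left ((norm_sub_le _ _).trans (add_le_add (F.norm_s _)
      ((norm_sum_le _ _).trans ((Finset.sum_le_card_nsmul _ _ (56 * (gam / sig))
        fun ⟨a, b, c⟩ _ => (norm_sum_le _ _).trans ((Finset.sum_le_card_nsmul _ _ (8 * (gam / sig))
          fun τ _ => ?_).trans (le_of_eq (by simp; ring)))).trans (le_of_eq (by simp [pow_three]))))))
      (by positivity)
    split_ifs
    · have h1 : |th7 lam gam τ (inr (a, b, c)) / sig| ≤ gam / sig := by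
        rw [abs_div, abs_of_pos hs, th7]
        split_ifs <;> gcongr <;> simp [hg, abs_of_nonneg]
      have h2 : (2 : ℝ) ^ (post7 τ (inr (a, b, c))).length * 2 *
          2 ^ (pre7 τ (inr (a, b, c))).length ≤ 8 := by
        fin_cases τ <;> simp [pre7, post7] <;> norm_num
      rw [norm_smul, Complex.norm_real, Real.norm_eq_abs, mul_comm]
      refine mul_le_mul (le_trans ?_ h2) h1 (abs_nonneg _) (by norm_num)
      exact (norm_mul_le _ _).trans (mul_le_mul ((norm_mul_le _ _).trans (mul_le_mul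
        (F.norm_wv_xx _) (F.norm_s _) (norm_nonneg _) (by positivity))) (F.norm_wv_xx _)
          (norm_nonneg _) (by positivity))
    · rw [norm_zero]; positivity

end Fock

end Crest.Agent.R89
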