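import Crest.Agent.R89.Defs

/-! Row 89: the orthonormal basis `Hb` of Hermitian matrices. -/

set_option autoImplicit false

namespace Crest.Agent.R89

open Crest.OpAlg

section Herm
variable {d : ℕ}

/-- Coefficient of `a (i, j)` in the entry `(i, j)`. -/
noncomputable def hα (i j : Fin d) : ℂ :=
  if i = j then 1 else if i < j then (Real.sqrt 2 : ℂ)⁻¹ else -Complex.I * (Real.sqrt 2 : ℂ)⁻¹

/-- Coefficient of `a (j, i)` in the entry `(i, j)`. -/
noncomputable def hβ (i j : Fin d) : ℂ :=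
  if i = j then 0 else if i < j then Complex.I * (Real.sqrt 2 : ℂ)⁻¹ else (Real.sqrt 2 : ℂ)⁻¹

lemma herm_apply (a : EuclideanSpace ℝ (Fin d × Fin d)) (i j : Fin d) :
    hermitianOfCoords a i j = hα i j * a (i, j) + hβ i j * a (j, i) := by
  unfold hermitianOfCoords hα hβ
  split_ifs with h1 h2
  · subst h1; simp
  · ring
  · ring

lemma Hb_apply (p : Fin d × Fin d) (i j : Fin d) :
    Hb p i j = (if p = (i, j) then hα i j else 0) + (if p = (j, i) then hβ i j else 0) := by
  rw [Hb, herm_apply]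
  simp only [PiLp.single_apply]
  congr 1
  · by_cases h : p = (i, j)
    · simp [h]
    · simp [h, Ne.symm h]
  · by_cases h : p = (j, i)
    · simp [h]
    · simp [h, Ne.symm h]

lemma sqrt_two_inv_mul : (Real.sqrt 2 : ℂ)⁻¹ * (Real.sqrt 2 : ℂ)⁻¹ = 2⁻¹ := by
  rw [← mul_inv, ← Complex.ofReal_mul, Real.mul_self_sqrt (by norm_num)]
  norm_num

theorem herm_eq_sum (a : EuclideanSpace ℝ (Fin d × Fin d)) :
    hermitianOfCoords a = ∑ p, (a p : ℂ) • Hb p := by
  ext i j
  rw [herm_apply, Matrix.sum_apply]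
  simp only [Matrix.smul_apply, Hb_apply, smul_eq_mul, mul_add, Finset.sum_add_distrib, mul_ite,
    mul_zero, Finset.sum_ite_eq', Finset.mem_univ, if_true]
  ring

theorem herm_isHermitian (a : EuclideanSpace ℝ (Fin d × Fin d)) :
    (hermitianOfCoords a).IsHermitian := by
  ext i j
  rw [Matrix.conjTranspose_apply]
  unfold hermitianOfCoords
  rcases lt_trichotomy i j with h | h | h
  · simp [h, h.ne, h.ne', not_lt.2 h.le]
  · subst h; simp
  · simp [h, h.ne, h.ne', not_lt.2 h.le, sub_eq_add_neg]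

lemma Hb_isHermitian (p : Fin d × Fin d) : (Hb p).IsHermitian := herm_isHermitian _

lemma hα_sq_add (i j : Fin d) :
    hα i j * hα i j + hβ i j * hβ i j = if i = j then 1 else 0 := by
  have h2 := sqrt_two_inv_mul
  have hI := Complex.I_mul_I
  unfold hα hβ
  split_ifs with h1 h3
  · simp
  · linear_combination (Real.sqrt 2 : ℂ)⁻¹ * (Real.sqrt 2 : ℂ)⁻¹ * hI
  · linear_combination (Real.sqrt 2 : ℂ)⁻¹ * (Real.sqrt 2 : ℂ)⁻¹ * hI

lemma hα_mul_hβ (i j : Fin d) :
    hα i j * hβ j i + hβ i j * hα j i = if i = j then 0 else 1 := by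
  have h2 := sqrt_two_inv_mul
  have hI := Complex.I_mul_I
  unfold hα hβ
  rcases lt_trichotomy i j with h | h | h
  · simp only [h, h.ne, h.ne', not_lt.2 h.le, if_true, if_false]
    linear_combination 2 * h2 - (Real.sqrt 2 : ℂ)⁻¹ * (Real.sqrt 2 : ℂ)⁻¹ * hI
  · subst h; simp
  · simp only [h, h.ne, h.ne', not_lt.2 h.le, if_true, if_false]
    linear_combination 2 * h2 - (Real.sqrt 2 : ℂ)⁻¹ * (Real.sqrt 2 : ℂ)⁻¹ * hI

theorem Hb_complete (i j k l : Fin d) :
    ∑ p, Hb p i j * Hb p k l = if i = l ∧ j = k then 1 else 0 := by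
  have e : ∑ p, Hb p i j * Hb p k l = hα i j * Hb (i, j) k l + hβ i j * Hb (j, i) k l := by
    simp only [Hb_apply _ i j, add_mul, ite_mul, zero_mul, Finset.sum_add_distrib,
      Finset.sum_ite_eq', Finset.mem_univ, if_true]
  rw [e, Hb_apply, Hb_apply]
  have h1 := hα_sq_add i j
  have h2 := hα_mul_hβ i j
  by_cases hA : i = k ∧ j = l
  · obtain ⟨rfl, rfl⟩ := hA
    by_cases hij : i = j
    · subst hij
      simp only [if_true, and_self] at h1 h2 ⊢
      linear_combination h1 + h2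
    · have hji : j ≠ i := Ne.symm hij
      simp only [hij, if_false] at h1
      simp only [Prod.mk.injEq, hij, hji, and_self, if_true, if_false, add_zero, zero_add]
      exact h1
  · by_cases hB : i = l ∧ j = k
    · obtain ⟨rfl, rfl⟩ := hB
      have hij : i ≠ j := fun h => hA ⟨h, h.symm⟩
      have hji : j ≠ i := Ne.symm hij
      simp only [hij, if_false] at h2
      simp only [Prod.mk.injEq, hij, hji, and_self, if_true, if_false, add_zero, zero_add]
      exact h2
    · have hA' : ¬ (j = l ∧ i = k) := fun h => hA h.symm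
      have hB' : ¬ (j = k ∧ i = l) := fun h => hB h.symm
      simp [hA, hB, hA', hB']

lemma trace_mul_eq (X M : Matrix (Fin d) (Fin d) ℂ) :
    (X * M).trace = ∑ i, ∑ j, X i j * M j i := by
  simp [Matrix.trace, Matrix.mul_apply]

/-- Expansion of an arbitrary matrix in the basis `Hb`. -/
lemma sum_trace_Hb_smul (N : Matrix (Fin d) (Fin d) ℂ) :
    ∑ p, (Hb p * N).trace • Hb p = N := by
  ext k l
  rw [Matrix.sum_apply]
  simp only [Matrix.smul_apply, smul_eq_mul, trace_mul_eq, Finset.sum_mul]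
  rw [Finset.sum_comm]
  have : ∀ i : Fin d, ∑ p : Fin d × Fin d, ∑ j, Hb p i j * N j i * Hb p k l =
      ∑ j, N j i * if i = l ∧ j = k then 1 else 0 := by
    intro i
    rw [Finset.sum_comm]
    refine Finset.sum_congr rfl fun j _ => ?_
    rw [← Hb_complete, Finset.mul_sum]
    exact Finset.sum_congr rfl fun p _ => by ring
  simp only [this]
  simp [ite_and]

theorem sum_trace_Hb_mul (M N : Matrix (Fin d) (Fin d) ℂ) :
    ∑ p, (Hb p * M).trace * (Hb p * N).trace = (M * N).trace := by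
  conv_rhs => rw [← sum_trace_Hb_smul M]
  simp [Finset.sum_mul, Matrix.trace_sum]

theorem sum_trace_Hb_Hb (M N : Matrix (Fin d) (Fin d) ℂ) :
    ∑ p, (Hb p * M * Hb p * N).trace = M.trace * N.trace := by
  have key : ∑ p, Hb p * M * Hb p = M.trace • (1 : Matrix (Fin d) (Fin d) ℂ) := by
    ext i l
    rw [Matrix.sum_apply]
    simp only [Matrix.mul_apply, Finset.sum_mul]
    rw [Finset.sum_comm]
    have : ∀ k : Fin d, ∑ p : Fin d × Fin d, ∑ j, Hb p i j * M j k * Hb p k l =
        ∑ j, M j k * if i = l ∧ j = k then 1 else 0 := by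
      intro k
      rw [Finset.sum_comm]
      refine Finset.sum_congr rfl fun j _ => ?_
      rw [← Hb_complete, Finset.mul_sum]
      exact Finset.sum_congr rfl fun p _ => by ring
    simp only [this]
    by_cases h : i = l
    · simp [h, Matrix.trace]
    · simp [h]
  rw [← Matrix.trace_sum, ← Finset.sum_mul, key]
  simp

lemma herm_mul_herm (a : EuclideanSpace ℝ (Fin d × Fin d)) (i j : Fin d) :
    hermitianOfCoords a i j * hermitianOfCoords a j i =
      2⁻¹ * ((a (i, j) : ℂ) ^ 2 + (a (j, i) : ℂ) ^ 2) := by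
  have h2 := sqrt_two_inv_mul
  have hI := Complex.I_mul_I
  unfold hermitianOfCoords
  rcases lt_trichotomy i j with h | h | h
  · simp only [h, h.ne, h.ne', not_lt.2 h.le, if_true, if_false, div_eq_mul_inv]
    linear_combination ((a (i, j) : ℂ) ^ 2 + (a (j, i) : ℂ) ^ 2) * h2 -
      (a (j, i) : ℂ) ^ 2 * (Real.sqrt 2 : ℂ)⁻¹ * (Real.sqrt 2 : ℂ)⁻¹ * hI
  · subst h; simp only [if_true]; ring
  · simp only [h, h.ne, h.ne', not_lt.2 h.le, if_true, if_false, div_eq_mul_inv]
    linear_combination ((a (i, j) : ℂ) ^ 2 + (a (j, i) : ℂ) ^ 2) * h2 -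
      (a (i, j) : ℂ) ^ 2 * (Real.sqrt 2 : ℂ)⁻¹ * (Real.sqrt 2 : ℂ)⁻¹ * hI

theorem trace_herm_sq (a : EuclideanSpace ℝ (Fin d × Fin d)) :
    (hermitianOfCoords a * hermitianOfCoords a).trace = ((‖a‖ ^ 2 : ℝ) : ℂ) := by
  rw [trace_mul_eq, EuclideanSpace.real_norm_sq_eq, Fintype.sum_prod_type]
  simp only [herm_mul_herm, mul_add, Finset.sum_add_distrib]
  rw [Finset.sum_comm (f := fun i j : Fin d => 2⁻¹ * (a (j, i) : ℂ) ^ 2)]
  push_cast
  rw [← Finset.sum_add_distrib]
  refine Finset.sum_congr rfl fun i _ => ?_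
  rw [← Finset.sum_add_distrib]
  exact Finset.sum_congr rfl fun j _ => by ring

lemma trace_Hb_mul_real {N : Matrix (Fin d) (Fin d) ℂ} (hN : N.IsHermitian) (p : Fin d × Fin d) :
    ((((Hb p * N).trace).re : ℝ) : ℂ) = (Hb p * N).trace := by
  rw [← Complex.conj_eq_iff_re]
  have : star (Hb p * N).trace = (Hb p * N).trace := by
    rw [← Matrix.trace_conjTranspose, Matrix.conjTranspose_mul, hN.eq, (Hb_isHermitian p).eq,
      Matrix.trace_mul_comm]
  exact this

theorem herm_coords {N : Matrix (Fin d) (Fin d) ℂ} (hN : N.IsHermitian) :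
    hermitianOfCoords (WithLp.toLp 2 fun p => ((Hb p * N).trace).re) = N := by
  rw [herm_eq_sum]
  simp only [trace_Hb_mul_real hN]
  exact sum_trace_Hb_smul N

end Herm

end Crest.Agent.R89
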