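import Crest.Agent.R89.ChiPoly
import Crest.Agent.R89.Herm

/-!
# Row 89: two-sided bound for the microstates free entropy of a triangular polynomial image
-/

set_option autoImplicit false

namespace Crest.Agent.R89

open Crest.OpAlg Filter Topology MeasureTheory

/-! ## Shears preserve volume -/

theorem shear_mp {ι : Type*} [Fintype ι] (P : ι → Prop) (f : (ι → ℝ) → ι → ℝ) (hf : Measurable f)
    (h0 : ∀ a i, P i → f a i = 0) (h1 : ∀ a b, (∀ i, P i → a i = b i) → f a = f b) :
    MeasurePreserving (fun a => a + f a) volume volume := by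
  classical
  let e := MeasurableEquiv.piEquivPiSubtypeProd (fun _ : ι => ℝ) P
  have he : MeasurePreserving e := volume_preserving_piEquivPiSubtypeProd (fun _ : ι => ℝ) P
  let F : ({i // P i} → ℝ) → {i // ¬P i} → ℝ := fun x j => f (e.symm (x, 0)) j
  have hF : Measurable F := measurable_pi_lambda _ fun j => (measurable_pi_apply j.1).comp
    (hf.comp (e.symm.measurable.comp (measurable_id.prodMk measurable_const)))
  have hs : MeasurePreserving (fun z : ({i // P i} → ℝ) × ({i // ¬P i} → ℝ) =>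
      (id z.1, z.2 + F z.1)) (volume.prod volume) (volume.prod volume) :=
    (MeasurePreserving.id _).skew_product (g := fun x y => y + F x)
      (measurable_snd.add (hF.comp measurable_fst))
      (Eventually.of_forall fun x => map_add_right_eq_self _ _)
  have key := (he.symm e).comp (hs.comp he)
  suffices h : (fun a => a + f a) = e.symm ∘ (fun z : ({i // P i} → ℝ) × ({i // ¬P i} → ℝ) =>
      (id z.1, z.2 + F z.1)) ∘ e from h ▸ key
  funext a
  apply e.injective
  simp only [Function.comp_apply, MeasurableEquiv.apply_symm_apply, id]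
  refine Prod.ext (funext fun j => ?_) (funext fun j => ?_)
  · show a j + f a j = a j
    rw [h0 a j j.2, add_zero]
  · show a j + f a j = a j + f (e.symm ((e a).1, 0)) j
    rw [h1 a (e.symm ((e a).1, 0))]
    intro i hi
    simp [e, MeasurableEquiv.piEquivPiSubtypeProd, Equiv.piEquivPiSubtypeProd, hi]

/-- a triangular map scales volume by the product of its diagonal coefficients -/
theorem tri_map {ι : Type*} [Fintype ι] (P : ι → Prop) (c : ι → ℝ) (hc : ∀ i, 0 < c i)
    (f : (ι → ℝ) → ι → ℝ) (hf : Measurable f)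
    (h0 : ∀ a i, P i → f a i = 0) (h1 : ∀ a b, (∀ i, P i → a i = b i) → f a = f b) :
    ENNReal.ofReal (∏ i, c i) • Measure.map (fun a i => c i * a i + f a i) volume =
      (volume : Measure (ι → ℝ)) := by
  classical
  have hs := shear_mp P (fun a i => f a i / c i)
    (measurable_pi_lambda _ fun i => ((measurable_pi_apply i).comp hf).div_const _)
    (fun a i hi => by simp [h0 a i hi]) (fun a b h => by rw [h1 a b h])
  have hp : 0 < ∏ i, c i := Finset.prod_pos fun i _ => hc i
  have hd := Real.smul_map_diagonal_volume_pi (D := c) (by rw [Matrix.det_diagonal]; exact hp.ne')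
  rw [Matrix.det_diagonal, abs_of_pos hp] at hd
  have hm : Measurable (Matrix.toLin' (Matrix.diagonal c)) :=
    (LinearMap.continuous_on_pi _).measurable
  have e : (fun a i => c i * a i + f a i) =
      (Matrix.toLin' (Matrix.diagonal c)) ∘ fun a => a + fun i => f a i / c i := by
    funext a i
    have := (hc i).ne'
    simp only [Function.comp_apply, Matrix.toLin'_apply, Matrix.mulVec_diagonal, Pi.add_apply]
    field_simp
  rw [e, ← Measure.map_map hm hs.measurable, hs.map_eq, hd]

/-! ## The polynomial shear on tuples of Hermitian matrices -/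

section Shear

variable {n d : ℕ}

theorem herm_add_smul (c : ℝ) (a b : EuclideanSpace ℝ (Fin d × Fin d)) :
    hermitianOfCoords (WithLp.toLp 2 fun q => c * a q + b q) =
      (c : ℂ) • hermitianOfCoords a + hermitianOfCoords b := by
  simp only [herm_eq_sum, Finset.smul_sum, ← Finset.sum_add_distrib, smul_smul, ← add_smul]
  refine Finset.sum_congr rfl fun q _ => ?_
  simp

theorem continuous_matrixTuple (l : Fin n) :
    Continuous fun a : EuclideanSpace ℝ (Fin n × (Fin d × Fin d)) => matrixTuple a l := by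
  simp only [matrixTuple, herm_eq_sum]
  fun_prop

theorem matrixTuple_star (a : EuclideanSpace ℝ (Fin n × (Fin d × Fin d))) (l : Fin n) :
    star (matrixTuple a l) = matrixTuple a l := herm_isHermitian _

theorem sum_trace_sq (a : EuclideanSpace ℝ (Fin n × (Fin d × Fin d))) :
    ∑ l, (matrixTuple a l * matrixTuple a l).trace = ((‖a‖ ^ 2 : ℝ) : ℂ) := by
  simp only [matrixTuple, trace_herm_sq, EuclideanSpace.norm_sq_eq, Fintype.sum_prod_type]
  push_cast
  rfl

/-- the polynomial part of the shear, in coordinates -/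
noncomputable def shF (H : Fin n → NCPoly n) (a : Fin n × (Fin d × Fin d) → ℝ) :
    Fin n × (Fin d × Fin d) → ℝ :=
  fun j => ((Hb j.2 * polyEval (matrixTuple (WithLp.toLp 2 a)) (H j.1)).trace).re

/-- the triangular polynomial map -/
noncomputable def shT (c : Fin n → ℝ) (H : Fin n → NCPoly n)
    (a : EuclideanSpace ℝ (Fin n × (Fin d × Fin d))) : EuclideanSpace ℝ (Fin n × (Fin d × Fin d)) :=
  WithLp.toLp 2 fun j => c j.1 * a j + shF H (WithLp.ofLp a) j

theorem continuous_shF (H : Fin n → NCPoly n) : Continuous (shF (d := d) H) := by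
  refine continuous_pi fun j => Complex.continuous_re.comp (Continuous.matrix_trace ?_)
  exact continuous_const.mul (continuous_polyEval
    (fun l => (continuous_matrixTuple l).comp (PiLp.continuous_toLp 2 _)) _)

theorem matrixTuple_shT (c : Fin n → ℝ) {H : Fin n → NCPoly n} (hHs : ∀ i, polyStar (H i) = H i)
    (a : EuclideanSpace ℝ (Fin n × (Fin d × Fin d))) :
    matrixTuple (shT c H a) = fun i => (c i : ℂ) • matrixTuple a i +
      polyEval (matrixTuple a) (H i) := by
  funext i
  have hN : (polyEval (matrixTuple a) (H i)).IsHermitian := by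
    have := star_polyEval (matrixTuple_star a) (H i)
    rwa [hHs] at this
  rw [← herm_coords hN]
  exact herm_add_smul (c i) (WithLp.toLp 2 fun q => a (i, q))
    (WithLp.toLp 2 fun q => ((Hb q * polyEval (matrixTuple a) (H i)).trace).re)

theorem shT_map (p : Fin n → Prop) (c : Fin n → ℝ) (hc : ∀ i, 0 < c i) (H : Fin n → NCPoly n)
    (hH0 : ∀ i, p i → H i = 0)
    (hHp : ∀ i, ∀ w ∈ (H i).coeff.support, ∀ l ∈ FreeMonoid.toList w, p l) :
    Measurable (shT (d := d) c H) ∧
      ENNReal.ofReal ((∏ i, c i) ^ (d ^ 2)) • Measure.map (shT (d := d) c H) volume = volume := by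
  have h := tri_map (ι := Fin n × (Fin d × Fin d)) (fun j => p j.1) (fun j => c j.1)
    (fun j => hc j.1) (shF H) (continuous_shF H).measurable
    (fun a j hj => by simp [shF, hH0 j.1 hj])
    (fun a b hab => funext fun j => by
      rw [shF, shF, polyEval_congr (hHp j.1) (Y := matrixTuple (WithLp.toLp 2 b))]
      intro l hl
      unfold matrixTuple
      congr 2
      funext q
      exact hab (l, q) hl)
  have hm : Measurable fun (a : Fin n × (Fin d × Fin d) → ℝ) j => c j.1 * a j + shF H a j :=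
    measurable_pi_lambda _ fun j => ((measurable_pi_apply j).const_mul _).add
      ((measurable_pi_apply j).comp (continuous_shF H).measurable)
  have m1 := PiLp.volume_preserving_toLp (Fin n × (Fin d × Fin d))
  have m2 := PiLp.volume_preserving_ofLp (Fin n × (Fin d × Fin d))
  have e : shT (d := d) c H = WithLp.toLp 2 ∘
      (fun (a : Fin n × (Fin d × Fin d) → ℝ) j => c j.1 * a j + shF H a j) ∘ WithLp.ofLp := rfl
  have hp : ∏ j : Fin n × (Fin d × Fin d), c j.1 = (∏ i, c i) ^ (d ^ 2) := by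
    rw [Fintype.prod_prod_type, ← Finset.prod_pow]
    simp [sq]
  refine ⟨e ▸ m1.measurable.comp (hm.comp m2.measurable), ?_⟩
  rw [e, ← Measure.map_map m1.measurable (hm.comp m2.measurable),
    ← Measure.map_map hm m2.measurable, m2.map_eq, ← Measure.map_smul, ← hp, h, m1.map_eq]

theorem gueZ_pos (hd : 0 < d) : 0 < gueZ n d := by
  unfold gueZ
  have := Real.pi_pos
  positivity

theorem gue_univ_aux (hd : 0 < d) : gue n d Set.univ = ENNReal.ofReal (gueZ n d) := by
  have hd' : (0 : ℝ) < d / 2 := by positivity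
  have h := GaussianFourier.integral_rexp_neg_mul_sq_norm
    (V := EuclideanSpace ℝ (Fin n × (Fin d × Fin d))) hd'
  have e : (Real.pi / (d / 2)) ^ ((Module.finrank ℝ (EuclideanSpace ℝ (Fin n × (Fin d × Fin d))) :
      ℝ) / 2) = gueZ n d := by
    rw [gueZ, finrank_euclideanSpace]
    congr 1
    · field_simp
    · simp [sq]
  rw [e] at h
  have hi := Integrable.of_integral_ne_zero (h ▸ (gueZ_pos (n := n) hd).ne')
  rw [gue, withDensity_apply _ MeasurableSet.univ, Measure.restrict_univ, ← h,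
    ofReal_integral_eq_lintegral_ofReal hi (Eventually.of_forall fun _ => (Real.exp_pos _).le)]
  simp only [neg_div]

/-- volume of a Euclidean ball through the Gaussian normalisation -/
theorem vol_ball_le (hd : 0 < d) (r : ℝ) :
    volume {a : EuclideanSpace ℝ (Fin n × (Fin d × Fin d)) | ‖a‖ ^ 2 ≤ r} ≤
      ENNReal.ofReal (Real.exp (d / 2 * r) * gueZ n d) := by
  have hS : MeasurableSet {a : EuclideanSpace ℝ (Fin n × (Fin d × Fin d)) | ‖a‖ ^ 2 ≤ r} :=
    measurableSet_le (by fun_prop) measurable_const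
  have h1 : ENNReal.ofReal (Real.exp (-(d / 2 * r))) *
      volume {a : EuclideanSpace ℝ (Fin n × (Fin d × Fin d)) | ‖a‖ ^ 2 ≤ r} ≤
      ENNReal.ofReal (gueZ n d) := by
    rw [← gue_univ_aux hd]
    refine le_trans ?_ (measure_mono (Set.subset_univ {a | ‖a‖ ^ 2 ≤ r}))
    rw [gue, withDensity_apply _ hS, ← setLIntegral_const]
    refine setLIntegral_mono' hS fun a ha => ENNReal.ofReal_le_ofReal (Real.exp_le_exp.2 ?_)
    have : (0 : ℝ) ≤ d := Nat.cast_nonneg d
    have ha' : ‖a‖ ^ 2 ≤ r := ha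
    nlinarith
  rw [ENNReal.ofReal_mul (Real.exp_pos _).le]
  refine le_trans (le_of_eq ?_) (mul_le_mul_right h1 _)
  rw [← mul_assoc, ← ENNReal.ofReal_mul (Real.exp_pos _).le, ← Real.exp_add]
  simp

theorem log_gueZ (hd : 0 < d) :
    Real.log (gueZ n d) = n * (d : ℝ) ^ 2 / 2 * (Real.log (2 * Real.pi) - Real.log d) := by
  have := Real.pi_pos
  rw [gueZ, Real.log_rpow (by positivity), Real.log_div (by positivity) (by positivity)]

end Shear

/-! ## The two bounds -/

section Bounds

variable {A : Type*} [Ring A] [Algebra ℂ A] {n : ℕ}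

/-- the polynomial inverse of the triangular substitution -/
noncomputable def bwd (c : Fin n → ℝ) (H : Fin n → NCPoly n) (i : Fin n) : NCPoly n :=
  (c i : ℂ)⁻¹ • (Xv i - polyEval (fun l => (c l : ℂ)⁻¹ • Xv l) (H i))

theorem polyEval_bwd (g : Fin n → A) {p : Fin n → Prop} {c : Fin n → ℝ} (hc : ∀ i, 0 < c i)
    {H : Fin n → NCPoly n} (hH0 : ∀ i, p i → H i = 0)
    (hHp : ∀ i, ∀ w ∈ (H i).coeff.support, ∀ l ∈ FreeMonoid.toList w, p l) (i : Fin n) :
    polyEval (fun i => (c i : ℂ) • g i + polyEval g (H i)) (bwd c H i) = g i := by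
  have hc' : ∀ i, (c i : ℂ) ≠ 0 := fun i => Complex.ofReal_ne_zero.2 (hc i).ne'
  have e : polyEval (fun l => polyEval (fun i => (c i : ℂ) • g i + polyEval g (H i))
      ((c l : ℂ)⁻¹ • Xv l)) (H i) = polyEval g (H i) := polyEval_congr (hHp i) fun l hl => by
    rw [polyEval_smul, polyEval_Xv, hH0 l hl, polyEval_zero, add_zero, smul_smul,
      inv_mul_cancel₀ (hc' l), one_smul]
  rw [bwd, polyEval_smul, polyEval_sub, polyEval_Xv, polyEval_polyEval, e, add_sub_cancel_right,
    smul_smul, inv_mul_cancel₀ (hc' i), one_smul]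

theorem vol_lower (τ : A →ₗ[ℂ] ℂ) (g : Fin n → A)
    (p : Fin n → Prop) (c : Fin n → ℝ) (hc : ∀ i, 0 < c i) (H : Fin n → NCPoly n)
    (hH0 : ∀ i, p i → H i = 0)
    (hHp : ∀ i, ∀ w ∈ (H i).coeff.support, ∀ l ∈ FreeMonoid.toList w, p l)
    (hHs : ∀ i, polyStar (H i) = H i) (R : ℝ) : ∃ R' : ℝ, 0 < R' ∧ ∀ (m : ℕ) (ε : ℝ), 0 < ε →
      ∃ (m' : ℕ) (ε' : ℝ), 0 < ε' ∧ ∀ d : ℕ,
        ENNReal.ofReal ((∏ i, c i) ^ (d ^ 2)) * volume (microstates τ g R m' d ε') ≤
          volume (microstates τ (fun i => (c i : ℂ) • g i + polyEval g (H i)) R' m d ε) := by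
  let F : Fin n → NCPoly n := fun i => (c i : ℂ) • Xv i + H i
  choose R1 hR1 using fun i => exists_opN_poly R (F i)
  refine ⟨∑ i, |R1 i| + 1, by positivity, fun m ε hε => ?_⟩
  obtain ⟨m', ε', hε', h⟩ := unif_close τ g F m hε
  refine ⟨m', ε', hε', fun d => ?_⟩
  obtain ⟨hm, hv⟩ := shT_map (d := d) p c hc H hH0 hHp
  conv_rhs => rw [← hv]
  rw [Measure.smul_apply, smul_eq_mul]
  refine mul_le_mul_right (le_trans (measure_mono fun a ha => ?_)
    (Measure.le_map_apply hm.aemeasurable _)) _
  have e : matrixTuple (shT c H a) = fun i => polyEval (matrixTuple a) (F i) := by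
    rw [matrixTuple_shT c hHs]
    simp only [F, polyEval_add, polyEval_smul, polyEval_Xv]
  have e' : (fun i => (c i : ℂ) • g i + polyEval g (H i)) = fun i => polyEval g (F i) := by
    simp only [F, polyEval_add, polyEval_smul, polyEval_Xv]
  refine ⟨fun l => ?_, ?_⟩
  · rw [e]
    refine (hR1 l d _ ha.1).trans ((le_abs_self _).trans ?_)
    have := Finset.single_le_sum (f := fun i => |R1 i|) (fun i _ => abs_nonneg _)
      (Finset.mem_univ l)
    linarith
  · rw [e, e']
    exact h d _ ha.2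

theorem vol_upper (τ : A →ₗ[ℂ] ℂ) (g : Fin n → A)
    (p : Fin n → Prop) (c : Fin n → ℝ) (hc : ∀ i, 0 < c i) (H : Fin n → NCPoly n)
    (hH0 : ∀ i, p i → H i = 0)
    (hHp : ∀ i, ∀ w ∈ (H i).coeff.support, ∀ l ∈ FreeMonoid.toList w, p l)
    (hHs : ∀ i, polyStar (H i) = H i) (h2 : ∀ i, τ (g i * g i) = 1) :
    ∃ (m : ℕ) (ε : ℝ), 0 < ε ∧ ∀ (R : ℝ) (d : ℕ), 0 < d →
      volume (microstates τ (fun i => (c i : ℂ) • g i + polyEval g (H i)) R m d ε) ≤
        ENNReal.ofReal ((∏ i, c i) ^ (d ^ 2) * (Real.exp (d / 2 * (d * (n + 1))) * gueZ n d)) := by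
  let Q : NCPoly n := ∑ i, bwd c H i * bwd c H i
  have h1 := unif_poly τ (fun i => (c i : ℂ) • g i + polyEval g (H i)) Q one_pos
  have h3 : ∀ᶠ e : ℕ × ℝ in atTop ×ˢ 𝓝[>] 0, 0 < e.2 :=
    tendsto_snd.eventually self_mem_nhdsWithin
  obtain ⟨e, he1, he2⟩ := (h1.and h3).exists
  refine ⟨e.1, e.2, he2, fun R d hd => ?_⟩
  have hd' : (0 : ℝ) < d := Nat.cast_pos.2 hd
  have hQ : τ (polyEval (fun i => (c i : ℂ) • g i + polyEval g (H i)) Q) = n := by
    simp only [Q, polyEval_sum, polyEval_mul, polyEval_bwd g hc hH0 hHp, map_sum, h2]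
    simp
  let S : Set (EuclideanSpace ℝ (Fin n × (Fin d × Fin d))) :=
    {b | ((polyEval (matrixTuple b) Q).trace).re ≤ d * (n + 1)}
  have hS : MeasurableSet S := measurableSet_le (Complex.continuous_re.comp
    (continuous_polyEval continuous_matrixTuple Q).matrix_trace).measurable measurable_const
  obtain ⟨hm, hv⟩ := shT_map (d := d) p c hc H hH0 hHp
  have hp : 0 ≤ (∏ i, c i) ^ (d ^ 2) := pow_nonneg (Finset.prod_nonneg fun i _ => (hc i).le) _
  calc volume (microstates τ (fun i => (c i : ℂ) • g i + polyEval g (H i)) R e.1 d e.2)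
      ≤ volume S := measure_mono fun b hb => by
        have h4 := he1 d _ hb.2
        rw [hQ] at h4
        have h5 := (Complex.re_le_norm _).trans_lt h4
        have h6 : ((d : ℂ)⁻¹ * (polyEval (matrixTuple b) Q).trace).re =
            (d : ℝ)⁻¹ * ((polyEval (matrixTuple b) Q).trace).re := by
          rw [← Complex.re_ofReal_mul]
          simp
        rw [Complex.sub_re, h6, Complex.natCast_re, sub_lt_iff_lt_add,
          inv_mul_lt_iff₀ hd'] at h5
        show ((polyEval (matrixTuple b) Q).trace).re ≤ d * (n + 1)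
        linarith
    _ = ENNReal.ofReal ((∏ i, c i) ^ (d ^ 2)) * volume {a | ‖a‖ ^ 2 ≤ d * (n + 1 : ℝ)} := by
        conv_lhs => rw [← hv]
        rw [Measure.smul_apply, smul_eq_mul, Measure.map_apply hm hS]
        congr 2
        ext a
        simp only [S, Set.mem_preimage, Set.mem_ofPred_eq, matrixTuple_shT c hHs, Q, polyEval_sum,
          polyEval_mul, polyEval_bwd _ hc hH0 hHp, Matrix.trace_sum, sum_trace_sq,
          Complex.ofReal_re]
    _ ≤ _ := by
        rw [ENNReal.ofReal_mul hp]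
        exact mul_le_mul_right (vol_ball_le hd _) _

theorem term_mono {d : ℕ} (x : ℝ) {u v : ENNReal} (h : u ≤ v) :
    ((((d : ℝ) ^ 2)⁻¹ : ℝ) : EReal) * u.log + (x : EReal) ≤
      ((((d : ℝ) ^ 2)⁻¹ : ℝ) : EReal) * v.log + (x : EReal) :=
  add_le_add_left (mul_le_mul_of_nonneg_left (ENNReal.log_le_log h)
    (EReal.coe_nonneg.2 (by positivity))) _

theorem chi_bounds {A : Type*} [Ring A] [Algebra ℂ A] {n : ℕ} (τ : A →ₗ[ℂ] ℂ) (g : Fin n → A)
    (p : Fin n → Prop) (c : Fin n → ℝ) (hc : ∀ i, 0 < c i) (H : Fin n → NCPoly n)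
    (hH0 : ∀ i, p i → H i = 0)
    (hHp : ∀ i, ∀ w ∈ (H i).coeff.support, ∀ l ∈ FreeMonoid.toList w, p l)
    (hHs : ∀ i, polyStar (H i) = H i) (h2 : ∀ i, τ (g i * g i) = 1)
    (hlow : ∀ (m : ℕ) (ε : ℝ), 0 < ε → ∀ᶠ d : ℕ in atTop,
      ENNReal.ofReal (2⁻¹ * gueZ n d) ≤
        volume (microstates τ g 32 m d ε)) :
    ⊥ < chi τ (fun i => (c i : ℂ) • g i + polyEval g (H i)) ∧
      chi τ (fun i => (c i : ℂ) • g i + polyEval g (H i)) ≤
        (((n : ℝ) / 2 * Real.log (2 * Real.pi * Real.exp 1) + ∑ i, Real.log (c i) + 1 / 2 : ℝ) :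
          EReal) := by
  have hp : 0 < ∏ i, c i := Finset.prod_pos fun i _ => hc i
  have hl : Real.log (∏ i, c i) = ∑ i, Real.log (c i) := Real.log_prod fun i _ => (hc i).ne'
  have hpi := Real.pi_pos
  constructor
  · obtain ⟨R', hR', h⟩ := vol_lower τ g p c hc H hH0 hHp hHs 32
    refine lt_of_lt_of_le (EReal.bot_lt_coe
      (∑ i, Real.log (c i) - Real.log 2 + n / 2 * Real.log (2 * Real.pi))) ?_
    refine le_iSup₂_of_le R' hR' (le_iInf fun m => le_iInf₂ fun ε hε => ?_)
    obtain ⟨m', ε', hε', h'⟩ := h m ε hε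
    refine le_limsup_of_frequently_le (Eventually.frequently ?_)
    filter_upwards [hlow m' ε' hε', eventually_gt_atTop 0] with d h1 hd
    have hd' : (1 : ℝ) ≤ d := Nat.one_le_cast.2 hd
    have hz := gueZ_pos (n := n) hd
    refine le_trans ?_ (term_mono _ ((mul_le_mul_right h1 _).trans (h' d)))
    rw [← ENNReal.ofReal_mul (by positivity), ENNReal.log_ofReal_of_pos (by positivity),
      ← EReal.coe_mul, ← EReal.coe_add, EReal.coe_le_coe_iff,
      Real.log_mul (x := (∏ i, c i) ^ (d ^ 2)) (by positivity) (by positivity),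
      Real.log_mul (by positivity) hz.ne', Real.log_pow, log_gueZ hd, hl, Real.log_inv]
    have h3 : ((d : ℝ) ^ 2)⁻¹ ≤ 1 := inv_le_one_of_one_le₀ (one_le_pow₀ hd')
    have h4 : 0 ≤ Real.log 2 := Real.log_nonneg one_le_two
    have h5 : ((d : ℝ) ^ 2)⁻¹ * (((d ^ 2 : ℕ) : ℝ) * ∑ i, Real.log (c i) + (-Real.log 2 +
        n * (d : ℝ) ^ 2 / 2 * (Real.log (2 * Real.pi) - Real.log d))) + n / 2 * Real.log d =
        ∑ i, Real.log (c i) - ((d : ℝ) ^ 2)⁻¹ * Real.log 2 + n / 2 * Real.log (2 * Real.pi) := by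
      push_cast
      field_simp
      ring
    rw [h5]
    nlinarith
  · obtain ⟨m, ε, hε, h⟩ := vol_upper τ g p c hc H hH0 hHp hHs h2
    refine iSup₂_le fun R _ => (iInf_le_of_le m (iInf₂_le ε hε)).trans ?_
    refine limsup_le_of_le (hf := by isBoundedDefault) ?_
    filter_upwards [eventually_gt_atTop 0] with d hd
    have hd' : (0 : ℝ) < d := Nat.cast_pos.2 hd
    have hz := gueZ_pos (n := n) hd
    refine (term_mono _ (h R d hd)).trans (le_of_eq ?_)
    rw [ENNReal.log_ofReal_of_pos (by positivity), ← EReal.coe_mul, ← EReal.coe_add,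
      EReal.coe_eq_coe_iff, Real.log_mul (by positivity) (by positivity),
      Real.log_mul (by positivity) hz.ne', Real.log_pow, log_gueZ hd, hl, Real.log_exp,
      Real.log_mul (x := 2 * Real.pi) (by positivity) (by positivity), Real.log_exp]
    push_cast
    field_simp
    ring

end Bounds

end Crest.Agent.R89
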