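import Crest.Agent.R89.Defs

/-!
# Row 89: non-commutative polynomials (evaluation, substitution, adjoints, uniform estimates)
-/

set_option autoImplicit false

namespace Crest.Agent.R89

open Crest.OpAlg Filter Topology

section Eval

variable {A A' : Type*} [Ring A] [Algebra ℂ A] [Ring A'] [Algebra ℂ A'] {n k : ℕ}

/-- `polyEval` as an algebra homomorphism -/
noncomputable def pe (X : Fin n → A) : NCPoly n →ₐ[ℂ] A :=
  MonoidAlgebra.lift ℂ A (FreeMonoid (Fin n)) (FreeMonoid.lift X)

theorem polyEval_eq (X : Fin n → A) (P : NCPoly n) : polyEval X P = pe X P := rfl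

@[simp] theorem polyEval_zero (X : Fin n → A) : polyEval X 0 = 0 := map_zero (pe X)

@[simp] theorem polyEval_one (X : Fin n → A) : polyEval X 1 = 1 := map_one (pe X)

@[simp] theorem polyEval_add (X : Fin n → A) (P Q : NCPoly n) :
    polyEval X (P + Q) = polyEval X P + polyEval X Q := map_add (pe X) P Q

@[simp] theorem polyEval_sub (X : Fin n → A) (P Q : NCPoly n) :
    polyEval X (P - Q) = polyEval X P - polyEval X Q := map_sub (pe X) P Q

@[simp] theorem polyEval_mul (X : Fin n → A) (P Q : NCPoly n) :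
    polyEval X (P * Q) = polyEval X P * polyEval X Q := map_mul (pe X) P Q

@[simp] theorem polyEval_smul (X : Fin n → A) (c : ℂ) (P : NCPoly n) :
    polyEval X (c • P) = c • polyEval X P := map_smul (pe X) c P

theorem polyEval_sum {ι : Type*} (X : Fin n → A) (s : Finset ι) (P : ι → NCPoly n) :
    polyEval X (∑ i ∈ s, P i) = ∑ i ∈ s, polyEval X (P i) := map_sum (pe X) P s

@[simp] theorem polyEval_single (X : Fin n → A) (w : FreeMonoid (Fin n)) (c : ℂ) :
    polyEval X (MonoidAlgebra.single w c) = c • wordEval X w := MonoidAlgebra.lift_single _ _ _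

theorem polyEval_apply (X : Fin n → A) (P : NCPoly n) :
    polyEval X P = P.coeff.sum fun w c => c • wordEval X w := MonoidAlgebra.lift_apply _ _

/-- the `i`-th letter as a polynomial -/
noncomputable def Xv (i : Fin n) : NCPoly n := MonoidAlgebra.single (FreeMonoid.of i) 1

@[simp] theorem polyEval_Xv (X : Fin n → A) (i : Fin n) : polyEval X (Xv i) = X i := by
  simp [Xv, wordEval]

theorem map_wv {I M N F : Type*} [Monoid M] [Monoid N] [FunLike F M N] [MonoidHomClass F M N]
    (φ : F) (X : I → M) (w : List I) : φ (wv X w) = wv (fun i => φ (X i)) w := by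
  induction w with
  | nil => simp
  | cons i w ih => simp [ih]

theorem map_wordEval (φ : A →ₐ[ℂ] A') (X : Fin n → A) (w : FreeMonoid (Fin n)) :
    φ (wordEval X w) = wordEval (fun i => φ (X i)) w := by
  rw [wordEval_eq_wv, wordEval_eq_wv, map_wv]

theorem map_polyEval (φ : A →ₐ[ℂ] A') (X : Fin n → A) (P : NCPoly n) :
    φ (polyEval X P) = polyEval (fun i => φ (X i)) P := by
  induction P using MonoidAlgebra.induction_linear with
  | zero => simp
  | add P Q hP hQ => simp [hP, hQ]
  | single w c => simp [map_wordEval]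

theorem polyEval_wordEval (X : Fin n → A) (F : Fin k → NCPoly n) (w : FreeMonoid (Fin k)) :
    polyEval X (wordEval F w) = wordEval (fun i => polyEval X (F i)) w :=
  map_wordEval (pe X) F w

theorem polyEval_polyEval (X : Fin n → A) (F : Fin k → NCPoly n) (P : NCPoly k) :
    polyEval X (polyEval F P) = polyEval (fun i => polyEval X (F i)) P :=
  map_polyEval (pe X) F P

theorem wv_congr {I M : Type*} [Monoid M] {X Y : I → M} {w : List I} (h : ∀ l ∈ w, X l = Y l) :
    wv X w = wv Y w := by
  unfold wv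
  rw [List.map_congr_left h]

theorem polyEval_congr {X Y : Fin n → A} {P : NCPoly n} {p : Fin n → Prop}
    (hP : ∀ w ∈ P.coeff.support, ∀ l ∈ FreeMonoid.toList w, p l) (h : ∀ l, p l → X l = Y l) :
    polyEval X P = polyEval Y P := by
  rw [polyEval_apply, polyEval_apply]
  refine Finsupp.sum_congr fun w hw => ?_
  rw [wordEval_eq_wv, wordEval_eq_wv, wv_congr fun l hl => h l (hP w hw l hl)]

theorem star_wv {I M : Type*} [Monoid M] [StarMul M] {X : I → M} (hX : ∀ i, star (X i) = X i)
    (w : List I) : star (wv X w) = wv X w.reverse := by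
  induction w with
  | nil => simp
  | cons i w ih => simp [ih, hX]

theorem star_polyEval [StarRing A] [StarModule ℂ A] {X : Fin n → A} (hX : ∀ i, star (X i) = X i)
    (P : NCPoly n) : star (polyEval X P) = polyEval X (polyStar P) := by
  rw [polyEval_apply, polyStar, Finsupp.sum, Finsupp.sum, star_sum, polyEval_sum]
  refine Finset.sum_congr rfl fun w _ => ?_
  rw [polyEval_single, star_smul, wordEval_eq_wv, wordEval_eq_wv, star_wv hX]
  rfl

theorem continuous_wv {I M Y : Type*} [Monoid M] [TopologicalSpace M] [ContinuousMul M]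
    [TopologicalSpace Y] {X : Y → I → M} (hX : ∀ i, Continuous fun y => X y i) (w : List I) :
    Continuous fun y => wv (X y) w := by
  induction w with
  | nil => simpa using continuous_const
  | cons i w ih => simp only [wv_cons]; exact (hX i).mul ih

theorem continuous_polyEval {Y : Type*} [TopologicalSpace A] [IsTopologicalRing A]
    [ContinuousConstSMul ℂ A] [TopologicalSpace Y] {X : Y → Fin n → A}
    (hX : ∀ i, Continuous fun y => X y i) (P : NCPoly n) :
    Continuous fun y => polyEval (X y) P := by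
  induction P using MonoidAlgebra.induction_linear with
  | zero => simpa using continuous_const
  | add P Q hP hQ => simp only [polyEval_add]; exact hP.add hQ
  | single w c =>
    simp only [polyEval_single, wordEval_eq_wv]
    exact (continuous_wv hX _).const_smul c

end Eval

section Uniform

variable {A : Type*} [Ring A] [Algebra ℂ A] {n : ℕ}

/-- operator norm of a matrix -/
noncomputable abbrev opN {d : ℕ} (M : Matrix (Fin d) (Fin d) ℂ) : ℝ :=
  ‖Matrix.toEuclideanCLM (n := Fin d) (𝕜 := ℂ) M‖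

theorem exists_opN_wv (R : ℝ) (w : List (Fin n)) : ∃ R' : ℝ, ∀ (d : ℕ)
    (N : Fin n → Matrix (Fin d) (Fin d) ℂ), (∀ l, opN (N l) ≤ R) → opN (wv N w) ≤ R' := by
  induction w with
  | nil =>
    refine ⟨1, fun d N _ => ?_⟩
    rw [wv_nil, opN, map_one]
    exact ContinuousLinearMap.norm_id_le
  | cons i w ih =>
    obtain ⟨R', h⟩ := ih
    refine ⟨R * R', fun d N hN => ?_⟩
    rw [wv_cons, opN, map_mul]
    exact (norm_mul_le _ _).trans
      (mul_le_mul (hN i) (h d N hN) (norm_nonneg _) ((norm_nonneg _).trans (hN i)))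

theorem exists_opN_poly (R : ℝ) (Q : NCPoly n) : ∃ R' : ℝ, ∀ (d : ℕ)
    (N : Fin n → Matrix (Fin d) (Fin d) ℂ), (∀ l, opN (N l) ≤ R) → opN (polyEval N Q) ≤ R' := by
  induction Q using MonoidAlgebra.induction_linear with
  | zero => exact ⟨0, fun d N _ => by simp [opN]⟩
  | add P Q hP hQ =>
    obtain ⟨R1, h1⟩ := hP
    obtain ⟨R2, h2⟩ := hQ
    refine ⟨R1 + R2, fun d N hN => ?_⟩
    rw [polyEval_add, opN, map_add]
    exact (norm_add_le _ _).trans (add_le_add (h1 d N hN) (h2 d N hN))
  | single w c =>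
    obtain ⟨R', h⟩ := exists_opN_wv R (FreeMonoid.toList w)
    refine ⟨‖c‖ * R', fun d N hN => ?_⟩
    rw [polyEval_single, opN, map_smul, norm_smul, wordEval_eq_wv]
    exact mul_le_mul_of_nonneg_left (h d N hN) (norm_nonneg _)

/-- the moments of words of length at most `m` are `ε`-close -/
def Close (τ : A →ₗ[ℂ] ℂ) (g : Fin n → A) {d : ℕ} (N : Fin n → Matrix (Fin d) (Fin d) ℂ) (m : ℕ)
    (ε : ℝ) : Prop :=
  ∀ w : FreeMonoid (Fin n), (FreeMonoid.toList w).length ≤ m →
    ‖matrixMoment N w - τ (wordEval g w)‖ < ε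

theorem unif_poly (τ : A →ₗ[ℂ] ℂ) (g : Fin n → A) (Q : NCPoly n) {ε : ℝ} (hε : 0 < ε) :
    ∀ᶠ e : ℕ × ℝ in atTop ×ˢ 𝓝[>] 0, ∀ (d : ℕ) (N : Fin n → Matrix (Fin d) (Fin d) ℂ),
      Close τ g N e.1 e.2 → ‖(d : ℂ)⁻¹ * (polyEval N Q).trace - τ (polyEval g Q)‖ < ε := by
  induction Q using MonoidAlgebra.induction_linear generalizing ε with
  | zero => exact Eventually.of_forall fun e d N _ => by simpa using hε
  | add P Q hP hQ =>
    filter_upwards [hP (half_pos hε), hQ (half_pos hε)] with e h1 h2 d N hN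
    have e1 := h1 d N hN
    have e2 := h2 d N hN
    rw [polyEval_add, polyEval_add, Matrix.trace_add, map_add, mul_add, add_sub_add_comm]
    linarith [norm_add_le ((d : ℂ)⁻¹ * (polyEval N P).trace - τ (polyEval g P))
      ((d : ℂ)⁻¹ * (polyEval N Q).trace - τ (polyEval g Q))]
  | single w c =>
    have h0 : 0 < ε / (‖c‖ + 1) := by positivity
    have a : ∀ᶠ m : ℕ in atTop, (FreeMonoid.toList w).length ≤ m := eventually_ge_atTop _
    have b : ∀ᶠ x : ℝ in 𝓝[>] 0, x < ε / (‖c‖ + 1) := nhdsWithin_le_nhds (Iio_mem_nhds h0)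
    filter_upwards [a.prod_mk b] with e he d N hN
    have h1 := (hN w he.1).trans he.2
    rw [polyEval_single, polyEval_single, Matrix.trace_smul, map_smul, smul_eq_mul, smul_eq_mul,
      mul_left_comm, ← mul_sub, norm_mul]
    rw [matrixMoment, lt_div_iff₀ (by positivity)] at h1
    nlinarith [norm_nonneg ((d : ℂ)⁻¹ * (wordEval N w).trace - τ (wordEval g w)), norm_nonneg c]

/-- moments of a polynomial image are uniformly controlled -/
theorem unif_close {k : ℕ} (τ : A →ₗ[ℂ] ℂ) (g : Fin n → A) (F : Fin k → NCPoly n) (m : ℕ) {ε : ℝ}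
    (hε : 0 < ε) : ∃ (m' : ℕ) (ε' : ℝ), 0 < ε' ∧
      ∀ (d : ℕ) (N : Fin n → Matrix (Fin d) (Fin d) ℂ), Close τ g N m' ε' →
        Close τ (fun i => polyEval g (F i)) (fun i => polyEval N (F i)) m ε := by
  have hfin : {l : List (Fin k) | l.length ≤ m}.Finite := List.finite_length_le _ m
  have h1 := (eventually_all_finite hfin).2 fun l _ =>
    unif_poly τ g (wordEval F (FreeMonoid.ofList l)) hε
  have h2 : ∀ᶠ e : ℕ × ℝ in atTop ×ˢ 𝓝[>] 0, 0 < e.2 :=
    tendsto_snd.eventually self_mem_nhdsWithin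
  obtain ⟨e, he1, he2⟩ := (h1.and h2).exists
  refine ⟨e.1, e.2, he2, fun d N hN w hw => ?_⟩
  have := he1 (FreeMonoid.toList w) hw d N hN
  rwa [polyEval_wordEval, polyEval_wordEval, FreeMonoid.ofList_toList] at this

end Uniform

end Crest.Agent.R89
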