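import Crest.Agent.R89.Num
import Crest.Agent.R89.ChiPoly
import Crest.Agent.R120.L2

/-! General bounds for the free Fisher information. -/

set_option autoImplicit false

namespace Crest.Agent.R89

open scoped ComplexOrder
open Finset Crest.OpAlg Crest.Agent.R120

lemma sp_map {L L' M : Type*} [AddCommMonoid M] (e : L → L') (w : List L)
    (g : List L' → L' → List L' → M) :
    sp (w.map e) g = sp w fun a l b => g (a.map e) (e l) (b.map e) := by
  induction w generalizing g with
  | nil => rfl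
  | cons l w ih => simp [sp, ih]

lemma wv_map {L L' M : Type*} [Monoid M] (e : L → L') (Z : L' → M) (w : List L) :
    wv Z (w.map e) = wv (fun i => Z (e i)) w := by
  simp [wv, Function.comp_def]

section
variable {A A' : Type*} [Ring A] [Algebra ℂ A] [Ring A'] [Algebra ℂ A'] {n : ℕ}

/-- `ξ` represents the `i`-th free difference quotient. -/
def Conj {J : Type*} [DecidableEq J] (τ : A →ₗ[ℂ] ℂ) (Z : J → A) (i : J) (ξ : A) : Prop :=
  ∀ u, τ (ξ * wv Z u) = sp u fun a l b => if l = i then τ (wv Z a) * τ (wv Z b) else 0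

lemma Conj.comp {J J' : Type*} [DecidableEq J] [DecidableEq J'] {τ : A →ₗ[ℂ] ℂ} {Z : J → A}
    {e : J' → J} (he : Function.Injective e) {i : J'} {ξ : A} (h : Conj τ Z (e i) ξ) :
    Conj τ (fun i => Z (e i)) i ξ := fun u => by
  rw [← wv_map, h, sp_map]
  simp only [wv_map, he.eq_iff]

lemma splitPairing_eq (τ : A →ₗ[ℂ] ℂ) (Z : Fin n → A) (i : Fin n) (P : NCPoly n) :
    splitPairing τ Z i P = P.coeff.sum fun w c => c * sp (FreeMonoid.toList w) fun a l b =>
      if l = i then τ (wv Z a) * τ (wv Z b) else 0 := by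
  simp only [splitPairing, sp_ite, wordEval_eq_wv, Equiv.apply_symm_apply]

lemma Conj.splitPairing {τ : A →ₗ[ℂ] ℂ} {Z : Fin n → A} {i : Fin n} {ξ : A} (h : Conj τ Z i ξ)
    (P : NCPoly n) : splitPairing τ Z i P = τ (ξ * polyEval Z P) := by
  rw [splitPairing_eq, polyEval_apply, Finsupp.sum, Finsupp.sum, Finset.mul_sum, map_sum]
  refine Finset.sum_congr rfl fun w _ => ?_
  rw [mul_smul_comm, map_smul, wordEval_eq_wv, h, smul_eq_mul]

lemma le_fisher (τ : A →ₗ[ℂ] ℂ) (Z : Fin n → A) (h1 : τ 1 = 1) (c : ℝ) :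
    ENNReal.ofReal (∑ i, (2 * c - c ^ 2 * (τ (Z i * Z i)).re)) ≤ freeFisher τ Z := by
  refine le_iSup₂_of_le (fun i => MonoidAlgebra.single (FreeMonoid.of i) (c : ℂ)) (fun i => ?_)
    (le_of_eq ?_)
  · simp [polyStar]
  · rw [Complex.re_sum]
    refine congrArg _ (Finset.sum_congr rfl fun i _ => ?_)
    simp [splitPairing_eq, sp, h1, wordEval, sq, mul_assoc]

lemma freeFisher_map (φ : A →ₐ[ℂ] A') (τ : A' →ₗ[ℂ] ℂ) (Z : Fin n → A) :
    freeFisher (τ ∘ₗ φ.toLinearMap) Z = freeFisher τ fun i => φ (Z i) := by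
  simp only [freeFisher, splitPairing, LinearMap.comp_apply, AlgHom.toLinearMap_apply, map_mul,
    map_polyEval, map_wordEval]

lemma chi_map (φ : A →ₐ[ℂ] A') (τ : A' →ₗ[ℂ] ℂ) (Z : Fin n → A) :
    chi (τ ∘ₗ φ.toLinearMap) Z = chi τ fun i => φ (Z i) := by
  simp only [chi, chiCutoff, microstates, LinearMap.comp_apply, AlgHom.toLinearMap_apply,
    map_wordEval]

end

variable {B : Type*} [CStarAlgebra B] [PartialOrder B] [StarOrderedRing B] (ω : B →ₚ[ℂ] ℂ) {n : ℕ}

lemma fisher_le {Z ξ : Fin n → B} (hZ : ∀ i, IsSelfAdjoint (Z i))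
    (h : ∀ i, Conj ω.toLinearMap Z i (ξ i)) :
    freeFisher ω.toLinearMap Z ≤ ENNReal.ofReal (∑ i, n2 ω (star (ξ i)) ^ 2) := by
  refine iSup₂_le fun P hP => ENNReal.ofReal_le_ofReal ?_
  rw [Complex.re_sum]
  refine Finset.sum_le_sum fun i _ => ?_
  have h1 : star (polyEval Z (P i)) = polyEval Z (P i) := by rw [star_polyEval hZ, hP]
  have h2 := n2_sq_re ω (polyEval Z (P i))
  have h3 := (Complex.re_le_norm _).trans (norm_tr_le ω (star (ξ i)) (polyEval Z (P i)))
  rw [h1] at h2
  rw [star_star] at h3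
  rw [(h i).splitPairing]
  simp only [Complex.sub_re, Complex.mul_re, Complex.re_ofNat, Complex.im_ofNat, zero_mul,
    sub_zero, PositiveLinearMap.coe_toLinearMap]
  nlinarith [sq_nonneg (n2 ω (star (ξ i)) - n2 ω (polyEval Z (P i)))]

lemma measurable_fisher (Z S : Fin n → B) :
    Measurable fun s : ℝ => freeFisher ω.toLinearMap (heatTuple Z S s) := by
  refine (lowerSemicontinuous_biSup fun P _ => Continuous.lowerSemicontinuous ?_).measurable
  have h1 : ∀ i, Continuous fun s : ℝ => heatTuple Z S s i := fun i => by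
    unfold heatTuple; fun_prop
  have h2 : ∀ w, Continuous fun s : ℝ => ω (wv (heatTuple Z S s) w) := fun w =>
    (tr_continuous ω).comp (continuous_wv h1 w)
  refine ENNReal.continuous_ofReal.comp (Complex.continuous_re.comp
    (continuous_finsetSum _ fun i _ => Continuous.sub (continuous_const.mul ?_)
      ((tr_continuous ω).comp ((continuous_polyEval h1 _).mul (continuous_polyEval h1 _)))))
  simp only [splitPairing_eq, sp_eq_sum, Finsupp.sum]
  refine continuous_finsetSum _ fun w _ => continuous_const.mul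
    (continuous_finsetSum _ fun k _ => ?_)
  split_ifs
  exacts [(h2 _).mul (h2 _), continuous_const]

end Crest.Agent.R89
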