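import Crest.Agent.R89.Defs
import Crest.Agent.R73.L2

/-!
# Row 89: the full Fock space model, trace property, Schwinger-Dyson equations and freeness
-/

set_option autoImplicit false
set_option linter.unusedSectionVars false

namespace Crest.Agent.R89

open scoped ComplexOrder InnerProductSpace
open Crest.Agent.R120

/-- `D + D*` commutes with the generated C*-algebra. -/
lemma comm_gen {I B : Type*} [CStarAlgebra B] {s : I → B} {D : B} (hs : ∀ j, IsSelfAdjoint (s j))
    (h : ∀ j, IsSelfAdjoint (D * s j - s j * D)) {b : B} (hb : b ∈ gen (Set.range s)) :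
    (D + star D) * b = b * (D + star D) := by
  have hT : star (D + star D) = D + star D := by rw [star_add, star_star, add_comm]
  let C : StarSubalgebra ℂ B :=
    { carrier := {b | (D + star D) * b = b * (D + star D)}
      mul_mem' := fun {x y} hx hy => by
        simp only [Set.mem_ofPred_eq] at hx hy ⊢
        rw [← mul_assoc, hx, mul_assoc, hy, mul_assoc]
      add_mem' := fun {x y} hx hy => by
        simp only [Set.mem_ofPred_eq] at hx hy ⊢
        rw [mul_add, hx, hy, ← add_mul]
      algebraMap_mem' := fun c => (Algebra.commutes c _).symm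
      star_mem' := fun {x} hx => by
        simp only [Set.mem_ofPred_eq] at hx ⊢
        have := congrArg star hx
        rw [star_mul, star_mul, hT] at this
        exact this.symm }
  have hC : IsClosed (C : Set B) :=
    isClosed_eq (continuous_const.mul continuous_id) (continuous_id.mul continuous_const)
  refine gen_le hC ?_ hb
  rintro _ ⟨j, rfl⟩
  change (D + star D) * s j = s j * (D + star D)
  have := (h j).star_eq
  rw [star_sub, star_mul, star_mul, (hs j).star_eq] at this
  rw [sub_eq_sub_iff_add_eq_add] at this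
  rw [add_mul, mul_add, ← this, add_comm]

section Model

open Crest.Agent.R73 (L2 pull dl pull_apply dl_apply inner_dl)

lemma star_pull_apply {X : Type} (f : X → X) (hf : Function.Injective f) (ξ : L2 X) (y : X) :
    star (pull f hf) ξ y = ⟪pull f hf (dl y), ξ⟫_ℂ := by
  rw [← inner_dl, ContinuousLinearMap.star_eq_adjoint, ContinuousLinearMap.adjoint_inner_right]

lemma pull_dl {X : Type} (f : X → X) (hf : Function.Injective f) (x : X) :
    pull f hf (dl (f x)) = dl x := by
  classical
  ext y
  simp only [pull_apply, dl_apply, hf.eq_iff]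

lemma pull_dl_of_ne {X : Type} (f : X → X) (hf : Function.Injective f) {y : X}
    (hy : ∀ x, f x ≠ y) : pull f hf (dl y) = 0 := by
  classical
  ext x
  rw [pull_apply, dl_apply, if_neg (hy x)]
  rfl

lemma star_pull_dl {X : Type} (f : X → X) (hf : Function.Injective f) (x : X) :
    star (pull f hf) (dl x) = dl (f x) := by
  classical
  ext y
  rw [star_pull_apply, ← inner_conj_symm, inner_dl, pull_apply, dl_apply, dl_apply]
  by_cases h : y = f x
  · simp [h]
  · simp [h, Ne.symm h]

lemma norm_pull_le {X : Type} (f : X → X) (hf : Function.Injective f) : ‖pull f hf‖ ≤ 1 :=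
  LinearMap.mkContinuous_norm_le _ zero_le_one _

lemma ext_dl {X : Type} {a b : L2 X →L[ℂ] L2 X} (h : ∀ x, a (dl x) = b (dl x)) : a = b := by
  classical
  refine lp.ext_continuousLinearMap (by norm_num) fun x => ?_
  ext1
  have := h x
  simp only [dl] at this
  convert this using 1 <;> simp

variable {I : Type} [DecidableEq I]

/-- left annihilation -/
noncomputable def opC (i : I) : L2 (List I) →L[ℂ] L2 (List I) :=
  pull (List.cons i) fun _ _ h => (List.cons.inj h).2

/-- right annihilation -/
noncomputable def opD (i : I) : L2 (List I) →L[ℂ] L2 (List I) :=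
  pull (fun w => w ++ [i]) fun _ _ h => List.append_cancel_right h

lemma star_opC_nil (i : I) (ξ : L2 (List I)) : star (opC i) ξ [] = 0 := by
  rw [opC, star_pull_apply, pull_dl_of_ne _ _ (fun x => List.cons_ne_nil i x), inner_zero_left]

lemma star_opC_cons (i l : I) (w : List I) (ξ : L2 (List I)) :
    star (opC i) ξ (l :: w) = if l = i then ξ w else 0 := by
  rw [opC, star_pull_apply]
  split_ifs with h
  · subst h
    rw [pull_dl, inner_dl]
  · rw [pull_dl_of_ne _ _ (fun x e => h (List.cons.inj e).1.symm), inner_zero_left]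

lemma opD_nil (i : I) : opD i (dl []) = 0 :=
  pull_dl_of_ne _ _ fun x => by simp

lemma opD_concat (i j : I) (w : List I) :
    opD i (dl (w ++ [j])) = if i = j then dl w else 0 := by
  split_ifs with h
  · subst h
    exact pull_dl _ _ w
  · exact pull_dl_of_ne _ _ fun x e => h (by simpa using (List.append_inj' e rfl).2)

lemma star_opD_dl (i : I) (w : List I) : star (opD i) (dl w) = dl (w ++ [i]) :=
  star_pull_dl _ _ w

/-- the vacuum projection -/
noncomputable def opP : L2 (List I) →L[ℂ] L2 (List I) :=
  InnerProductSpace.rankOne ℂ (dl ([] : List I)) (dl ([] : List I))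

lemma opP_sa : IsSelfAdjoint (opP : L2 (List I) →L[ℂ] L2 (List I)) := by
  rw [IsSelfAdjoint, ContinuousLinearMap.star_eq_adjoint, opP, InnerProductSpace.adjoint_rankOne]

lemma op_comm (i j : I) :
    opD i * (opC j + star (opC j)) - (opC j + star (opC j)) * opD i =
      if i = j then opP else 0 := by
  ext ξ w
  have e1 : (opD i * (opC j + star (opC j)) - (opC j + star (opC j)) * opD i) ξ w =
      (ξ (j :: (w ++ [i])) + star (opC j) ξ (w ++ [i])) -
        (ξ (j :: (w ++ [i])) + star (opC j) (opD i ξ) w) := rfl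
  have e2 : opP ξ w = ξ [] * dl ([] : List I) w := by
    rw [opP, InnerProductSpace.rankOne_apply, inner_dl]
    rfl
  rw [e1]
  cases w with
  | nil =>
    rw [List.nil_append, star_opC_nil, star_opC_cons]
    split_ifs with h
    · rw [e2, dl_apply]
      simp
    · simp
  | cons l w =>
    rw [List.cons_append, star_opC_cons, star_opC_cons]
    have e3 : opD i ξ w = ξ (w ++ [i]) := rfl
    rw [e3, sub_self]
    split_ifs with h
    · rw [e2, dl_apply]
      simp
    · rfl

end Model

/-- vector state -/
noncomputable def vecState {H : Type*} [NormedAddCommGroup H] [InnerProductSpace ℂ H]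
    [CompleteSpace H] (Ω : H) : (H →L[ℂ] H) →ₚ[ℂ] ℂ :=
  PositiveLinearMap.mk₀ ((innerSL ℂ Ω).comp (ContinuousLinearMap.apply ℂ H Ω)).toLinearMap
    fun x hx => by
      obtain ⟨y, rfl⟩ := CStarAlgebra.nonneg_iff_eq_star_mul_self.1 hx
      change 0 ≤ ⟪Ω, star y (y Ω)⟫_ℂ
      rw [ContinuousLinearMap.star_eq_adjoint, ContinuousLinearMap.adjoint_inner_right,
        inner_self_eq_norm_sq_to_K]
      positivity

/-- the full Fock space -/
abbrev FH (I : Type) : Type := R73.L2 (List I)

theorem exists_fock (I : Type) [DecidableEq I] :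
    ∃ (B : Type) (_ : CStarAlgebra B) (_ : PartialOrder B) (_ : StarOrderedRing B),
      Nonempty (Fock I B) := by
  let Ω : FH I := R73.dl []
  let φ : (FH I →L[ℂ] FH I) →ₚ[ℂ] ℂ := vecState Ω
  have hφ : ∀ x, φ x = ⟪Ω, x Ω⟫_ℂ := fun _ => rfl
  have hφ' : ∀ x, φ x = x Ω [] := fun x => by rw [hφ, R73.inner_dl]
  have hsa : ∀ i : I, IsSelfAdjoint (opC i + star (opC i)) := fun i => by
    rw [IsSelfAdjoint, star_add, star_star, add_comm]
  refine ⟨FH I →L[ℂ] FH I, inferInstance, inferInstance, inferInstance, ⟨
    { ω := φ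
      s := fun i => opC i + star (opC i)
      D := opD
      P := opP
      one := ?_
      sa := hsa
      norm_s := fun i => ?_
      DD := fun i j => ?_
      ωD := fun b i => ?_
      ωs := fun i b => ?_
      comm := op_comm
      Psa := opP_sa
      ωP := fun a b => ?_
      DP := fun i => ?_
      faithful := fun a ha h0 => ?_ }⟩⟩
  · rw [hφ']
    change R73.dl ([] : List I) [] = 1
    rw [R73.dl_apply, if_pos rfl]
  · have h1 : ‖opC i‖ ≤ 1 := norm_pull_le _ _
    have h2 : ‖star (opC i)‖ ≤ 1 := by
      rw [ContinuousLinearMap.star_eq_adjoint, LinearIsometryEquiv.norm_map]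
      exact h1
    calc _ ≤ ‖opC i‖ + ‖star (opC i)‖ := norm_add_le _ _
      _ ≤ 2 := by linarith
  · refine ext_dl fun w => ?_
    change opD i (star (opD j) (R73.dl w)) = _
    rw [star_opD_dl, opD_concat]
    split_ifs <;> rfl
  · rw [hφ]
    change ⟪Ω, b (opD i (R73.dl []))⟫_ℂ = 0
    rw [opD_nil, map_zero, inner_zero_right]
  · rw [hφ', hφ']
    change b Ω [i] + star (opC i) (b Ω) [] = b Ω [i]
    rw [star_opC_nil, add_zero]
  · rw [hφ, hφ, hφ]
    change ⟪Ω, a (⟪Ω, b Ω⟫_ℂ • Ω)⟫_ℂ = _
    rw [map_smul, inner_smul_right, mul_comm]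
  · ext1 ξ
    change opD i (⟪Ω, ξ⟫_ℂ • R73.dl []) = 0
    rw [map_smul, opD_nil, smul_zero]
  · have hΩ : a Ω = 0 := by
      rw [hφ] at h0
      change ⟪Ω, star a (a Ω)⟫_ℂ = 0 at h0
      rwa [ContinuousLinearMap.star_eq_adjoint, ContinuousLinearMap.adjoint_inner_right,
        inner_self_eq_zero] at h0
    have hc : ∀ i : I, (opD i + star (opD i)) * a = a * (opD i + star (opD i)) := fun i =>
      comm_gen hsa (fun j => by
        rw [op_comm]
        split_ifs
        · exact opP_sa
        · exact IsSelfAdjoint.zero _) ha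
    have key : ∀ n : ℕ, ∀ w : List I, w.length ≤ n → a (R73.dl w) = 0 := by
      intro n
      induction n with
      | zero =>
        intro w hw
        obtain rfl : w = [] := List.length_eq_zero_iff.1 (Nat.le_zero.1 hw)
        exact hΩ
      | succ n ih =>
        intro w hw
        rcases List.eq_nil_or_concat w with rfl | ⟨w, i, rfl⟩
        · exact hΩ
        rw [List.concat_eq_append] at hw ⊢
        have hw' : w.length ≤ n := by simpa using hw
        have h1 := congrArg (fun T : FH I →L[ℂ] FH I => T (R73.dl w)) (hc i)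
        change (opD i + star (opD i)) (a (R73.dl w)) =
          a (opD i (R73.dl w) + star (opD i) (R73.dl w)) at h1
        rw [ih w hw', map_zero, map_add, star_opD_dl] at h1
        have h2 : a (opD i (R73.dl w)) = 0 := by
          rcases List.eq_nil_or_concat w with rfl | ⟨w, j, rfl⟩
          · rw [opD_nil, map_zero]
          rw [List.concat_eq_append] at hw' ⊢
          rw [opD_concat]
          split_ifs
          · exact ih w (by simp at hw'; omega)
          · exact map_zero _
        rw [h2, zero_add] at h1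
        exact h1.symm
    exact ext_dl fun w => key _ w le_rfl

namespace Fock

variable {I : Type} [DecidableEq I] {B : Type} [CStarAlgebra B] [PartialOrder B]
  [StarOrderedRing B] (F : Fock I B)

lemma ω_star (x : B) : F.ω (star x) = star (F.ω x) := map_star F.ω x

lemma ωs_comm (i : I) (b : B) : F.ω (F.s i * b) = F.ω (F.D i * b - b * F.D i) := by
  rw [map_sub, F.ωD, sub_zero, F.ωs]

lemma ω_gen (i : I) {b : B} (hb : b ∈ gen (Set.range F.s)) :
    F.ω (F.s i * b) = F.ω (b * F.s i) := by
  have h := comm_gen (D := F.D i) F.sa (fun j => by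
    rw [F.comm]
    split_ifs
    · exact F.Psa
    · exact IsSelfAdjoint.zero _) hb
  have h1 := congrArg F.ω h
  have h2 : F.ω (star (F.D i) * b) = 0 := by
    rw [← star_star b, ← star_mul, F.ω_star, F.ωD, star_zero]
  have h3 : F.ω (b * star (F.D i)) = F.ω (b * F.s i) := by
    rw [← star_star b, ← star_mul, F.ω_star, ← F.ωs, ← F.ω_star, star_mul, (F.sa i).star_eq]
  rw [add_mul, mul_add, map_add, map_add, h2, h3, F.ωD, add_zero, zero_add] at h1
  rw [F.ωs, h1]

theorem tr_comm {a b : B} (ha : a ∈ gen (Set.range F.s)) (hb : b ∈ gen (Set.range F.s)) :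
    F.ω (a * b) = F.ω (b * a) := by
  let C : StarSubalgebra ℂ B :=
    { carrier := {a | a ∈ gen (Set.range F.s) ∧
        ∀ b ∈ gen (Set.range F.s), F.ω (a * b) = F.ω (b * a)}
      mul_mem' := fun {x y} hx hy => ⟨mul_mem hx.1 hy.1, fun b hb => by
        rw [mul_assoc, hx.2 _ (mul_mem hy.1 hb), mul_assoc, hy.2 _ (mul_mem hb hx.1), mul_assoc]⟩
      add_mem' := fun {x y} hx hy => ⟨add_mem hx.1 hy.1, fun b hb => by
        rw [add_mul, mul_add, map_add, map_add, hx.2 b hb, hy.2 b hb]⟩
      algebraMap_mem' := fun c => ⟨algebraMap_mem _ c, fun b _ => by rw [Algebra.commutes]⟩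
      star_mem' := fun {x} hx => ⟨star_mem hx.1, fun b hb => by
        rw [← star_star b, ← star_mul, ← star_mul, F.ω_star, F.ω_star, hx.2 _ (star_mem hb)]⟩ }
  have hω : Continuous F.ω := map_continuous F.ω
  have hC : IsClosed (C : Set B) := by
    have : (C : Set B) = (gen (Set.range F.s) : Set B) ∩
        ⋂ b ∈ gen (Set.range F.s), {a | F.ω (a * b) = F.ω (b * a)} := by
      ext x
      simp only [Set.mem_inter_iff, Set.mem_iInter, Set.mem_ofPred_eq]
      rfl
    rw [this]
    exact (isClosed_gen _).inter (isClosed_biInter fun b _ =>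
      isClosed_eq (hω.comp (continuous_id.mul continuous_const))
        (hω.comp (continuous_const.mul continuous_id)))
  refine (gen_le hC ?_ ha).2 b hb
  rintro _ ⟨j, rfl⟩
  exact ⟨subset_gen _ ⟨j, rfl⟩, fun b hb => F.ω_gen j hb⟩

lemma leibniz (d x y : B) : d * (x * y) - x * y * d = (d * x - x * d) * y + x * (d * y - y * d) := by
  noncomm_ring

theorem comm_wv (i : I) (w : List I) : F.D i * wv F.s w - wv F.s w * F.D i =
    sp w fun a l b => if l = i then wv F.s a * F.P * wv F.s b else 0 := by
  induction w with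
  | nil => simp [sp]
  | cons l w ih =>
    rw [wv_cons, leibniz, ih, F.comm, sp]
    congr 1
    · by_cases h : i = l
      · simp [h]
      · simp [h, Ne.symm h]
    · refine (map_sp (AddMonoidHom.mulLeft (F.s l)) w _).trans (sp_congr w fun a l' b _ => ?_)
      rw [AddMonoidHom.coe_mulLeft]
      split_ifs
      · simp only [wv_cons, mul_assoc]
      · exact mul_zero _

theorem sd (i : I) (w : List I) : F.ω (wv F.s (i :: w)) =
    sp w fun a l b => if l = i then F.ω (wv F.s a) * F.ω (wv F.s b) else 0 := by
  rw [wv_cons, F.ωs_comm, F.comm_wv, map_sp]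
  refine sp_congr w fun a l b _ => ?_
  split_ifs
  · exact F.ωP _ _
  · exact map_zero _

lemma sum_range_two_mul {M : Type*} [AddCommMonoid M] (f : ℕ → M) (j : ℕ) :
    ∑ k ∈ Finset.range (2 * j), f k = ∑ t ∈ Finset.range j, (f (2 * t) + f (2 * t + 1)) := by
  induction j with
  | zero => simp
  | succ j ih =>
    rw [Nat.mul_succ, Finset.sum_range_succ, Finset.sum_range_succ, ih, Finset.sum_range_succ,
      add_assoc]

lemma moment_succ (i : I) (n : ℕ) : F.ω (F.s i ^ (n + 1)) =
    ∑ k ∈ Finset.range n, F.ω (F.s i ^ k) * F.ω (F.s i ^ (n - (k + 1))) := by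
  have hw : ∀ n, wv F.s (List.replicate n i) = F.s i ^ n := fun n => by simp [wv]
  rw [← hw, List.replicate_succ, F.sd, sp_eq_sum, Finset.sum_range, ← Fin.sum_congr' _
    (List.length_replicate (n := n) (a := i))]
  refine Finset.sum_congr rfl fun k _ => ?_
  have hk : (k : ℕ) < n := by simpa using k.2
  rw [if_pos (by simp), List.take_replicate, List.drop_replicate, hw, hw, min_eq_left hk.le]
  rfl

theorem catalan_moments (i : I) (k : ℕ) :
    F.ω (F.s i ^ (2 * k)) = (catalan k : ℂ) ∧ F.ω (F.s i ^ (2 * k + 1)) = 0 := by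
  induction k using Nat.strong_induction_on with
  | _ k ih =>
    have h1 : F.ω (F.s i ^ (2 * k)) = (catalan k : ℂ) := by
      cases k with
      | zero => simp [F.one]
      | succ j =>
        rw [show 2 * (j + 1) = 2 * j + 1 + 1 by ring, F.moment_succ, Finset.sum_range_succ,
          sum_range_two_mul, catalan_succ, ← Finset.sum_range fun t => catalan t * catalan (j - t),
          Finset.sum_range_succ, Nat.cast_add, Nat.cast_sum, Nat.sub_self, Nat.sub_self,
          (ih j j.lt_succ_self).1, pow_zero, F.one]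
        congr 1
        · refine Finset.sum_congr rfl fun t ht => ?_
          have ht' := Finset.mem_range.1 ht
          rw [(ih t (by omega)).1, (ih t (by omega)).2, zero_mul, add_zero,
            show 2 * j + 1 - (2 * t + 1) = 2 * (j - t) by omega, (ih (j - t) (by omega)).1,
            Nat.cast_mul]
        · simp
    refine ⟨h1, ?_⟩
    rw [F.moment_succ, sum_range_two_mul]
    refine Finset.sum_eq_zero fun t ht => ?_
    have ht' := Finset.mem_range.1 ht
    rw [(ih t ht').2, zero_mul, add_zero,
      show 2 * k - (2 * t + 1) = 2 * (k - t - 1) + 1 by omega, (ih (k - t - 1) (by omega)).2,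
      mul_zero]

section Free

variable {κ : Type*} (cls : I → κ)

/-- the algebra of a class -/
abbrev alg (k : κ) : Subalgebra ℂ B := Algebra.adjoin ℂ (F.s '' {i | cls i = k})

lemma alg_le_gen {k : κ} {b : B} (hb : b ∈ F.alg cls k) : b ∈ gen (Set.range F.s) :=
  Algebra.adjoin_le (S := (gen (Set.range F.s)).toSubalgebra)
    ((Set.image_subset_range _ _).trans (subset_gen _)) hb

lemma comm_eq_zero {k : κ} {b : B} (hb : b ∈ F.alg cls k) {i : I} (hi : cls i ≠ k) :
    F.D i * b - b * F.D i = 0 := by
  induction hb using Algebra.adjoin_induction with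
  | mem x hx =>
    obtain ⟨j, hj, rfl⟩ := hx
    rw [F.comm, if_neg]
    rintro rfl
    exact hi hj
  | algebraMap r => rw [Algebra.commutes, sub_self]
  | add x y _ _ hx hy => rw [mul_add, add_mul, add_sub_add_comm, hx, hy, add_zero]
  | mul x y _ _ hx hy => rw [leibniz, hx, hy, zero_mul, mul_zero, add_zero]

lemma ω_comm_eq_zero {k : κ} {b : B} (hb : b ∈ F.alg cls k) (i : I) :
    ∀ u v : B, (∀ d₁ ∈ F.alg cls k, ∀ d₂ ∈ F.alg cls k, F.ω (u * d₁) * F.ω (d₂ * v) = 0) →
      F.ω (u * (F.D i * b - b * F.D i) * v) = 0 := by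
  induction hb using Algebra.adjoin_induction with
  | mem x hx =>
    intro u v h
    obtain ⟨j, -, rfl⟩ := hx
    rw [F.comm]
    split_ifs
    · simpa [F.ωP] using h 1 (one_mem _) 1 (one_mem _)
    · simp
  | algebraMap r =>
    intro u v _
    rw [Algebra.commutes, sub_self, mul_zero, zero_mul, map_zero]
  | add x y _ _ hx hy =>
    intro u v h
    rw [mul_add, add_mul x y, add_sub_add_comm, mul_add, add_mul, map_add, hx u v h, hy u v h,
      add_zero]
  | mul x y hx' hy' hx hy =>
    intro u v h
    rw [leibniz, mul_add, add_mul, map_add, ← mul_assoc u x, hy (u * x) v, add_zero, ← mul_assoc u,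
      mul_assoc _ y v, hx u (y * v)]
    · intro d₁ h₁ d₂ h₂
      rw [← mul_assoc]
      exact h d₁ h₁ _ (mul_mem h₂ hy')
    · intro d₁ h₁ d₂ h₂
      rw [mul_assoc]
      exact h _ (mul_mem hx' h₁) d₂ h₂

lemma of_words {k : κ} {t : B} (h : ∀ w : List I, (∀ i ∈ w, cls i = k) → F.ω (wv F.s w * t) = 0)
    {b : B} (hb : b ∈ F.alg cls k) : F.ω (b * t) = 0 := by
  have hb' : b ∈ Submodule.span ℂ (Submonoid.closure (F.s '' {i | cls i = k}) : Set B) := by
    rw [← Algebra.adjoin_eq_span]
    exact hb
  clear hb
  induction hb' using Submodule.span_induction with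
  | mem x hx =>
    have : ∃ w : List I, (∀ i ∈ w, cls i = k) ∧ wv F.s w = x := by
      induction hx using Submonoid.closure_induction with
      | mem x hx =>
        obtain ⟨j, hj, rfl⟩ := hx
        exact ⟨[j], by simpa using hj, by simp⟩
      | one => exact ⟨[], by simp, rfl⟩
      | mul x y _ _ hx hy =>
        obtain ⟨a, ha, rfl⟩ := hx
        obtain ⟨b, hb, rfl⟩ := hy
        refine ⟨a ++ b, fun i hi => ?_, wv_append _ _ _⟩
        exact (List.mem_append.1 hi).elim (ha i) (hb i)
    obtain ⟨w, hw, rfl⟩ := this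
    exact h w hw
  | zero => rw [zero_mul, map_zero]
  | add x y _ _ hx hy => rw [add_mul, map_add, hx, hy, add_zero]
  | smul c x _ hx => rw [smul_mul_assoc, map_smul, hx, smul_zero]

lemma wv_mem {k : κ} {w : List I} (hw : ∀ i ∈ w, cls i = k) : wv F.s w ∈ F.alg cls k := by
  induction w with
  | nil => exact one_mem _
  | cons i w ih =>
    rw [wv_cons]
    exact mul_mem (Algebra.subset_adjoin ⟨i, hw i List.mem_cons_self, rfl⟩)
      (ih fun j hj => hw j (List.mem_cons_of_mem _ hj))

lemma of_comm {k : κ} {t : B} (h0 : F.ω t = 0)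
    (h : ∀ i, cls i = k → ∀ u ∈ F.alg cls k, F.ω (u * (F.D i * t - t * F.D i)) = 0)
    {b : B} (hb : b ∈ F.alg cls k) : F.ω (b * t) = 0 := by
  refine F.of_words cls (fun w hw => ?_) hb
  induction hn : w.length using Nat.strong_induction_on generalizing w with
  | _ n ih =>
    cases w with
    | nil => rw [wv_nil, one_mul, h0]
    | cons i w =>
      have hw' : ∀ j ∈ w, cls j = k := fun j hj => hw j (List.mem_cons_of_mem _ hj)
      rw [wv_cons, mul_assoc, F.ωs_comm, leibniz, map_add,
        h i (hw i List.mem_cons_self) _ (F.wv_mem cls hw'), add_zero, F.comm_wv, sp_eq_sum,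
        Finset.sum_mul, map_sum]
      refine Finset.sum_eq_zero fun r _ => ?_
      split_ifs
      · rw [mul_assoc, F.ωP, ih _ _ (w.drop (r + 1)) (fun j hj => hw' j (List.mem_of_mem_drop hj))
          rfl, mul_zero]
        rw [← hn, List.length_drop, List.length_cons]
        omega
      · rw [zero_mul, map_zero]

/-- centred alternating lists -/
def Good (l : List (κ × B)) : Prop :=
  (l.IsChain fun a b => a.1 ≠ b.1) ∧ (∀ e ∈ l, e.2 ∈ F.alg cls e.1) ∧ ∀ e ∈ l, F.ω e.2 = 0

lemma Good.tail {F : Fock I B} {cls : I → κ} {e : κ × B} {l : List (κ × B)} (h : F.Good cls (e :: l)) :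
    F.Good cls l :=
  ⟨h.1.tail, fun x hx => h.2.1 x (List.mem_cons_of_mem _ hx),
    fun x hx => h.2.2 x (List.mem_cons_of_mem _ hx)⟩

lemma Good.left {F : Fock I B} {cls : I → κ} {l l' : List (κ × B)} (h : F.Good cls (l ++ l')) :
    F.Good cls l :=
  ⟨h.1.left_of_append, fun x hx => h.2.1 x (List.mem_append_left _ hx),
    fun x hx => h.2.2 x (List.mem_append_left _ hx)⟩

lemma prod_mem_gen {l : List (κ × B)} (h : ∀ e ∈ l, e.2 ∈ F.alg cls e.1) :
    (l.map Prod.snd).prod ∈ gen (Set.range F.s) := by
  refine list_prod_mem fun x hx => ?_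
  obtain ⟨e, he, rfl⟩ := List.mem_map.1 hx
  exact F.alg_le_gen cls (h e he)

lemma free_aux (n : ℕ) : ∀ (e : κ × B) (l : List (κ × B)), l.length = n → F.Good cls (e :: l) →
    ∀ k, k ≠ e.1 → ∀ b ∈ F.alg cls k, F.ω (b * ((e :: l).map Prod.snd).prod) = 0 := by
  induction n using Nat.strong_induction_on with
  | _ n ih =>
    intro e l hn hg k hk b hb
    -- the product itself is centred
    have h0 : F.ω ((e :: l).map Prod.snd).prod = 0 := by
      cases l with
      | nil => simpa using hg.2.2 e List.mem_cons_self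
      | cons e' l =>
        rw [List.map_cons, List.prod_cons]
        exact ih l.length (by rw [← hn]; exact Nat.lt_succ_self _) e' l rfl hg.tail e.1
          (List.isChain_cons_cons.1 hg.1).1 _ (hg.2.1 e List.mem_cons_self)
    -- inner terms
    have hin : ∀ (i : I) (z : κ × B) (m : List (κ × B)), m.length ≤ n → F.Good cls (m ++ [z]) →
        ∀ u : B, F.ω (u * ((F.D i * (m.map Prod.snd).prod - (m.map Prod.snd).prod * F.D i) *
          z.2)) = 0 := by
      intro i z m
      induction m with
      | nil => simp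
      | cons x m ihm =>
        intro hm hgm u
        rw [List.length_cons] at hm
        rw [List.map_cons, List.prod_cons, leibniz, add_mul, mul_add, map_add, mul_assoc x.2,
          ← mul_assoc u x.2, ihm (by omega) hgm.tail, add_zero, mul_assoc, ← mul_assoc u]
        refine F.ω_comm_eq_zero cls (hgm.2.1 x List.mem_cons_self) i u _ fun d₁ _ d₂ h₂ => ?_
        obtain ⟨y, m', hy⟩ : ∃ y m', m ++ [z] = y :: m' := by
          cases m with
          | nil => exact ⟨z, [], rfl⟩
          | cons y m => exact ⟨y, m ++ [z], rfl⟩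
        have hl : m'.length = m.length := by simpa using (congrArg List.length hy).symm
        have hp : (m.map Prod.snd).prod * z.2 = ((y :: m').map Prod.snd).prod := by
          rw [← hy]
          simp
        rw [List.cons_append, hy] at hgm
        rw [hp, ih m'.length (by omega) y m' rfl hgm.tail x.1 (List.isChain_cons_cons.1 hgm.1).1
          d₂ h₂, mul_zero]
    refine F.of_comm cls h0 (fun i hi u hu => ?_) hb
    rcases List.eq_nil_or_concat l with rfl | ⟨m, z, rfl⟩
    · rw [List.map_singleton, List.prod_singleton,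
        F.comm_eq_zero cls (hg.2.1 e List.mem_cons_self) (by rw [hi]; exact hk), mul_zero, map_zero]
    rw [List.concat_eq_append] at hn hg ⊢
    have hml : (e :: m).length = n := by simpa using hn
    rw [← List.cons_append] at hg ⊢
    rw [List.map_append, List.prod_append, List.map_singleton, List.prod_singleton, leibniz,
      mul_add, map_add, hin i z _ hml.le hg, zero_add, ← mul_assoc]
    have hz := hg.2.1 z (by simp)
    by_cases hzk : z.1 = k
    · rw [← mul_one (_ * (_ - _))]
      refine F.ω_comm_eq_zero cls hz i _ _ fun d₁ h₁ d₂ _ => ?_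
      have hp := F.prod_mem_gen cls hg.left.2.1
      rw [F.tr_comm (mul_mem (F.alg_le_gen cls hu) hp) (F.alg_le_gen cls h₁), ← mul_assoc,
        ih m.length (by rw [← hml]; exact Nat.lt_succ_self _) e m rfl hg.left k hk _
          (mul_mem (hzk ▸ h₁) hu), zero_mul]
    · rw [F.comm_eq_zero cls hz (by rw [hi]; exact Ne.symm hzk), mul_zero, map_zero]

end Free

theorem free {κ : Type*} (cls : I → κ) (l : List (κ × B)) (hl : l ≠ [])
    (hc : l.IsChain fun a b => a.1 ≠ b.1)
    (hm : ∀ e ∈ l, e.2 ∈ Algebra.adjoin ℂ (F.s '' {i | cls i = e.1}))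
    (h0 : ∀ e ∈ l, F.ω e.2 = 0) : F.ω (l.map Prod.snd).prod = 0 := by
  have hg : F.Good cls l := ⟨hc, hm, h0⟩
  match l, hl, hg with
  | [e], _, hg => simpa using hg.2.2 e List.mem_cons_self
  | e :: e' :: l, _, hg =>
    rw [List.map_cons, List.prod_cons]
    exact F.free_aux cls _ e' l rfl hg.tail e.1 (List.isChain_cons_cons.1 hg.1).1 _
      (hg.2.1 e List.mem_cons_self)

end Fock

end Crest.Agent.R89
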