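import Crest.Agent.R89.Hom
import Crest.Agent.R89.Fisher
import Crest.Agent.R89.Fock

/-! Conjugate vectors built from the noise, and elementary semicircular moments. -/

set_option autoImplicit false

namespace Crest.Agent.R89

open scoped ComplexOrder
open Finset Crest.Agent.R120

namespace Noise

variable {J : Type} [DecidableEq J] {B : Type} [CStarAlgebra B] [PartialOrder B]
  [StarOrderedRing B] (N : Noise J B)

lemma ω_E_wv (β : J) (u : List J) : N.ω (N.E β * wv N.O u) = N.σ β * sp u fun a l b =>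
    if l = β then N.ω (wv N.O a) * N.ω (wv N.O b) else 0 := by
  have h := cat_E (N := N) (n := 0) (A := 1) (by simp [Submodule.one_le.1 le_rfl]) β u 1
  simp only [one_mul, mul_one] at h
  rw [h, sp_eq_sum, sp_eq_sum, Finset.mul_sum]
  refine Finset.sum_congr rfl fun k _ => ?_
  split_ifs with e
  · rw [e]
  · simp

lemma ω_E_O (β : J) : N.ω (N.E β * N.O β) = N.σ β := by
  simpa [sp, N.one] using N.ω_E_wv β [β]

lemma conj_E (β : J) (hσ : 0 < N.σ β) :
    ∃ ξ, Conj N.ω.toLinearMap N.O β ξ ∧ n2 N.ω (star ξ) ^ 2 ≤ 1 / N.σ β ^ 2 := by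
  have h : (N.σ β : ℂ) ≠ 0 := by exact_mod_cast hσ.ne'
  refine ⟨(((N.σ β)⁻¹ : ℝ) : ℂ) • N.E β, fun u => ?_, le_of_eq ?_⟩
  · simp [N.ω_E_wv, h]
  · rw [star_smul, n2_smul, mul_pow, n2_sq_re, star_star, N.EE, if_pos rfl, N.one]
    simp

lemma conj_Y (β : J) {Y A : B} {ρ : ℝ} (hσ : 0 < N.σ β) (hρ0 : 0 ≤ ρ)
    (hO : IsSelfAdjoint (N.O β))
    (hON : ∀ b, N.ω (N.O β * b) = N.σ β * N.ω (N.E β * b) + N.ω (Y * b))
    (hA : ∀ u, N.ω (A * wv N.O u) = N.ω (Y * wv N.O u)) (hρ : N.ω (Y * N.O β) = ρ) :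
    ∃ ξ, Conj N.ω.toLinearMap N.O β ξ ∧ n2 N.ω (star ξ) ^ 2 ≤
      1 / (N.σ β ^ 2 + ρ) + 2 * ((ρ / N.σ β) ^ 2 + ‖A‖ ^ 2) / (N.σ β ^ 2 + ρ) ^ 2 := by
  have : Nontrivial B := ⟨1, 0, fun h => by simpa [h] using N.one⟩
  have h : (N.σ β : ℂ) ≠ 0 := by exact_mod_cast hσ.ne'
  have hv : 0 < N.σ β ^ 2 + ρ := by positivity
  have hv' : (N.σ β : ℂ) ^ 2 + ρ ≠ 0 := by exact_mod_cast hv.ne'
  set R : B := ((ρ / N.σ β : ℝ) : ℂ) • N.E β - A with hR
  have h1 : N.ω (R * N.O β) = 0 := by
    have := hA [β]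
    simp only [wv_cons, wv_nil, mul_one] at this
    rw [hR, sub_mul, smul_mul_assoc, map_sub, map_smul, ω_E_O, this, hρ]
    simp [h]
  have h2 : N.ω (N.O β * star R) = 0 := by
    rw [← hO.star_eq, ← star_mul, map_star, h1, star_zero]
  have h3 : ‖N.E β‖ = 1 := by
    have := CStarRing.norm_self_mul_star (x := N.E β)
    rw [N.EE, if_pos rfl, norm_one] at this
    nlinarith [norm_nonneg (N.E β)]
  have h4 : ‖R‖ ≤ ρ / N.σ β + ‖A‖ := (norm_sub_le _ _).trans (by
    rw [norm_smul, h3, mul_one, Complex.norm_real, Real.norm_of_nonneg (by positivity)])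
  have h5 : (N.ω (R * star R)).re ≤ 2 * ((ρ / N.σ β) ^ 2 + ‖A‖ ^ 2) := by
    have e := n2_sq_re N.ω (star R)
    rw [star_star] at e
    have := pow_le_pow_left₀ (n2_nonneg _ _) ((n2_le_norm N.one (star R)).trans
      ((norm_star R).trans_le h4)) 2
    nlinarith [sq_nonneg (ρ / N.σ β - ‖A‖)]
  refine ⟨(((N.σ β ^ 2 + ρ)⁻¹ : ℝ) : ℂ) • (N.O β + R), fun u => ?_, ?_⟩
  · simp only [PositiveLinearMap.coe_toLinearMap, smul_mul_assoc, map_smul, add_mul, hR, sub_mul,
      map_add, map_sub, hON, hA, ω_E_wv, smul_eq_mul]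
    push_cast
    field_simp
    ring
  · rw [star_smul, n2_smul, mul_pow, n2_sq_re, star_star, star_add, hO.star_eq, add_mul, mul_add,
      mul_add, map_add, map_add, map_add, h1, h2, hON, ω_E_O, hρ, norm_star, Complex.norm_real,
      Real.norm_eq_abs, sq_abs]
    simp only [add_zero, zero_add, Complex.add_re, ← Complex.ofReal_mul, Complex.ofReal_re]
    refine (mul_le_mul_of_nonneg_left (add_le_add_right h5 _) (sq_nonneg _)).trans (le_of_eq ?_)
    field_simp

end Noise

lemma sp_concat {L M : Type*} [AddCommMonoid M] (w : List L) (i : L)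
    (g : List L → L → List L → M) :
    sp (w ++ [i]) g = (sp w fun a l b => g a l (b ++ [i])) + g w i [] := by
  induction w generalizing g with
  | nil => simp [sp]
  | cons l w ih => simp [sp, ih, add_assoc]

lemma sp_nonneg {L : Type*} (w : List L) {g : List L → L → List L → ℂ}
    (h : ∀ a l b, w = a ++ l :: b → 0 ≤ g a l b) : 0 ≤ sp w g := by
  induction w generalizing g with
  | nil => exact le_rfl
  | cons l w ih =>
    exact add_nonneg (h [] l w rfl) (ih fun a l' b e => h (l :: a) l' b (by rw [e]; rfl))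

namespace Fock

variable {I : Type} [DecidableEq I] {B : Type} [CStarAlgebra B] [PartialOrder B]
  [StarOrderedRing B] (F : Fock I B)

lemma mom_nonneg (w : List I) : 0 ≤ F.ω (wv F.s w) := by
  induction hr : w.length using Nat.strong_induction_on generalizing w with | _ r ih =>
  rcases w with _ | ⟨i, w⟩
  · simp [F.one]
  rw [F.sd]
  refine sp_nonneg w fun a l b e => ?_
  subst hr e
  split_ifs
  · exact mul_nonneg (ih _ (by simp) a rfl) (ih _ (by simp; omega) b rfl)
  · exact le_rfl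

lemma mom_le (i : I) (w : List I) : F.ω (wv F.s w) ≤ F.ω (wv F.s (i :: (w ++ [i]))) := by
  rw [F.sd, sp_concat, if_pos rfl, wv_nil, F.one, mul_one]
  refine le_add_of_nonneg_left (sp_nonneg w fun a l b _ => ?_)
  split_ifs
  exacts [mul_nonneg (F.mom_nonneg _) (F.mom_nonneg _), le_rfl]

lemma norm_wv (w : List I) : ‖wv F.s w‖ ≤ 2 ^ w.length := by
  have : Nontrivial B := ⟨1, 0, fun h => by simpa [h] using F.one⟩
  induction w with
  | nil => simp
  | cons i w ih =>
    rw [wv_cons, List.length_cons, pow_succ']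
    exact (norm_mul_le _ _).trans (mul_le_mul (F.norm_s i) ih (norm_nonneg _) (by norm_num))

end Fock

end Crest.Agent.R89
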