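import Crest.Prelude.Def_FreeEntropy
import Crest.Prelude.Def_CStarRep
import Crest.Agent.R120.Red

/-!
# Row 89 (S0118): shared definitions

Planted model: `X_l = λ x_l`, `Y_j = γ (x_a x_b x_c + x_c x_b x_a) + σ₀ s_j` for `j = (a, b, c)`,
with free semicircular `x_l`, `s_j`.  Microstates see the polynomial relation (a shear of volume),
while the free Fisher information of the noisy tuple does not.
-/

set_option autoImplicit false

namespace Crest.Agent.R89

open scoped ComplexOrder
open Crest.Agent.R120

/-- Sum over all splittings `w = a ++ l :: b`. -/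
def sp {L M : Type*} [AddCommMonoid M] : List L → (List L → L → List L → M) → M
  | [], _ => 0
  | l :: w, g => g [] l w + sp w (fun a l' b => g (l :: a) l' b)

/-- Value of a word. -/
def wv {I B : Type*} [Monoid B] (s : I → B) (w : List I) : B := (w.map s).prod

@[simp] lemma wv_nil {I B : Type*} [Monoid B] (s : I → B) : wv s [] = 1 := rfl

@[simp] lemma wv_cons {I B : Type*} [Monoid B] (s : I → B) (i : I) (w : List I) :
    wv s (i :: w) = s i * wv s w := by simp [wv]

@[simp] lemma wv_append {I B : Type*} [Monoid B] (s : I → B) (w w' : List I) :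
    wv s (w ++ w') = wv s w * wv s w' := by simp [wv]

lemma wordEval_eq_wv {A : Type*} [Ring A] [Algebra ℂ A] {n : ℕ} (X : Fin n → A)
    (w : FreeMonoid (Fin n)) : Crest.OpAlg.wordEval X w = wv X (FreeMonoid.toList w) :=
  FreeMonoid.lift_apply X w

lemma sp_eq_sum {L M : Type*} [AddCommMonoid M] (w : List L) (g : List L → L → List L → M) :
    sp w g = ∑ k : Fin w.length, g (w.take k) w[k] (w.drop (k + 1)) := by
  induction w generalizing g with
  | nil => simp [sp]
  | cons l w ih =>
    rw [sp, ih]
    exact (Fin.sum_univ_succ fun k : Fin (w.length + 1) =>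
      g ((l :: w).take k) (l :: w)[k] ((l :: w).drop (k + 1))).symm

lemma sp_congr {L M : Type*} [AddCommMonoid M] (w : List L) {g g' : List L → L → List L → M}
    (h : ∀ a l b, w = a ++ l :: b → g a l b = g' a l b) : sp w g = sp w g' := by
  induction w generalizing g g' with
  | nil => rfl
  | cons l w ih =>
    rw [sp, sp, h [] l w rfl, ih fun a l' b e => h (l :: a) l' b (by rw [e]; rfl)]

lemma map_sp {L M N F : Type*} [AddCommMonoid M] [AddCommMonoid N] [FunLike F M N]
    [AddMonoidHomClass F M N] (f : F) (w : List L) (g : List L → L → List L → M) :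
    f (sp w g) = sp w fun a l b => f (g a l b) := by
  simp only [sp_eq_sum, map_sum]

/-- The algebraic structure of the full Fock space: vacuum state `ω`, semicircular elements `s i`,
right annihilation operators `D i`, vacuum projection `P`. -/
structure Fock (I : Type) [DecidableEq I] (B : Type) [CStarAlgebra B] [PartialOrder B]
    [StarOrderedRing B] where
  ω : B →ₚ[ℂ] ℂ
  s : I → B
  D : I → B
  P : B
  one : ω 1 = 1
  sa : ∀ i, IsSelfAdjoint (s i)
  norm_s : ∀ i, ‖s i‖ ≤ 2
  DD : ∀ i j, D i * star (D j) = if i = j then 1 else 0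
  ωD : ∀ b i, ω (b * D i) = 0
  ωs : ∀ i b, ω (s i * b) = ω (D i * b)
  comm : ∀ i j, D i * s j - s j * D i = if i = j then P else 0
  Psa : IsSelfAdjoint P
  ωP : ∀ a b, ω (a * P * b) = ω a * ω b
  DP : ∀ i, D i * P = 0
  faithful : ∀ a ∈ gen (Set.range s), ω (star a * a) = 0 → a = 0

/-- The orthonormal basis of Hermitian matrices behind `hermitianOfCoords`. -/
noncomputable def Hb {d : ℕ} (p : Fin d × Fin d) : Matrix (Fin d) (Fin d) ℂ :=
  Crest.OpAlg.hermitianOfCoords (EuclideanSpace.single p 1)

/-- The (unnormalised) Gaussian measure on tuples of Hermitian matrices. -/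
noncomputable def gue (n d : ℕ) :
    MeasureTheory.Measure (EuclideanSpace ℝ (Fin n × (Fin d × Fin d))) :=
  MeasureTheory.volume.withDensity fun a => ENNReal.ofReal (Real.exp (-(d : ℝ) / 2 * ‖a‖ ^ 2))

/-- Its total mass. -/
noncomputable def gueZ (n d : ℕ) : ℝ := (2 * Real.pi / d) ^ ((n * (d : ℝ) ^ 2) / 2)

end Crest.Agent.R89
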