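import Crest.Agent.R89.Defs

/-!
# Row 89: the Gaussian integral of complex polynomials and Stein's identity
-/

set_option autoImplicit false

namespace Crest.Agent.R89

open MeasureTheory MvPolynomial

section Stein

variable {ι : Type} [Fintype ι]

/-- Evaluation of a complex polynomial at a real point. -/
noncomputable def gsEv (a : EuclideanSpace ℝ ι) : MvPolynomial ι ℂ →+* ℂ :=
  eval fun q => (a q : ℂ)

omit [Fintype ι] in
@[simp] lemma gsEv_C (a : EuclideanSpace ℝ ι) (z : ℂ) : gsEv a (C z) = z := eval_C _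

omit [Fintype ι] in
@[simp] lemma gsEv_X (a : EuclideanSpace ℝ ι) (q : ι) : gsEv a (X q) = a q := eval_X _

/-- The Gaussian weight. -/
noncomputable def gsW (c : ℝ) (a : EuclideanSpace ℝ ι) : ℝ := Real.exp (-c / 2 * ‖a‖ ^ 2)

lemma gsW_pos (c : ℝ) (a : EuclideanSpace ℝ ι) : 0 < gsW c a := Real.exp_pos _

lemma gsW_cont (c : ℝ) : Continuous (gsW (ι := ι) c) := by
  unfold gsW; fun_prop

omit [Fintype ι] in
lemma gsEv_cont (P : MvPolynomial ι ℂ) : Continuous fun a : EuclideanSpace ℝ ι => gsEv a P := by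
  induction P using MvPolynomial.induction_on with
  | C z => simpa using continuous_const
  | add p q hp hq => simpa using hp.fun_add hq
  | mul_X p q hp =>
    simp only [map_mul, gsEv_X]
    exact hp.mul (by fun_prop)

lemma gsEv_growth (P : MvPolynomial ι ℂ) :
    ∃ K k : ℝ, 0 ≤ K ∧ 0 ≤ k ∧ ∀ a : EuclideanSpace ℝ ι, ‖gsEv a P‖ ≤ K * Real.exp (k * ‖a‖) := by
  induction P using MvPolynomial.induction_on with
  | C z => exact ⟨‖z‖, 0, norm_nonneg _, le_rfl, fun a => by simp⟩
  | add p q hp hq =>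
    obtain ⟨K, k, hK, hk, h⟩ := hp
    obtain ⟨K', k', hK', hk', h'⟩ := hq
    refine ⟨K + K', k + k', by positivity, by positivity, fun a => ?_⟩
    have e1 : Real.exp (k * ‖a‖) ≤ Real.exp ((k + k') * ‖a‖) :=
      Real.exp_le_exp.2 (by nlinarith [norm_nonneg a])
    have e2 : Real.exp (k' * ‖a‖) ≤ Real.exp ((k + k') * ‖a‖) :=
      Real.exp_le_exp.2 (by nlinarith [norm_nonneg a])
    rw [map_add, add_mul]
    exact (norm_add_le _ _).trans (add_le_add ((h a).trans (mul_le_mul_of_nonneg_left e1 hK))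
      ((h' a).trans (mul_le_mul_of_nonneg_left e2 hK')))
  | mul_X p q hp =>
    obtain ⟨K, k, hK, hk, h⟩ := hp
    refine ⟨K, k + 1, hK, by positivity, fun a => ?_⟩
    have e1 : ‖(a q : ℂ)‖ ≤ Real.exp ‖a‖ := by
      rw [Complex.norm_real]
      exact (PiLp.norm_apply_le a q).trans (by linarith [Real.add_one_le_exp ‖a‖])
    rw [map_mul, gsEv_X, norm_mul, add_mul, one_mul, Real.exp_add, ← mul_assoc]
    exact mul_le_mul (h a) e1 (norm_nonneg _) (by positivity)

lemma gs_integrable_exp {b : ℝ} (hb : 0 < b) :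
    Integrable fun a : EuclideanSpace ℝ ι => Real.exp (-b * ‖a‖ ^ 2) := by
  have h := (GaussianFourier.integrable_cexp_neg_mul_sq_norm_add
    (V := EuclideanSpace ℝ ι) (b := (b : ℂ)) (by simpa using hb) 0 0).norm
  refine h.congr (Filter.Eventually.of_forall fun a => ?_)
  simp only [zero_mul, add_zero, Complex.norm_exp]
  congr 1
  rw [← Complex.ofReal_pow, ← Complex.ofReal_neg, ← Complex.ofReal_mul, Complex.ofReal_re]

lemma gs_integrable {c : ℝ} (hc : 0 < c) (P : MvPolynomial ι ℂ) :
    Integrable fun a : EuclideanSpace ℝ ι => gsEv a P * (gsW c a : ℂ) := by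
  obtain ⟨K, k, hK, -, h⟩ := gsEv_growth P
  refine ((gs_integrable_exp (ι := ι) (b := c / 4) (by positivity)).const_mul
    (K * Real.exp (k ^ 2 / c))).mono' ?_ (Filter.Eventually.of_forall fun a => ?_)
  · exact ((gsEv_cont P).mul (Complex.continuous_ofReal.comp (gsW_cont c))).aestronglyMeasurable
  · rw [norm_mul, Complex.norm_real, Real.norm_of_nonneg (gsW_pos c a).le]
    refine (mul_le_mul_of_nonneg_right (h a) (gsW_pos c a).le).trans ?_
    rw [gsW, mul_assoc, mul_assoc, ← Real.exp_add, ← Real.exp_add]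
    refine mul_le_mul_of_nonneg_left (Real.exp_le_exp.2 ?_) hK
    have e : k ^ 2 / c - k * ‖a‖ + c / 4 * ‖a‖ ^ 2 = (k - c / 2 * ‖a‖) ^ 2 / c := by
      field_simp; ring
    have : 0 ≤ (k - c / 2 * ‖a‖) ^ 2 / c := by positivity
    linarith

variable [DecidableEq ι]

omit [Fintype ι] in
lemma gsEv_deriv (P : MvPolynomial ι ℂ) (q : ι) (a : EuclideanSpace ℝ ι) :
    HasLineDerivAt ℝ (fun a : EuclideanSpace ℝ ι => gsEv a P) (gsEv a (pderiv q P)) a
      (EuclideanSpace.single q 1) := by
  unfold HasLineDerivAt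
  induction P using MvPolynomial.induction_on with
  | C z => simpa using hasDerivAt_const (0 : ℝ) z
  | add p p' hp hp' => simpa using hp.fun_add hp'
  | mul_X p r hp =>
    have hr : HasDerivAt (fun t : ℝ => (((a + t • EuclideanSpace.single q (1 : ℝ)) r : ℝ) : ℂ))
        (gsEv a (pderiv q (X r))) 0 := by
      by_cases e : r = q
      · subst e
        have := ((hasDerivAt_id (0 : ℝ)).const_add (a r)).ofReal_comp
        simpa using this
      · rw [pderiv_X_of_ne e]
        simpa [e] using hasDerivAt_const (0 : ℝ) (a r : ℂ)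
    have := hp.fun_mul hr
    simp only [map_mul, gsEv_X, pderiv_mul, map_add]
    simp only [zero_smul, add_zero] at this
    exact this

lemma gsW_deriv (c : ℝ) (q : ι) (a : EuclideanSpace ℝ ι) :
    HasLineDerivAt ℝ (fun a : EuclideanSpace ℝ ι => (gsW c a : ℂ))
      (-c * a q * (gsW c a : ℂ)) a (EuclideanSpace.single q 1) := by
  unfold HasLineDerivAt
  have h1 : HasDerivAt (fun t : ℝ => a + t • EuclideanSpace.single q (1 : ℝ))
      (EuclideanSpace.single q (1 : ℝ)) 0 := by
    simpa using ((hasDerivAt_id (0 : ℝ)).smul_const (EuclideanSpace.single q (1 : ℝ))).const_add a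
  have h2 := ((h1.norm_sq.const_mul (-c / 2)).exp).ofReal_comp
  refine h2.congr_deriv ?_
  simp only [zero_smul, add_zero, EuclideanSpace.inner_single_right, gsW]
  simp
  ring

omit [DecidableEq ι] in
/-- The Gaussian integral of a polynomial. -/
noncomputable def gsI {c : ℝ} (hc : 0 < c) : MvPolynomial ι ℂ →ₗ[ℂ] ℂ where
  toFun P := ∫ a : EuclideanSpace ℝ ι, gsEv a P * (gsW c a : ℂ)
  map_add' p q := by
    simp only [map_add, add_mul]
    exact integral_add (gs_integrable hc p) (gs_integrable hc q)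
  map_smul' z p := by
    simp only [smul_eq_C_mul, map_mul, gsEv_C, RingHom.id_apply, smul_eq_mul, mul_assoc]
    exact integral_const_mul _ _

omit [DecidableEq ι] in
lemma gsI_apply {c : ℝ} (hc : 0 < c) (P : MvPolynomial ι ℂ) :
    gsI hc P = ∫ a : EuclideanSpace ℝ ι, gsEv a P * (gsW c a : ℂ) := rfl

/-- Stein's identity. -/
lemma gsI_stein {c : ℝ} (hc : 0 < c) (q : ι) (P : MvPolynomial ι ℂ) :
    gsI hc (X q * P) = (c : ℂ)⁻¹ * gsI hc (pderiv q P) := by
  have e : ∀ a : EuclideanSpace ℝ ι, gsEv a P * (-c * a q * (gsW c a : ℂ)) =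
      -c * (gsEv a (X q * P) * (gsW c a : ℂ)) := fun a => by
    rw [map_mul, gsEv_X]; ring
  have h := integral_bilinear_hasLineDerivAt_right_eq_neg_left_of_integrable
    (μ := (volume : Measure (EuclideanSpace ℝ ι)))
    (f := fun a => gsEv a P) (f' := fun a => gsEv a (pderiv q P))
    (g := fun a => (gsW c a : ℂ)) (g' := fun a => -c * a q * (gsW c a : ℂ))
    (v := EuclideanSpace.single q 1) (B := ContinuousLinearMap.mul ℝ ℂ)
    (gs_integrable hc _) (by
      simp only [ContinuousLinearMap.mul_apply', e]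
      exact (gs_integrable hc _).const_mul _) (gs_integrable hc _)
    (fun a _ => gsEv_deriv P q a) (fun a _ => gsW_deriv c q a)
  simp only [ContinuousLinearMap.mul_apply', e] at h
  rw [integral_const_mul, ← gsI_apply hc, ← gsI_apply hc] at h
  have hc' : (c : ℂ) ≠ 0 := by exact_mod_cast hc.ne'
  field_simp
  linear_combination -h

end Stein

end Crest.Agent.R89
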