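import Crest.Agent.R89.GUEStein
import Crest.Agent.R89.Herm

/-!
# Row 89: moments of words in independent GUE matrices
-/

set_option autoImplicit false

namespace Crest.Agent.R89

open scoped ComplexOrder
open Crest.Agent.R120 Crest.OpAlg Filter MeasureTheory MvPolynomial Topology

section SpLemmas

variable {L M : Type*} [AddCommMonoid M]

lemma gm_sp_sum {κ : Type*} (s : Finset κ) (w : List L) (g : κ → List L → L → List L → M) :
    ∑ p ∈ s, sp w (g p) = sp w fun a l b => ∑ p ∈ s, g p a l b := by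
  simp only [sp_eq_sum]
  exact Finset.sum_comm

lemma gm_sp_zero (w : List L) : sp w (fun _ _ _ => (0 : M)) = 0 := by
  simp [sp_eq_sum]

lemma gm_mul_sp {R : Type*} [NonUnitalNonAssocSemiring R] (x : R) (w : List L)
    (g : List L → L → List L → R) : x * sp w g = sp w fun a l b => x * g a l b := by
  simp only [sp_eq_sum, Finset.mul_sum]

lemma gm_sp_mul {R : Type*} [NonUnitalNonAssocSemiring R] (x : R) (w : List L)
    (g : List L → L → List L → R) : sp w g * x = sp w fun a l b => g a l b * x := by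
  simp only [sp_eq_sum, Finset.sum_mul]

lemma gm_tendsto_sp [TopologicalSpace M] [ContinuousAdd M] {α : Type*} {f : Filter α} (w : List L)
    {G : α → List L → L → List L → M} {g : List L → L → List L → M}
    (h : ∀ a l b, w = a ++ l :: b → Tendsto (fun x => G x a l b) f (𝓝 (g a l b))) :
    Tendsto (fun x => sp w (G x)) f (𝓝 (sp w g)) := by
  induction w generalizing G g with
  | nil => exact tendsto_const_nhds
  | cons l w ih =>
    exact (h [] l w rfl).add (ih fun a l' b e => h (l :: a) l' b (by rw [e]; rfl))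

end SpLemmas

section Alg

variable {n d : ℕ}

/-- The coefficient ring: polynomials in the real coordinates of a tuple of matrices. -/
abbrev GmR (n d : ℕ) : Type := MvPolynomial (Fin n × (Fin d × Fin d)) ℂ

/-- The basis of Hermitian matrices with constant polynomial entries. -/
noncomputable def gmH (n : ℕ) (p : Fin d × Fin d) : Matrix (Fin d) (Fin d) (GmR n d) :=
  (Hb p).map C

/-- The generic Hermitian matrices. -/
noncomputable def gmM (d : ℕ) (l : Fin n) : Matrix (Fin d) (Fin d) (GmR n d) :=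
  ∑ p, (X (l, p) : GmR n d) • gmH n p

lemma gmH_complete (i j k l : Fin d) :
    ∑ p, gmH n p i j * gmH n p k l = if i = l ∧ j = k then 1 else 0 := by
  have := congrArg (C : ℂ →+* GmR n d) (Hb_complete i j k l)
  rw [map_sum] at this
  simp only [map_mul] at this
  simp only [gmH, Matrix.map_apply]
  rw [this]
  split_ifs <;> simp

lemma gmH_expand (N : Matrix (Fin d) (Fin d) (GmR n d)) :
    ∑ p, (gmH n p * N).trace • gmH n p = N := by
  ext1 i j
  have e : ∀ p, ((gmH n p * N).trace • gmH n p) i j =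
      ∑ k, ∑ l, (gmH n p i j * gmH n p k l) * N l k := fun p => by
    simp only [Matrix.smul_apply, smul_eq_mul, Matrix.trace, Matrix.diag, Matrix.mul_apply,
      Finset.sum_mul]
    exact Finset.sum_congr rfl fun k _ => Finset.sum_congr rfl fun l _ => by ring
  rw [Matrix.sum_apply, Finset.sum_congr rfl fun p _ => e p, Finset.sum_comm]
  simp_rw [Finset.sum_comm (s := (Finset.univ : Finset (Fin d × Fin d))), ← Finset.sum_mul,
    gmH_complete]
  simp [ite_and]

lemma gmH_sandwich (N : Matrix (Fin d) (Fin d) (GmR n d)) :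
    ∑ p, gmH n p * N * gmH n p = N.trace • (1 : Matrix (Fin d) (Fin d) (GmR n d)) := by
  ext1 i l
  have e : ∀ p, (gmH n p * N * gmH n p) i l =
      ∑ k, ∑ j, (gmH n p i j * gmH n p k l) * N j k := fun p => by
    simp only [Matrix.mul_apply, Finset.sum_mul]
    exact Finset.sum_congr rfl fun k _ => Finset.sum_congr rfl fun l _ => by ring
  rw [Matrix.sum_apply, Finset.sum_congr rfl fun p _ => e p, Finset.sum_comm]
  simp_rw [Finset.sum_comm (s := (Finset.univ : Finset (Fin d × Fin d))), ← Finset.sum_mul,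
    gmH_complete]
  by_cases h : i = l
  · simp [h, Matrix.trace]
  · simp [h]

/-- The entrywise partial derivative of a matrix. -/
noncomputable def gmD (q : Fin n × (Fin d × Fin d)) (M : Matrix (Fin d) (Fin d) (GmR n d)) :
    Matrix (Fin d) (Fin d) (GmR n d) := M.map (pderiv q)

lemma gmD_mul (q : Fin n × (Fin d × Fin d)) (M N : Matrix (Fin d) (Fin d) (GmR n d)) :
    gmD q (M * N) = gmD q M * N + M * gmD q N := by
  ext1 i j
  simp only [gmD, Matrix.map_apply, Matrix.mul_apply, Matrix.add_apply, map_sum, pderiv_mul,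
    Finset.sum_add_distrib]

lemma gmD_trace (q : Fin n × (Fin d × Fin d)) (M : Matrix (Fin d) (Fin d) (GmR n d)) :
    pderiv q M.trace = (gmD q M).trace := by
  simp only [gmD, Matrix.trace, Matrix.diag, map_sum, Matrix.map_apply]

lemma gmD_one (q : Fin n × (Fin d × Fin d)) : gmD q 1 = 0 := by
  ext1 i j
  by_cases h : i = j <;> simp [gmD, h]

lemma gmD_H (q : Fin n × (Fin d × Fin d)) (p : Fin d × Fin d) : gmD q (gmH n p) = 0 := by
  ext1 i j
  simp [gmD, gmH]

lemma gmD_M (l l' : Fin n) (p : Fin d × Fin d) :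
    gmD (l, p) (gmM d l') = if l' = l then gmH n p else 0 := by
  ext1 i j
  simp only [gmD, gmM, gmH, Matrix.map_apply, Matrix.sum_apply, Matrix.smul_apply, smul_eq_mul,
    map_sum, pderiv_mul, pderiv_C, mul_zero, add_zero]
  by_cases h : l' = l
  · subst h
    rw [Finset.sum_eq_single p]
    · simp
    · intro p' _ hp
      rw [pderiv_X_of_ne (by simpa using hp), zero_mul]
    · simp
  · rw [if_neg h]
    refine Finset.sum_eq_zero fun p' _ => ?_
    rw [pderiv_X_of_ne (by simp [h]), zero_mul]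

lemma gmD_wv (l : Fin n) (p : Fin d × Fin d) (w : List (Fin n)) :
    gmD (l, p) (wv (gmM d) w) =
      sp w fun a l' b => if l' = l then wv (gmM d) a * gmH n p * wv (gmM d) b else 0 := by
  induction w with
  | nil => exact gmD_one _
  | cons l' w ih =>
    rw [wv_cons, gmD_mul, ih, gmD_M, sp, gm_mul_sp]
    congr 1
    · split_ifs <;> simp
    · refine sp_congr _ fun a l'' b _ => ?_
      split_ifs <;> simp [mul_assoc]

/-- The normalised trace of a word. -/
noncomputable def gmT (d : ℕ) (w : List (Fin n)) : GmR n d :=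
  C (d : ℂ)⁻¹ * (wv (gmM d) w).trace

/-- The product of the normalised traces of a list of words. -/
noncomputable def gmP (d : ℕ) (ws : List (List (Fin n))) : GmR n d := wv (gmT d) ws

lemma gm_pderiv_wv {L : Type*} (q : Fin n × (Fin d × Fin d)) (t : L → GmR n d) (ws : List L) :
    pderiv q (wv t ws) = sp ws fun a v b => wv t a * pderiv q (t v) * wv t b := by
  induction ws with
  | nil => exact pderiv_one
  | cons v ws ih =>
    rw [wv_cons, pderiv_mul, ih, sp, gm_mul_sp]
    congr 1
    · simp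
    · exact sp_congr _ fun a l b _ => by simp [mul_assoc]

lemma gm_sum_self (l : Fin n) (w : List (Fin n)) :
    ∑ p, pderiv (l, p) (gmH n p * wv (gmM d) w).trace =
      sp w fun a l' b => if l' = l then (wv (gmM d) a).trace * (wv (gmM d) b).trace else 0 := by
  simp only [gmD_trace, gmD_mul, gmD_H, zero_mul, zero_add, gmD_wv, gm_mul_sp]
  simp only [map_sp (Matrix.traceAddMonoidHom (Fin d) (GmR n d)) w, ← Matrix.traceAddMonoidHom_apply]
  rw [gm_sp_sum]
  refine sp_congr _ fun a l' b _ => ?_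
  split_ifs
  · rw [← map_sum]
    simp only [← mul_assoc, ← Finset.sum_mul, gmH_sandwich]
    simp
  · simp

lemma gm_sum_cross (l : Fin n) (w v : List (Fin n)) :
    ∑ p, (gmH n p * wv (gmM d) w).trace * pderiv (l, p) (wv (gmM d) v).trace =
      sp v fun a l' b => if l' = l then (wv (gmM d) (w ++ b ++ a)).trace else 0 := by
  simp only [gmD_trace, gmD_wv]
  simp only [map_sp (Matrix.traceAddMonoidHom (Fin d) (GmR n d)) v, ← Matrix.traceAddMonoidHom_apply,
    gm_mul_sp]
  rw [gm_sp_sum]
  refine sp_congr _ fun a l' b _ => ?_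
  split_ifs
  · simp only [Matrix.traceAddMonoidHom_apply]
    have e : ∀ p, (gmH n p * wv (gmM d) w).trace * (wv (gmM d) a * gmH n p * wv (gmM d) b).trace =
        (wv (gmM d) a * ((gmH n p * wv (gmM d) w).trace • gmH n p) * wv (gmM d) b).trace :=
      fun p => by simp
    simp only [e]
    rw [← Matrix.trace_sum, ← Finset.sum_mul, ← Finset.mul_sum, gmH_expand, wv_append, wv_append,
      mul_assoc (wv _ a), Matrix.trace_mul_comm]
  · simp

/-- The Schwinger–Dyson recursion for any functional satisfying Stein's identity. -/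
lemma gm_rec (E : GmR n d →ₗ[ℂ] ℂ)
    (hE : ∀ q P, E (X q * P) = (d : ℂ)⁻¹ * E (pderiv q P)) (l : Fin n) (w : List (Fin n))
    (ws : List (List (Fin n))) :
    E (gmP d ((l :: w) :: ws)) =
      sp w (fun a l' b => if l' = l then E (gmP d (a :: b :: ws)) else 0) +
      ((d : ℂ)⁻¹) ^ 2 * sp ws fun pre v post => sp v fun a l' b =>
        if l' = l then E (gmP d ((w ++ b ++ a) :: (pre ++ post))) else 0 := by
  have e1 : gmP d ((l :: w) :: ws) =
      ∑ p, X (l, p) * (C (d : ℂ)⁻¹ * ((gmH n p * wv (gmM d) w).trace * gmP d ws)) := by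
    simp only [gmP, wv_cons, gmT]
    rw [gmM, Finset.sum_mul, Matrix.trace_sum, Finset.mul_sum, Finset.sum_mul]
    refine Finset.sum_congr rfl fun p _ => ?_
    rw [Matrix.smul_mul, Matrix.trace_smul, smul_eq_mul]
    ring
  have e2 : ∑ p, pderiv (l, p) (C (d : ℂ)⁻¹ * ((gmH n p * wv (gmM d) w).trace * gmP d ws)) =
      C (d : ℂ)⁻¹ * ((∑ p, pderiv (l, p) (gmH n p * wv (gmM d) w).trace) * gmP d ws +
        sp ws fun pre v post => C (d : ℂ)⁻¹ * ((∑ p, (gmH n p * wv (gmM d) w).trace *
          pderiv (l, p) (wv (gmM d) v).trace) * gmP d (pre ++ post))) := by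
    simp only [pderiv_C_mul]
    simp only [pderiv_mul, gmP, gm_pderiv_wv, gm_mul_sp]
    rw [← Finset.mul_sum, Finset.sum_add_distrib, ← Finset.sum_mul, gm_sp_sum]
    congr 2
    refine sp_congr _ fun pre v post _ => ?_
    rw [Finset.sum_mul, Finset.mul_sum]
    refine Finset.sum_congr rfl fun p _ => ?_
    rw [gmT, pderiv_C_mul, wv_append]
    ring
  have hC : ∀ (z : ℂ) (P : GmR n d), E (C z * P) = z * E P := fun z P => by
    rw [← smul_eq_C_mul, map_smul, smul_eq_mul]
  rw [e1, map_sum]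
  simp only [hE]
  rw [← Finset.mul_sum, ← map_sum, e2, gm_sum_self]
  simp only [gm_sum_cross]
  rw [mul_add, map_add, mul_add]
  congr 1
  · rw [gm_sp_mul, gm_mul_sp, map_sp, gm_mul_sp]
    refine sp_congr _ fun a l' b _ => ?_
    split_ifs
    · rw [← hC]
      congr 1
      simp only [gmP, wv_cons, gmT]
      ring
    · simp
  · rw [gm_mul_sp, map_sp, gm_mul_sp, gm_mul_sp]
    refine sp_congr _ fun pre v post _ => ?_
    rw [gm_sp_mul, gm_mul_sp, gm_mul_sp, map_sp, gm_mul_sp, gm_mul_sp]
    refine sp_congr _ fun a l' b _ => ?_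
    split_ifs
    · rw [← hC, ← hC]
      congr 1
      simp only [gmP, wv_cons, gmT, map_pow]
      ring
    · simp

lemma gmP_nil_cons (hd : 0 < d) (ws : List (List (Fin n))) : gmP d ([] :: ws) = gmP d ws := by
  have hd' : (d : ℂ) ≠ 0 := by exact_mod_cast hd.ne'
  have : gmT (n := n) d [] = 1 := by
    rw [gmT, wv_nil, Matrix.trace_one, Fintype.card_fin, ← map_natCast (C : ℂ →+* GmR n d),
      ← map_mul, inv_mul_cancel₀ hd', map_one]
  rw [gmP, wv_cons, this, one_mul, gmP]

lemma gm_map_wv (a : EuclideanSpace ℝ (Fin n × (Fin d × Fin d))) (w : List (Fin n)) :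
    (gsEv a).mapMatrix (wv (gmM d) w) = wv (matrixTuple a) w := by
  induction w with
  | nil => exact map_one _
  | cons l w ih =>
    rw [wv_cons, wv_cons, map_mul, ih]
    congr 1
    rw [matrixTuple, herm_eq_sum]
    ext i j
    simp [gmM, gmH, Matrix.sum_apply]

lemma gsEv_gmT (a : EuclideanSpace ℝ (Fin n × (Fin d × Fin d))) (w : List (Fin n)) :
    gsEv a (gmT d w) = (d : ℂ)⁻¹ * (wv (matrixTuple a) w).trace := by
  rw [gmT, map_mul, gsEv_C, ← gm_map_wv]
  congr 1
  simp [Matrix.trace]

lemma gsEv_gmT_reverse (a : EuclideanSpace ℝ (Fin n × (Fin d × Fin d))) (w : List (Fin n)) :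
    gsEv a (gmT d w.reverse) = starRingEnd ℂ (gsEv a (gmT d w)) := by
  have e : wv (matrixTuple a) w.reverse = (wv (matrixTuple a) w).conjTranspose := by
    induction w with
    | nil => simp
    | cons l w ih =>
      rw [List.reverse_cons, wv_append, ih, wv_cons, wv_cons, wv_nil, mul_one,
        Matrix.conjTranspose_mul]
      congr 1
      exact (herm_isHermitian _).eq.symm
  rw [gsEv_gmT, gsEv_gmT, e, Matrix.trace_conjTranspose, map_mul]
  simp

end Alg

section Limit

variable {n : ℕ}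

lemma gm_gueZ_pos (n : ℕ) {d : ℕ} (hd : 0 < d) : 0 < gueZ n d := by
  unfold gueZ
  have : (0 : ℝ) < d := by exact_mod_cast hd
  positivity

lemma gm_integral_W (n : ℕ) {d : ℕ} (hd : 0 < d) :
    ∫ a : EuclideanSpace ℝ (Fin n × (Fin d × Fin d)), gsW d a = gueZ n d := by
  have hd' : (0 : ℝ) < d := by exact_mod_cast hd
  have h := GaussianFourier.integral_rexp_neg_mul_sq_norm
    (V := EuclideanSpace ℝ (Fin n × (Fin d × Fin d))) (b := (d : ℝ) / 2) (by positivity)
  simp only [gsW, neg_div]
  rw [h, gueZ]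
  congr 1
  · field_simp
  · simp [sq]

lemma gm_gue_univ (n : ℕ) {d : ℕ} (hd : 0 < d) :
    gue n d Set.univ = ENNReal.ofReal (gueZ n d) := by
  have hd' : (0 : ℝ) < d := by exact_mod_cast hd
  have hi : Integrable fun a : EuclideanSpace ℝ (Fin n × (Fin d × Fin d)) => gsW d a := by
    simpa only [gsW, neg_div] using gs_integrable_exp (b := (d : ℝ) / 2) (by positivity)
  rw [← gm_integral_W n hd, ofReal_integral_eq_lintegral_ofReal hi
    (Eventually.of_forall fun a => (gsW_pos _ a).le), gue, withDensity_apply _ MeasurableSet.univ,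
    Measure.restrict_univ]
  rfl

/-- The normalised Gaussian expectation. -/
noncomputable def gmE (n d : ℕ) : GmR n d →ₗ[ℂ] ℂ :=
  if hd : 0 < d then ((gueZ n d : ℂ)⁻¹) • gsI (c := d) (by exact_mod_cast hd) else 0

lemma gmE_apply {d : ℕ} (hd : 0 < d) (P : GmR n d) :
    gmE n d P = (gueZ n d : ℂ)⁻¹ * ∫ a, gsEv a P * (gsW d a : ℂ) := by
  rw [gmE, dif_pos hd]
  rfl

lemma gmE_one {d : ℕ} (hd : 0 < d) : gmE n d 1 = 1 := by
  rw [gmE_apply hd]
  simp only [map_one, one_mul]
  rw [integral_complex_ofReal, gm_integral_W n hd]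
  exact inv_mul_cancel₀ (by exact_mod_cast (gm_gueZ_pos n hd).ne')

lemma gmE_stein {d : ℕ} (hd : 0 < d) (q : Fin n × (Fin d × Fin d)) (P : GmR n d) :
    gmE n d (X q * P) = (d : ℂ)⁻¹ * gmE n d (pderiv q P) := by
  simp only [gmE, dif_pos hd, LinearMap.smul_apply, smul_eq_mul, gsI_stein]
  push_cast
  ring

/-- The size used in the induction. -/
def gmSize (ws : List (List (Fin n))) : ℕ := (ws.map fun w => w.length + 1).sum

lemma gm_tendsto (t : List (Fin n) → ℂ) (h1 : t [] = 1)
    (hSD : ∀ i w, t (i :: w) = sp w fun a l b => if l = i then t a * t b else 0)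
    (ws : List (List (Fin n))) :
    Tendsto (fun d : ℕ => gmE n d (gmP d ws)) atTop (𝓝 (wv t ws)) := by
  induction hN : gmSize ws using Nat.strong_induction_on generalizing ws with
  | _ N ih =>
  subst hN
  match ws, ih with
  | [], _ =>
    refine tendsto_const_nhds.congr' ?_
    filter_upwards [eventually_gt_atTop 0] with d hd
    exact (gmE_one hd).symm
  | [] :: ws, ih =>
    rw [wv_cons, h1, one_mul]
    refine (ih _ (by simp [gmSize]) ws rfl).congr' ?_
    filter_upwards [eventually_gt_atTop 0] with d hd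
    rw [gmP_nil_cons hd]
  | (l :: w) :: ws, ih =>
    have hA : Tendsto (fun d : ℕ => sp w fun a l' b =>
        if l' = l then gmE n d (gmP d (a :: b :: ws)) else 0) atTop
        (𝓝 (sp w fun a l' b => if l' = l then wv t (a :: b :: ws) else 0)) := by
      refine gm_tendsto_sp w fun a l' b e => ?_
      split_ifs
      · exact ih _ (by simp [gmSize, e]; omega) _ rfl
      · exact tendsto_const_nhds
    have hB : Tendsto (fun d : ℕ => sp ws fun pre v post => sp v fun a l' b =>
        if l' = l then gmE n d (gmP d ((w ++ b ++ a) :: (pre ++ post))) else 0) atTop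
        (𝓝 (sp ws fun pre v post => sp v fun a l' b =>
          if l' = l then wv t ((w ++ b ++ a) :: (pre ++ post)) else 0)) := by
      refine gm_tendsto_sp ws fun pre v post e => gm_tendsto_sp v fun a l' b e' => ?_
      split_ifs
      · exact ih _ (by simp [gmSize, e, e']; omega) _ rfl
      · exact tendsto_const_nhds
    have h0 : Tendsto (fun d : ℕ => ((d : ℂ)⁻¹) ^ 2) atTop (𝓝 0) := by
      simpa using (tendsto_inv_atTop_nhds_zero_nat (𝕜 := ℂ)).pow 2
    have h := hA.add (h0.mul hB)
    rw [zero_mul, add_zero] at h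
    have e : wv t ((l :: w) :: ws) =
        sp w fun a l' b => if l' = l then wv t (a :: b :: ws) else 0 := by
      rw [wv_cons, hSD, gm_sp_mul]
      refine sp_congr _ fun a l' b _ => ?_
      split_ifs <;> simp [mul_assoc]
    rw [e]
    refine h.congr' ?_
    filter_upwards [eventually_gt_atTop 0] with d hd
    exact (gm_rec _ (gmE_stein hd) l w ws).symm

lemma gm_markov {d : ℕ} (hd : 0 < d) (P Q : GmR n d) (ε : ℝ) (hε : 0 < ε)
    (h : ∀ a, gsEv a Q = starRingEnd ℂ (gsEv a P)) :
    gue n d {a | ε ≤ ‖gsEv a P‖} ≤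
      ENNReal.ofReal ((ε ^ 2)⁻¹ * ‖gmE n d (P * Q)‖ * gueZ n d) := by
  have hd' : (0 : ℝ) < d := by exact_mod_cast hd
  have hZ := gm_gueZ_pos n hd
  have e : ∀ a, gsEv a (P * Q) * (gsW d a : ℂ) = ((‖gsEv a P‖ ^ 2 * gsW d a : ℝ) : ℂ) := fun a => by
    rw [map_mul, h, Complex.mul_conj, Complex.normSq_eq_norm_sq]
    push_cast
    ring
  have hi : Integrable fun a => ‖gsEv a P‖ ^ 2 * gsW (d : ℝ) a := by
    have := (gs_integrable hd' (P * Q)).re
    simpa only [e, RCLike.re_to_complex, Complex.ofReal_re] using this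
  have hnn : ∀ a, 0 ≤ ‖gsEv a P‖ ^ 2 * gsW (d : ℝ) a := fun a =>
    mul_nonneg (sq_nonneg _) (gsW_pos _ a).le
  have hI : ‖gmE n d (P * Q)‖ * gueZ n d = ∫ a, ‖gsEv a P‖ ^ 2 * gsW (d : ℝ) a := by
    rw [gmE_apply hd]
    simp only [e]
    rw [integral_complex_ofReal, norm_mul, norm_inv, Complex.norm_real, Real.norm_of_nonneg hZ.le,
      Complex.norm_real, Real.norm_of_nonneg (integral_nonneg hnn)]
    field_simp
  have hS : MeasurableSet {a : EuclideanSpace ℝ (Fin n × (Fin d × Fin d)) | ε ≤ ‖gsEv a P‖} :=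
    (isClosed_le continuous_const (gsEv_cont P).norm).measurableSet
  rw [mul_assoc, hI, ← integral_const_mul, ofReal_integral_eq_lintegral_ofReal (hi.const_mul _)
    (Eventually.of_forall fun a => mul_nonneg (by positivity) (hnn a)), gue,
    withDensity_apply _ hS]
  refine le_trans (setLIntegral_mono' hS fun a ha => ?_) (setLIntegral_le_lintegral _ _)
  refine ENNReal.ofReal_le_ofReal ?_
  change gsW d a ≤ _
  rw [← mul_assoc]
  refine le_mul_of_one_le_left (gsW_pos _ a).le ?_
  rw [← div_eq_inv_mul, one_le_div (by positivity)]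
  exact pow_le_pow_left₀ hε.le ha 2

end Limit

theorem gue_moment {A : Type*} [Ring A] [Algebra ℂ A] {n : ℕ} (τ : A →ₗ[ℂ] ℂ) (g : Fin n → A)
    (h1 : τ 1 = 1)
    (hSD : ∀ i w, τ (wv g (i :: w)) = sp w fun a l b =>
      if l = i then τ (wv g a) * τ (wv g b) else 0) (w : FreeMonoid (Fin n)) (ε δ : ℝ)
    (hε : 0 < ε) (hδ : 0 < δ) : ∀ᶠ d : ℕ in atTop,
      gue n d {a | ε ≤ ‖matrixMoment (matrixTuple a) w - τ (wordEval g w)‖} ≤
        ENNReal.ofReal (δ * gueZ n d) := by
  have hT := gm_tendsto (fun v => τ (wv g v)) h1 hSD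
  set v := FreeMonoid.toList w with hv
  set z := τ (wv g v) with hz
  have h2 := hT [v, v.reverse]
  have h3 := hT [v]
  have h4 := hT [v.reverse]
  have h5 := hT []
  simp only [gmP, wv_cons, wv_nil, mul_one] at h2 h3 h4 h5
  have h6 := ((h2.sub (h3.const_mul (starRingEnd ℂ z))).sub (h4.const_mul z)).add
    (h5.const_mul (z * starRingEnd ℂ z))
  have h7 : Tendsto (fun d : ℕ => gmE n d ((gmT d v - C z) *
      (gmT d v.reverse - C (starRingEnd ℂ z)))) atTop (𝓝 0) := by
    convert h6 using 2 with d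
    · simp only [← smul_eq_mul, ← map_smul, ← map_sub, ← map_add, smul_eq_C_mul]
      congr 1
      simp only [smul_eq_mul, map_mul]
      ring
    · rw [← hz]
      ring
  have h8 := (h7.norm.const_mul (ε ^ 2)⁻¹).eventually (gt_mem_nhds (by simpa using hδ))
  filter_upwards [h8, eventually_gt_atTop 0] with d hd1 hd
  have h9 := gm_markov hd (gmT d v - C z) (gmT d v.reverse - C (starRingEnd ℂ z)) ε hε fun a => by
    simp only [map_sub, gsEv_C, gsEv_gmT_reverse]
  simp only [map_sub (gsEv _), gsEv_C, gsEv_gmT] at h9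
  simp only [matrixMoment, wordEval_eq_wv]
  exact h9.trans (ENNReal.ofReal_le_ofReal
    (mul_le_mul_of_nonneg_right hd1.le (gm_gueZ_pos n hd).le))

theorem gue_lower_of_norm {A : Type*} [Ring A] [Algebra ℂ A] {n : ℕ}
    (hnorm : ∀ᶠ d : ℕ in atTop,
      gue n d {a | ∃ l, 32 < ‖Matrix.toEuclideanCLM (n := Fin d) (𝕜 := ℂ) (matrixTuple a l)‖} ≤
        ENNReal.ofReal (4⁻¹ * gueZ n d))
    (τ : A →ₗ[ℂ] ℂ) (g : Fin n → A) (h1 : τ 1 = 1)
    (hSD : ∀ i w, τ (wv g (i :: w)) = sp w fun a l b =>
      if l = i then τ (wv g a) * τ (wv g b) else 0) (m : ℕ) (ε : ℝ) (hε : 0 < ε) :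
    ∀ᶠ d : ℕ in atTop, ENNReal.ofReal (2⁻¹ * gueZ n d) ≤
      volume (microstates τ g 32 m d ε) := by
  have hfin : {w : FreeMonoid (Fin n) | (FreeMonoid.toList w).length ≤ m}.Finite :=
    List.finite_length_le (Fin n) m
  set W := hfin.toFinset with hW
  set δ : ℝ := (4 * (W.card + 1 : ℝ))⁻¹ with hδ
  have hδ0 : 0 < δ := by positivity
  have hall := (eventually_all_finset W).2 fun w _ => gue_moment τ g h1 hSD w ε δ hε hδ0
  filter_upwards [hall, hnorm, eventually_gt_atTop 0] with d hw hn hd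
  have hZ := gm_gueZ_pos n hd
  have hle : gue n d ≤ volume := by
    have := withDensity_mono (μ := (volume : Measure (EuclideanSpace ℝ (Fin n × (Fin d × Fin d)))))
      (f := fun a => ENNReal.ofReal (Real.exp (-(d : ℝ) / 2 * ‖a‖ ^ 2))) (g := 1)
      (Eventually.of_forall fun a => by
        refine ENNReal.ofReal_le_one.2 (Real.exp_le_one_iff.2 ?_)
        have : (0 : ℝ) ≤ d / 2 * ‖a‖ ^ 2 := by positivity
        linarith)
    rwa [withDensity_one] at this
  refine le_trans ?_ (Measure.le_iff'.1 hle _)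
  have hc : (microstates τ g 32 m d ε)ᶜ ⊆
      {a | ∃ l, 32 < ‖Matrix.toEuclideanCLM (n := Fin d) (𝕜 := ℂ) (matrixTuple a l)‖} ∪
        ⋃ w ∈ W, {a | ε ≤ ‖matrixMoment (matrixTuple a) w - τ (wordEval g w)‖} := by
    intro a ha
    by_contra hcon
    simp only [Set.mem_union, Set.mem_ofPred_eq, Set.mem_iUnion, not_or, not_exists, not_lt,
      not_le] at hcon
    exact ha ⟨hcon.1, fun w hw => hcon.2 w (hfin.mem_toFinset.2 hw)⟩
  have hb : gue n d (microstates τ g 32 m d ε)ᶜ ≤ ENNReal.ofReal (2⁻¹ * gueZ n d) := by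
    refine (measure_mono hc).trans ((measure_union_le _ _).trans ?_)
    refine (add_le_add hn ((measure_biUnion_finset_le _ _).trans
      (Finset.sum_le_card_nsmul _ _ _ hw))).trans ?_
    rw [nsmul_eq_mul, ← ENNReal.ofReal_natCast, ← ENNReal.ofReal_mul (Nat.cast_nonneg _),
      ← ENNReal.ofReal_add (by positivity) (by positivity)]
    refine ENNReal.ofReal_le_ofReal ?_
    have : (W.card : ℝ) * δ ≤ 4⁻¹ := by
      rw [hδ, ← div_eq_mul_inv, div_le_iff₀ (by positivity)]
      linarith
    nlinarith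
  have hu : ENNReal.ofReal (2⁻¹ * gueZ n d) + ENNReal.ofReal (2⁻¹ * gueZ n d) ≤
      gue n d (microstates τ g 32 m d ε) + ENNReal.ofReal (2⁻¹ * gueZ n d) := by
    rw [← ENNReal.ofReal_add (by positivity) (by positivity), ← add_mul,
      show (2⁻¹ : ℝ) + 2⁻¹ = 1 by norm_num, one_mul, ← gm_gue_univ n hd,
      ← Set.union_compl_self (microstates τ g 32 m d ε)]
    exact (measure_union_le _ _).trans (add_le_add le_rfl hb)
  exact (ENNReal.add_le_add_iff_right ENNReal.ofReal_ne_top).1 hu

end Crest.Agent.R89
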