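import Crest.Agent.R89.Herm

/-! Row 89: total mass of the Gaussian measure and the operator norm tail bound. -/

set_option autoImplicit false

namespace Crest.Agent.R89

open Crest.OpAlg Filter MeasureTheory
open scoped InnerProductSpace

lemma integrable_gauss {V : Type*} [NormedAddCommGroup V] [InnerProductSpace ℝ V]
    [FiniteDimensional ℝ V] [MeasurableSpace V] [BorelSpace V] {b : ℝ} (hb : 0 < b) :
    Integrable (fun v : V => Real.exp (-b * ‖v‖ ^ 2)) := by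
  by_contra h
  have h1 := GaussianFourier.integral_rexp_neg_mul_sq_norm (V := V) hb
  rw [integral_undef h] at h1
  exact (Real.rpow_pos_of_pos (div_pos Real.pi_pos hb) _).ne h1

theorem gue_univ (n : ℕ) {d : ℕ} (hd : 0 < d) : gue n d Set.univ = ENNReal.ofReal (gueZ n d) := by
  have hd' : (0 : ℝ) < (d : ℝ) / 2 := by positivity
  have e : ∀ a : EuclideanSpace ℝ (Fin n × (Fin d × Fin d)),
      -(d : ℝ) / 2 * ‖a‖ ^ 2 = -((d : ℝ) / 2) * ‖a‖ ^ 2 := fun a => by ring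
  rw [gue, withDensity_apply _ MeasurableSet.univ, Measure.restrict_univ]
  simp only [e]
  rw [← ofReal_integral_eq_lintegral_ofReal (integrable_gauss hd')
    (Eventually.of_forall fun a => (Real.exp_pos _).le),
    GaussianFourier.integral_rexp_neg_mul_sq_norm hd', gueZ]
  congr 2
  · have : (d : ℝ) ≠ 0 := by positivity
    field_simp
  · simp [sq]

/-- Gaussian tail of a linear functional of norm at most one. -/
lemma gue_tail {n d : ℕ} (c : EuclideanSpace ℝ (Fin n × (Fin d × Fin d))) (hc : ‖c‖ ≤ 1) {r : ℝ}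
    (hr : 0 ≤ r) : gue n d {a | r < ⟪c, a⟫_ℝ} ≤
      ENNReal.ofReal (Real.exp (-(d : ℝ) / 2 * r ^ 2)) * gue n d Set.univ := by
  have hm : MeasurableSet {a : EuclideanSpace ℝ (Fin n × (Fin d × Fin d)) | r < ⟪c, a⟫_ℝ} :=
    (isOpen_lt continuous_const (by fun_prop)).measurableSet
  rw [gue, withDensity_apply _ hm, withDensity_apply _ MeasurableSet.univ, Measure.restrict_univ,
    ← lintegral_sub_right_eq_self (μ := volume) _ (r • c),
    ← lintegral_const_mul' _ _ ENNReal.ofReal_ne_top]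
  refine (setLIntegral_mono' hm fun a ha => ?_).trans (setLIntegral_le_lintegral _ _)
  rw [← ENNReal.ofReal_mul (Real.exp_pos _).le, ← Real.exp_add]
  refine ENNReal.ofReal_le_ofReal (Real.exp_le_exp.2 ?_)
  have h1 : ‖a - r • c‖ ^ 2 = ‖a‖ ^ 2 - 2 * r * ⟪c, a⟫_ℝ + r ^ 2 * ‖c‖ ^ 2 := by
    rw [norm_sub_sq_real, inner_smul_right, real_inner_comm, norm_smul, Real.norm_of_nonneg hr]
    ring
  have h2 : ‖c‖ ^ 2 ≤ 1 := by nlinarith [norm_nonneg c]
  have h3 : r * r ≤ r * ⟪c, a⟫_ℝ := mul_le_mul_of_nonneg_left (le_of_lt ha) hr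
  have h4 : r ^ 2 * ‖c‖ ^ 2 ≤ r ^ 2 := by nlinarith [sq_nonneg r]
  have h5 : ‖a - r • c‖ ^ 2 + r ^ 2 ≤ ‖a‖ ^ 2 := by nlinarith
  have hd : (0 : ℝ) ≤ d := Nat.cast_nonneg d
  nlinarith [mul_le_mul_of_nonneg_left h5 hd]

/-- A `1/2`-net of the unit ball with at most `5 ^ dim` points. -/
lemma exists_net (E : Type*) [NormedAddCommGroup E] [NormedSpace ℝ E] [FiniteDimensional ℝ E] :
    ∃ N : Finset E, N.card ≤ 5 ^ Module.finrank ℝ E ∧ (∀ u ∈ N, ‖u‖ ≤ 1) ∧
      ∀ x : E, ‖x‖ ≤ 1 → ∃ u ∈ N, ‖x - u‖ ≤ 2⁻¹ := by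
  classical
  let S : Set ℕ := {k | ∃ s : Finset E, s.card = k ∧ (∀ c ∈ s, ‖c‖ ≤ 2) ∧
    ∀ c ∈ s, ∀ e ∈ s, c ≠ e → 1 ≤ ‖c - e‖}
  have hb : BddAbove S := ⟨5 ^ Module.finrank ℝ E, by
    rintro _ ⟨s, rfl, h1, h2⟩
    exact Besicovitch.card_le_of_separated s h1 h2⟩
  obtain ⟨s, hs, h1, h2⟩ : sSup S ∈ S := Nat.sSup_mem ⟨0, ∅, by simp⟩ hb
  refine ⟨s.image fun c => (2⁻¹ : ℝ) • c,
    Finset.card_image_le.trans (Besicovitch.card_le_of_separated s h1 h2), ?_, ?_⟩
  · intro u hu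
    obtain ⟨c, hc, rfl⟩ := Finset.mem_image.1 hu
    rw [norm_smul, Real.norm_of_nonneg (by norm_num)]
    linarith [h1 c hc]
  · intro x hx
    by_contra hcon
    push Not at hcon
    have hfar : ∀ c ∈ s, 1 < ‖(2 : ℝ) • x - c‖ := by
      intro c hc
      have h3 := hcon _ (Finset.mem_image_of_mem _ hc)
      have h4 : (2 : ℝ) • x - c = (2 : ℝ) • (x - (2⁻¹ : ℝ) • c) := by
        rw [smul_sub, smul_smul]; norm_num
      rw [h4, norm_smul, Real.norm_of_nonneg (by norm_num)]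
      linarith
    have hnot : (2 : ℝ) • x ∉ s := fun h => by
      have := hfar _ h
      rw [sub_self, norm_zero] at this
      linarith
    have hmem : (insert ((2 : ℝ) • x) s).card ∈ S := by
      refine ⟨_, rfl, ?_, ?_⟩
      · intro c hc
        rcases Finset.mem_insert.1 hc with rfl | hc
        · rw [norm_smul, Real.norm_of_nonneg (by norm_num)]; linarith
        · exact h1 c hc
      · intro c hc e he hce
        rcases Finset.mem_insert.1 hc with rfl | hc'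
        · rcases Finset.mem_insert.1 he with rfl | he'
          · exact absurd rfl hce
          · exact (hfar e he').le
        · rcases Finset.mem_insert.1 he with rfl | he'
          · rw [norm_sub_rev]; exact (hfar c hc').le
          · exact h2 c hc' e he' hce
    have := le_csSup hb hmem
    rw [Finset.card_insert_of_notMem hnot, hs] at this
    omega

lemma opNorm_le_of_net {E : Type*} [NormedAddCommGroup E] [InnerProductSpace ℂ E] (N : Finset E)
    (hN : ∀ x : E, ‖x‖ ≤ 1 → ∃ u ∈ N, ‖x - u‖ ≤ 2⁻¹) (T : E →L[ℂ] E) {r : ℝ} (hr : 0 ≤ r)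
    (h : ∀ u ∈ N, ∀ v ∈ N, (⟪u, T v⟫_ℂ).re ≤ r) : ‖T‖ ≤ 4 * r := by
  have h1 : ∀ v ∈ N, ‖T v‖ ≤ 2 * r := by
    intro v hv
    by_cases hw : T v = 0
    · rw [hw, norm_zero]; linarith
    have hp : 0 < ‖T v‖ := norm_pos_iff.2 hw
    obtain ⟨u, hu, hyu⟩ := hN (((‖T v‖⁻¹ : ℝ) : ℂ) • T v) (by
      rw [norm_smul, Complex.norm_real, Real.norm_of_nonneg (by positivity),
        inv_mul_cancel₀ hp.ne'])
    set y := ((‖T v‖⁻¹ : ℝ) : ℂ) • T v with hy
    have e1 : (⟪y, T v⟫_ℂ).re = ‖T v‖ := by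
      rw [hy, inner_smul_left, Complex.conj_ofReal, Complex.re_ofReal_mul]
      have : (⟪T v, T v⟫_ℂ).re = ‖T v‖ ^ 2 := inner_self_eq_norm_sq (𝕜 := ℂ) (T v)
      rw [this]
      field_simp
    have e2 : (⟪y, T v⟫_ℂ).re = (⟪u, T v⟫_ℂ).re + (⟪y - u, T v⟫_ℂ).re := by
      rw [inner_sub_left, Complex.sub_re]; ring
    have e3 : (⟪y - u, T v⟫_ℂ).re ≤ 2⁻¹ * ‖T v‖ :=
      (Complex.re_le_norm _).trans ((norm_inner_le_norm _ _).trans
        (mul_le_mul_of_nonneg_right hyu hp.le))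
    linarith [h u hu v hv]
  have h2 : ‖T‖ ≤ 2 * r + 2⁻¹ * ‖T‖ := by
    refine ContinuousLinearMap.opNorm_le_of_unit_norm (by positivity) fun x hx => ?_
    obtain ⟨v, hv, hxv⟩ := hN x hx.le
    have e : T x = T v + T (x - v) := by rw [map_sub]; abel
    have e2 : ‖T (x - v)‖ ≤ ‖T‖ * 2⁻¹ := T.le_opNorm_of_le hxv
    rw [e]
    linarith [norm_add_le (T v) (T (x - v)), h1 v hv]
  linarith

/-- The coefficient vector of `a ↦ Re ⟪u, M_l(a) v⟫`. -/
lemma exists_coef {n d : ℕ} (l : Fin n) (u v : EuclideanSpace ℂ (Fin d)) (hu : ‖u‖ ≤ 1)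
    (hv : ‖v‖ ≤ 1) : ∃ c : EuclideanSpace ℝ (Fin n × (Fin d × Fin d)), ‖c‖ ≤ 1 ∧ ∀ a,
      (⟪u, Matrix.toEuclideanCLM (n := Fin d) (𝕜 := ℂ) (matrixTuple a l) v⟫_ℂ).re = ⟪c, a⟫_ℝ := by
  classical
  let z : Fin d × Fin d → ℂ := fun p => (Hb p * Matrix.vecMulVec v.ofLp (star u.ofLp)).trace
  have hz : ∀ p, star (z p) = (Hb p * Matrix.vecMulVec u.ofLp (star v.ofLp)).trace := by
    intro p
    simp only [z]
    rw [← Matrix.trace_conjTranspose, Matrix.conjTranspose_mul, (Hb_isHermitian p).eq,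
      Matrix.trace_mul_comm, Matrix.conjTranspose_vecMulVec, star_star]
  have hsum : ∑ p, ‖z p‖ ^ 2 = ‖u‖ ^ 2 * ‖v‖ ^ 2 := by
    have e1 : ∀ p, ((‖z p‖ ^ 2 : ℝ) : ℂ) = z p * star (z p) := fun p => by
      rw [Complex.star_def, Complex.mul_conj, Complex.normSq_eq_norm_sq]
    have e2 : ∀ w : EuclideanSpace ℂ (Fin d), ((‖w‖ ^ 2 : ℝ) : ℂ) = ∑ i, w i * star (w i) := by
      intro w
      rw [EuclideanSpace.norm_sq_eq, Complex.ofReal_sum]
      refine Finset.sum_congr rfl fun i _ => ?_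
      rw [Complex.star_def, Complex.mul_conj, Complex.normSq_eq_norm_sq]
    apply Complex.ofReal_injective
    rw [Complex.ofReal_sum, Complex.ofReal_mul, e2, e2]
    simp only [e1, hz]
    simp only [z]
    rw [sum_trace_Hb_mul, trace_mul_eq, Finset.sum_mul_sum, Finset.sum_comm]
    refine Finset.sum_congr rfl fun i _ => Finset.sum_congr rfl fun j _ => ?_
    simp only [Matrix.vecMulVec_apply, Pi.star_apply]
    ring
  refine ⟨WithLp.toLp 2 fun q => if q.1 = l then (z q.2).re else 0, ?_, fun a => ?_⟩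
  · have : ‖(WithLp.toLp 2 fun q : Fin n × (Fin d × Fin d) =>
        if q.1 = l then (z q.2).re else 0 : EuclideanSpace ℝ _)‖ ^ 2 ≤ 1 := by
      rw [EuclideanSpace.real_norm_sq_eq, Fintype.sum_prod_type]
      simp only [ite_pow, ne_eq, OfNat.ofNat_ne_zero, not_false_eq_true, zero_pow,
        Finset.sum_ite_irrel, Finset.sum_const_zero, Finset.sum_ite_eq', Finset.mem_univ, if_true]
      have h1 : ∑ p, (z p).re ^ 2 ≤ ∑ p, ‖z p‖ ^ 2 := Finset.sum_le_sum fun p _ => by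
        rw [← sq_abs]
        exact pow_le_pow_left₀ (abs_nonneg _) (Complex.abs_re_le_norm _) 2
      have h2 : ‖u‖ ^ 2 ≤ 1 := by nlinarith [norm_nonneg u]
      have h3 : ‖v‖ ^ 2 ≤ 1 := by nlinarith [norm_nonneg v]
      rw [hsum] at h1
      nlinarith [sq_nonneg ‖u‖, sq_nonneg ‖v‖]
    nlinarith [norm_nonneg (WithLp.toLp 2 fun q : Fin n × (Fin d × Fin d) =>
        if q.1 = l then (z q.2).re else 0 : EuclideanSpace ℝ _)]
  · have e1 : ⟪u, Matrix.toEuclideanCLM (n := Fin d) (𝕜 := ℂ) (matrixTuple a l) v⟫_ℂ =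
        (matrixTuple a l * Matrix.vecMulVec v.ofLp (star u.ofLp)).trace := by
      rw [trace_mul_eq, PiLp.inner_apply]
      refine Finset.sum_congr rfl fun i _ => ?_
      simp only [Matrix.ofLp_toEuclideanCLM, Matrix.mulVec, dotProduct, RCLike.inner_apply,
        Matrix.vecMulVec_apply, Pi.star_apply, Finset.sum_mul, Complex.star_def]
      exact Finset.sum_congr rfl fun j _ => by ring
    rw [e1, matrixTuple, herm_eq_sum, PiLp.inner_apply, Finset.sum_mul,
      Matrix.trace_sum, Complex.re_sum,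
      Fintype.sum_prod_type (α₁ := Fin n) (α₂ := Fin d × Fin d)]
    simp only [RCLike.inner_apply, conj_trivial, mul_ite, mul_zero, Finset.sum_ite_irrel,
      Finset.sum_const_zero, Finset.sum_ite_eq', Finset.mem_univ, if_true, smul_mul_assoc,
      Matrix.trace_smul, smul_eq_mul, Complex.re_ofReal_mul, z]

theorem gue_norm (n : ℕ) (δ : ℝ) (hδ : 0 < δ) : ∀ᶠ d : ℕ in atTop,
    gue n d {a | ∃ l, 32 < ‖Matrix.toEuclideanCLM (n := Fin d) (𝕜 := ℂ) (matrixTuple a l)‖} ≤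
      ENNReal.ofReal (δ * gueZ n d) := by
  have hq : 625 * Real.exp (-32) < 1 := by
    have h1 : (9 : ℝ) ≤ Real.exp 8 := by linarith [Real.add_one_le_exp (8 : ℝ)]
    have h2 : Real.exp 32 = Real.exp 8 ^ 4 := by rw [← Real.exp_nat_mul]; norm_num
    have h3 : (9 : ℝ) ^ 4 ≤ Real.exp 32 := h2 ▸ pow_le_pow_left₀ (by norm_num) h1 4
    rw [Real.exp_neg, mul_inv_lt_iff₀ (Real.exp_pos _)]
    linarith
  have ht : Tendsto (fun d : ℕ => (n : ℝ) * (625 * Real.exp (-32)) ^ d) atTop (nhds 0) := by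
    simpa using (tendsto_pow_atTop_nhds_zero_of_lt_one (by positivity) hq).const_mul (n : ℝ)
  filter_upwards [ht.eventually_le_const hδ, eventually_gt_atTop 0] with d hd hd0
  obtain ⟨N, hcard, hN1, hN⟩ := exists_net (EuclideanSpace ℂ (Fin d))
  have hfr : Module.finrank ℝ (EuclideanSpace ℂ (Fin d)) = 2 * d := by
    rw [← Module.finrank_mul_finrank ℝ ℂ, Complex.finrank_real_complex, finrank_euclideanSpace_fin]
  rw [hfr] at hcard
  set K := ENNReal.ofReal (Real.exp (-(d : ℝ) / 2 * 8 ^ 2)) * gue n d Set.univ with hK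
  have hsub : {a : EuclideanSpace ℝ (Fin n × (Fin d × Fin d)) |
      ∃ l, 32 < ‖Matrix.toEuclideanCLM (n := Fin d) (𝕜 := ℂ) (matrixTuple a l)‖} ⊆
      ⋃ t ∈ (Finset.univ : Finset (Fin n)) ×ˢ (N ×ˢ N), {a | 8 < (⟪t.2.1,
        Matrix.toEuclideanCLM (n := Fin d) (𝕜 := ℂ) (matrixTuple a t.1) t.2.2⟫_ℂ).re} := by
    rintro a ⟨l, hl⟩
    by_contra hcon
    have h8 : ∀ u ∈ N, ∀ v ∈ N, (⟪u,
        Matrix.toEuclideanCLM (n := Fin d) (𝕜 := ℂ) (matrixTuple a l) v⟫_ℂ).re ≤ 8 := by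
      intro u hu v hv
      by_contra h
      refine hcon (Set.mem_iUnion₂.2 ⟨(l, u, v), ?_, not_le.1 h⟩)
      exact Finset.mem_product.2 ⟨Finset.mem_univ _, Finset.mem_product.2 ⟨hu, hv⟩⟩
    have := opNorm_le_of_net N hN _ (by norm_num) h8
    linarith
  refine (measure_mono hsub).trans ((measure_biUnion_finset_le _ _).trans ?_)
  refine (Finset.sum_le_card_nsmul _ _ K fun t ht => ?_).trans ?_
  · simp only [Finset.mem_product, Finset.mem_univ, true_and] at ht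
    obtain ⟨c, hc, hca⟩ := exists_coef t.1 t.2.1 t.2.2 (hN1 _ ht.1) (hN1 _ ht.2)
    simp only [hca]
    exact gue_tail c hc (by norm_num)
  · have hZ : 0 ≤ gueZ n d := Real.rpow_nonneg (by positivity) _
    rw [hK, gue_univ n hd0, nsmul_eq_mul, ← ENNReal.ofReal_natCast,
      ← ENNReal.ofReal_mul (Real.exp_pos _).le, ← ENNReal.ofReal_mul (Nat.cast_nonneg _),
      ← mul_assoc]
    refine ENNReal.ofReal_le_ofReal (mul_le_mul_of_nonneg_right (le_trans ?_ hd) hZ)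
    have e : Real.exp (-(d : ℝ) / 2 * 8 ^ 2) = Real.exp (-32) ^ d := by
      rw [← Real.exp_nat_mul]; congr 1; ring
    rw [e, mul_pow, ← mul_assoc]
    refine mul_le_mul_of_nonneg_right ?_ (by positivity)
    simp only [Finset.card_product, Finset.card_univ, Fintype.card_fin, Nat.cast_mul]
    refine mul_le_mul_of_nonneg_left ?_ (Nat.cast_nonneg _)
    have h1 : (N.card : ℝ) ≤ 25 ^ d := by
      have : (N.card : ℝ) ≤ ((5 ^ (2 * d) : ℕ) : ℝ) := by exact_mod_cast hcard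
      rw [pow_mul] at this
      simpa using this
    calc (N.card : ℝ) * N.card ≤ 25 ^ d * 25 ^ d :=
          mul_le_mul h1 h1 (Nat.cast_nonneg _) (by positivity)
      _ = 625 ^ d := by rw [← mul_pow]; norm_num

end Crest.Agent.R89
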