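import Crest.Agent.R89.Num

/-! Homogeneous polynomials in the annihilation operators of the noise. -/

set_option autoImplicit false

namespace Crest.Agent.R89

open scoped ComplexOrder
open Finset

/-- Observations `O α` carrying a free semicircular noise of size `σ α` with annihilator `E α`. -/
structure Noise (J : Type) [DecidableEq J] (B : Type) [CStarAlgebra B] [PartialOrder B]
    [StarOrderedRing B] where
  ω : B →ₚ[ℂ] ℂ
  E : J → B
  O : J → B
  P : B
  σ : J → ℝ
  one : ω 1 = 1
  EE : ∀ α β, E α * star (E β) = if α = β then 1 else 0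
  ωE : ∀ b β, ω (b * E β) = 0
  EP : ∀ β, E β * P = 0
  EO : ∀ α β, E α * O β - O β * E α = if α = β then (σ α : ℂ) • P else 0
  ωP : ∀ a b, ω (a * P * b) = ω a * ω b

namespace Noise

variable {J : Type} [DecidableEq J] {B : Type} [CStarAlgebra B] [PartialOrder B]
  [StarOrderedRing B] (N : Noise J B)

/-- The span of the annihilators. -/
noncomputable def M : Submodule ℂ B := Submodule.span ℂ (Set.range N.E)

lemma E_mem (β : J) : N.E β ∈ N.M := Submodule.subset_span ⟨β, rfl⟩

variable {N}

lemma M_P {e : B} (he : e ∈ N.M) : e * N.P = 0 := by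
  induction he using Submodule.span_induction with
  | mem x hx => obtain ⟨β, rfl⟩ := hx; exact N.EP β
  | zero => simp
  | add x y _ _ hx hy => rw [add_mul, hx, hy, add_zero]
  | smul c x _ hx => rw [smul_mul_assoc, hx, smul_zero]

lemma M_ω {e : B} (he : e ∈ N.M) (b : B) : N.ω (b * e) = 0 := by
  induction he using Submodule.span_induction with
  | mem x hx => obtain ⟨β, rfl⟩ := hx; exact N.ωE b β
  | zero => simp
  | add x y _ _ hx hy => rw [mul_add, map_add, hx, hy, add_zero]
  | smul c x _ hx => rw [mul_smul_comm, map_smul, hx, smul_zero]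

lemma M_O {e : B} (he : e ∈ N.M) (α : J) : ∃ c : ℂ, e * N.O α - N.O α * e = c • N.P := by
  induction he using Submodule.span_induction with
  | mem x hx =>
    obtain ⟨β, rfl⟩ := hx
    rw [N.EO]
    split_ifs
    exacts [⟨_, rfl⟩, ⟨0, by simp⟩]
  | zero => exact ⟨0, by simp⟩
  | add x y _ _ hx hy =>
    obtain ⟨c, hc⟩ := hx
    obtain ⟨d, hd⟩ := hy
    exact ⟨c + d, by rw [add_smul, ← hc, ← hd]; noncomm_ring⟩
  | smul a x _ hx =>
    obtain ⟨c, hc⟩ := hx
    exact ⟨a * c, by rw [mul_smul, ← hc, smul_sub, smul_mul_assoc, mul_smul_comm]⟩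

lemma M_star {e e' : B} (he : e ∈ N.M) (he' : e' ∈ N.M) : e * star e' ∈ (1 : Submodule ℂ B) := by
  induction he using Submodule.span_induction with
  | mem x hx =>
    obtain ⟨β, rfl⟩ := hx
    induction he' using Submodule.span_induction with
    | mem y hy =>
      obtain ⟨α, rfl⟩ := hy
      rw [N.EE]
      split_ifs
      exacts [Submodule.one_le.1 le_rfl, zero_mem _]
    | zero => simp
    | add y z _ _ hy hz => rw [star_add, mul_add]; exact add_mem hy hz
    | smul c y _ hy => rw [star_smul, mul_smul_comm]; exact Submodule.smul_mem _ _ hy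
  | zero => simp
  | add x y _ _ hx hy => rw [add_mul]; exact add_mem hx hy
  | smul c x _ hx => rw [smul_mul_assoc]; exact Submodule.smul_mem _ _ hx

lemma pow_comm {n : ℕ} {A : B} (hA : A ∈ N.M ^ n) (α : J) :
    ∀ e ∈ N.M, e * A * N.O α = e * N.O α * A := by
  induction hA using Submodule.pow_induction_on_left' with
  | algebraMap r => intro e _; rw [mul_assoc, mul_assoc, Algebra.commutes]
  | add x y _ _ _ hx hy => intro e he; rw [mul_add, add_mul, mul_add, hx e he, hy e he]
  | mem_mul m hm _ x _ hx =>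
    intro e he
    obtain ⟨c, hc⟩ := M_O hm α
    have h : e * (m * N.O α - N.O α * m) = 0 := by rw [hc, mul_smul_comm, M_P he, smul_zero]
    rw [mul_sub, sub_eq_zero] at h
    rw [mul_assoc, hx m hm, ← mul_assoc, h]
    simp only [mul_assoc]

lemma pow_ω {n : ℕ} {A : B} (hA : A ∈ N.M ^ n) : ∀ e ∈ N.M, ∀ c, N.ω (c * e * A) = 0 := by
  induction hA using Submodule.pow_induction_on_left' with
  | algebraMap r => intro e he c; rw [← Algebra.commutes, ← mul_assoc, M_ω he]
  | add x y _ _ _ hx hy => intro e he c; rw [mul_add, map_add, hx e he, hy e he, add_zero]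
  | mem_mul m hm _ x _ hx => intro e _ c; rw [← mul_assoc, hx m hm]

lemma cat {n : ℕ} {A e : B} (hA : A ∈ N.M ^ n) (he : e ∈ N.M) (u : List J) (c : B) :
    N.ω (c * e * A * wv N.O u) = sp u fun a α b =>
      N.ω (c * wv N.O a * (e * N.O α - N.O α * e) * (A * wv N.O b)) := by
  induction u generalizing c with
  | nil => simpa [sp] using pow_ω hA e he c
  | cons α u ih =>
    have h := ih (c * N.O α)
    simp only [sp, wv_cons, wv_nil, mul_one, ← mul_assoc] at h ⊢
    rw [← h, ← map_add, mul_assoc c e, mul_assoc c, pow_comm hA α e he]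
    congr 1
    noncomm_ring

lemma cat_E {n : ℕ} {A : B} (hA : A ∈ N.M ^ n) (β : J) (u : List J) (c : B) :
    N.ω (c * N.E β * A * wv N.O u) = sp u fun a α b =>
      if α = β then N.σ α * (N.ω (c * wv N.O a) * N.ω (A * wv N.O b)) else 0 := by
  rw [cat hA (N.E_mem β)]
  refine sp_congr _ fun a α b _ => ?_
  rw [N.EO]
  by_cases h : α = β
  · subst h
    simp [N.ωP]
  · simp [h, Ne.symm h]

lemma vanish {n : ℕ} {A : B} (hA : A ∈ N.M ^ n) :
    ∀ u : List J, u.length < n → N.ω (A * wv N.O u) = 0 := by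
  induction hA using Submodule.pow_induction_on_left' with
  | algebraMap r => intro u hu; omega
  | add x y i _ _ hx hy => intro u hu; rw [add_mul, map_add, hx u hu, hy u hu, add_zero]
  | mem_mul m hm i x hx ih =>
    intro u hu
    have h := cat hx hm u 1
    rw [one_mul] at h
    rw [h, sp_congr (g' := fun _ _ _ => 0), sp_eq_sum, Finset.sum_const_zero]
    intro a α b e
    obtain ⟨c, hc⟩ := M_O hm α
    rw [hc, mul_smul_comm, smul_mul_assoc, map_smul, N.ωP, ih b, mul_zero, smul_zero]
    subst e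
    simp at hu
    omega

lemma scalar {n : ℕ} {A A' : B} (hA : A ∈ N.M ^ n) (hA' : A' ∈ N.M ^ n) :
    A * star A' ∈ (1 : Submodule ℂ B) := by
  induction n generalizing A A' with
  | zero =>
    rw [pow_zero, Submodule.mem_one] at hA hA'
    obtain ⟨c, rfl⟩ := hA
    obtain ⟨d, rfl⟩ := hA'
    rw [← algebraMap_star_comm, ← map_mul]
    exact Submodule.algebraMap_mem _
  | succ n ih =>
    rw [pow_succ'] at hA hA'
    refine Submodule.mul_induction_on hA (fun e he x hx => ?_) fun x y hx hy => ?_
    · refine Submodule.mul_induction_on hA' (fun e' he' y hy => ?_) fun y z hy hz => ?_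
      · obtain ⟨c, hc⟩ := Submodule.mem_one.1 (ih hx hy)
        rw [star_mul, mul_assoc, ← mul_assoc x, ← hc, ← Algebra.smul_def, mul_smul_comm]
        exact Submodule.smul_mem _ _ (M_star he he')
      · rw [star_add, mul_add]; exact add_mem hy hz
    · rw [add_mul]; exact add_mem hx hy

lemma norm_sum_le [Fintype J] {n : ℕ} (A₁ A₂ : J → B) (h : ∀ β, A₂ β ∈ N.M ^ n) :
    ‖∑ β, A₁ β * N.E β * A₂ β‖ ^ 2 ≤ ∑ β, ‖A₁ β‖ ^ 2 * ‖A₂ β‖ ^ 2 := by
  have key : ∀ β β', A₁ β * N.E β * A₂ β * star (A₁ β' * N.E β' * A₂ β') =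
      if β = β' then A₁ β * A₂ β * star (A₁ β * A₂ β) else 0 := fun β β' => by
    obtain ⟨c, hc⟩ := Submodule.mem_one.1 (scalar (h β) (h β'))
    have : A₁ β * N.E β * A₂ β * star (A₁ β' * N.E β' * A₂ β') =
        A₁ β * (N.E β * (A₂ β * star (A₂ β')) * star (N.E β')) * star (A₁ β') := by
      simp only [star_mul, mul_assoc]
    rw [this, ← hc, ← Algebra.commutes, mul_assoc (algebraMap ℂ B c), N.EE]
    split_ifs with e
    · subst e
      rw [mul_one, hc]
      simp only [star_mul, mul_assoc]
    · simp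
  rw [sq, ← CStarRing.norm_self_mul_star, star_sum, Finset.sum_mul_sum]
  simp only [key, Finset.sum_ite_eq, Finset.mem_univ, if_true]
  refine (_root_.norm_sum_le _ _).trans (Finset.sum_le_sum fun β _ => ?_)
  rw [CStarRing.norm_self_mul_star, ← sq, ← mul_pow]
  exact pow_le_pow_left₀ (norm_nonneg _) (norm_mul_le _ _) 2

end Noise

end Crest.Agent.R89
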