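import Mathlib

/-! The elementary integrals. -/

set_option autoImplicit false

namespace Crest.Agent.R89

open MeasureTheory Set Filter Topology

lemma integ_sq {a : ℝ} (ha : 0 < a) : IntegrableOn (fun s : ℝ => a / (s + a) ^ 2) (Ioi 0) ∧
    ∫ s in Ioi (0 : ℝ), a / (s + a) ^ 2 = 1 := by
  have h1 : ∀ x ∈ Ici (0 : ℝ), HasDerivAt (fun s => -a / (s + a)) (a / (x + a) ^ 2) x :=
    fun x hx => by
      have : x + a ≠ 0 := by have : 0 ≤ x := hx; positivity
      exact ((hasDerivAt_const x (-a)).fun_div ((hasDerivAt_id' x).add_const a) this).congr_deriv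
        (by simp)
  have h2 : Tendsto (fun s : ℝ => -a / (s + a)) atTop (𝓝 0) :=
    tendsto_const_nhds.div_atTop (tendsto_atTop_add_const_right _ _ tendsto_id)
  refine ⟨integrableOn_Ioi_deriv_of_nonneg' h1 (fun x _ => by positivity) h2, ?_⟩
  rw [integral_Ioi_of_hasDerivAt_of_nonneg' h1 (fun x _ => by positivity) h2]
  field_simp
  simp

lemma integ_log {a : ℝ} (ha : 0 < a) (ha1 : a ≤ 1) :
    IntegrableOn (fun s : ℝ => 1 / (s + a) - 1 / (1 + s)) (Ioi 0) ∧
    ∫ s in Ioi (0 : ℝ), (1 / (s + a) - 1 / (1 + s)) = -Real.log a := by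
  have h1 : ∀ x ∈ Ici (0 : ℝ), HasDerivAt (fun s => Real.log (1 + (a - 1) / (1 + s)))
      (1 / (x + a) - 1 / (1 + x)) x := fun x hx => by
    have hx : 0 ≤ x := hx
    have e1 : 1 + x ≠ 0 := by positivity
    have e2 : x + a ≠ 0 := by positivity
    have e3 : 1 + (a - 1) / (1 + x) = (x + a) / (1 + x) := by field_simp; ring
    refine ((((hasDerivAt_const x (a - 1)).fun_div ((hasDerivAt_id' x).const_add 1)
      e1).const_add 1).log (by rw [e3]; positivity)).congr_deriv ?_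
    rw [e3]
    field_simp
    ring
  have h2 : Tendsto (fun s : ℝ => Real.log (1 + (a - 1) / (1 + s))) atTop (𝓝 0) := by
    have := ((tendsto_const_nhds (x := a - 1)).div_atTop
      (tendsto_atTop_add_const_left atTop (1 : ℝ) tendsto_id)).const_add 1
    simpa using this.log (by simp)
  have h3 : ∀ x ∈ Ioi (0 : ℝ), 0 ≤ 1 / (x + a) - 1 / (1 + x) := fun x hx => by
    have hx : 0 < x := hx
    exact sub_nonneg.2 (one_div_le_one_div_of_le (by positivity) (by linarith))
  refine ⟨integrableOn_Ioi_deriv_of_nonneg' h1 h3 h2, ?_⟩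
  rw [integral_Ioi_of_hasDerivAt_of_nonneg' h1 h3 h2]
  simp

lemma integ_main {φ : ℝ → ℝ} (hφ : Measurable φ) {m a r E C : ℝ} (hm : 0 ≤ m) (ha : 0 < a)
    (ha1 : a ≤ 1) (hr : 0 ≤ r) (hE : 0 ≤ E) (hC : 0 ≤ C)
    (hup : ∀ s, 0 < s → φ s ≤ C * (1 / (s + 1) ^ 2))
    (hlow : ∀ s, 0 < s → -(m * (1 / (s + a) - 1 / (1 + s)) + 2 * m * (a / (s + a) ^ 2) +
      r * (16⁻¹ / (s + 16⁻¹) ^ 2) + E * (1 / (s + 1) ^ 2)) ≤ φ s) :
    IntegrableOn φ (Ioi 0) ∧ -(m * -Real.log a + 2 * m + r + E) ≤ ∫ s in Ioi 0, φ s := by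
  obtain ⟨i1, e1⟩ := integ_log ha ha1
  obtain ⟨i2, e2⟩ := integ_sq ha
  obtain ⟨i3, e3⟩ := integ_sq (by norm_num : (0 : ℝ) < 16⁻¹)
  obtain ⟨i4, e4⟩ := integ_sq one_pos
  have iG := (((i1.const_mul m).add (i2.const_mul (2 * m))).add (i3.const_mul r)).add
    (i4.const_mul E)
  have hI : IntegrableOn φ (Ioi 0) := by
    refine (iG.add (i4.const_mul C)).mono' hφ.aestronglyMeasurable
      ((ae_restrict_mem measurableSet_Ioi).mono fun s (hs : 0 < s) => abs_le.2 ?_)
    have h1 := hup s hs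
    have h2 := hlow s hs
    have h3 : 0 ≤ m * (1 / (s + a) - 1 / (1 + s)) := mul_nonneg hm
      (sub_nonneg.2 (one_div_le_one_div_of_le (by positivity) (by linarith)))
    have h4 : 0 ≤ 2 * m * (a / (s + a) ^ 2) + r * (16⁻¹ / (s + 16⁻¹) ^ 2) +
      E * (1 / (s + 1) ^ 2) := by positivity
    have h5 : 0 ≤ C * (1 / (s + 1) ^ 2) := by positivity
    simp only [Pi.add_apply]
    constructor <;> linarith
  refine ⟨hI, le_trans (le_of_eq ?_) (setIntegral_mono_on iG.neg hI measurableSet_Ioi hlow)⟩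
  simp only [Pi.neg_apply, Pi.add_apply]
  rw [integral_neg, integral_add, integral_add, integral_add, integral_const_mul,
    integral_const_mul, integral_const_mul, integral_const_mul, e1, e2, e3, e4]
  · ring
  exacts [i1.const_mul m, i2.const_mul _, (i1.const_mul m).add (i2.const_mul (2 * m)),
    i3.const_mul _, ((i1.const_mul m).add (i2.const_mul (2 * m))).add (i3.const_mul r),
    i4.const_mul _]

end Crest.Agent.R89
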