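import Crest.Agent.R89.Time
import Crest.Agent.R89.Integ
import Crest.Agent.R89.Chi
import Crest.Agent.R89.GUEmom
import Crest.Agent.R89.GUEnorm

/-! The entropy gap in the planted model. -/

set_option autoImplicit false

namespace Crest.Agent.R89.Fock

open scoped ComplexOrder
open Finset Crest.Agent.R120 Crest.OpAlg Sum MeasureTheory

variable {ι : Type} [DecidableEq ι] [Fintype ι] {B : Type} [CStarAlgebra B] [PartialOrder B]
  [StarOrderedRing B] (F : Fock (JJ ι ⊕ JJ ι) B) {k lam sig gam : ℝ} (hk : 10 ^ 6 ≤ k)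
  (hm : (Fintype.card ι : ℝ) = k ^ 4) (hl : lam * (4 * k) = 1) (hg : gam * (100 * k ^ 3) = 1)
  (hs : 1 / 2 ≤ sig) (hs2 : sig ^ 2 = 1 - gam ^ 2) {n : ℕ} (e : Fin n ≃ JJ ι)

lemma chi_le (hl : 0 < lam) (hs : 0 < sig) :
    ⊥ < chi F.ω.toLinearMap (fun i => F.ZZ lam sig gam (e i)) ∧
    chi F.ω.toLinearMap (fun i => F.ZZ lam sig gam (e i)) ≤
      (((n : ℝ) / 2 * Real.log (2 * Real.pi * Real.exp 1) + (Fintype.card ι * Real.log lam +
        Fintype.card ι ^ 3 * Real.log sig) + 1 / 2 : ℝ) : EReal) := by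
  classical
  let w : ι → ι → ι → FreeMonoid (Fin n) := fun a b c =>
    FreeMonoid.ofList [e.symm (inl a), e.symm (inl b), e.symm (inl c)]
  let H : JJ ι → NCPoly n := Sum.elim 0 fun j => MonoidAlgebra.single (w j.1 j.2.1 j.2.2) (gam : ℂ) +
    MonoidAlgebra.single (w j.2.2 j.2.1 j.1) (gam : ℂ)
  have hSD : ∀ i u, F.ω.toLinearMap (wv (fun i => F.s (inl (e i))) (i :: u)) = sp u fun a l b =>
      if l = i then F.ω.toLinearMap (wv (fun i => F.s (inl (e i))) a) *
        F.ω.toLinearMap (wv (fun i => F.s (inl (e i))) b) else 0 := fun i u => by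
    have := F.sd (inl (e i)) (u.map fun i => inl (e i))
    rw [sp_map, ← List.map_cons (f := fun i => inl (e i))] at this
    simpa only [wv_map, inl.injEq, e.injective.eq_iff, PositiveLinearMap.coe_toLinearMap] using this
  have h := chi_bounds F.ω.toLinearMap (fun i => F.s (inl (e i))) (fun i => (e i).isLeft)
    (fun i => Sum.elim (fun _ => lam) (fun _ => sig) (e i))
    (fun i => by rcases e i with l | j <;> simpa) (fun i => H (e i))
    (fun i => by rcases e i with l | j <;> simp [H]) (fun i => ?_) (fun i => ?_)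
    (fun i => by simpa [sp, F.one] using hSD i [i])
    (gue_lower_of_norm (gue_norm n 4⁻¹ (by norm_num)) _ _ F.one hSD)
  · rw [e.sum_comp fun β => Real.log (Sum.elim (fun _ => lam) (fun _ => sig) β)] at h
    simp only [Fintype.sum_sum_type, Sum.elim_inl, Sum.elim_inr, Finset.sum_const, Finset.card_univ,
      nsmul_eq_mul, Fintype.card_prod, ← pow_three, Nat.cast_pow] at h
    convert h using 3 <;> funext i <;> rcases e i with l | ⟨a, b, c⟩ <;>
      simp [ZZ, YY, nu, xx, H, w, wordEval_eq_wv]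
  · rcases e i with l | ⟨a, b, c⟩
    · simp [H]
    · intro u hu l hl
      rcases Finset.mem_union.1 (Finsupp.support_add hu) with h | h <;>
        obtain rfl := Finset.mem_singleton.1 (Finsupp.support_single_subset h) <;>
        simp only [w, FreeMonoid.toList_ofList, List.mem_cons, List.not_mem_nil, or_false] at hl <;>
        rcases hl with rfl | rfl | rfl <;> simp
  · rcases e i with l | ⟨a, b, c⟩
    · simp [H, polyStar]
    · simp only [H, Sum.elim_inr, polyStar, MonoidAlgebra.coeff_add, MonoidAlgebra.coeff_single]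
      rw [Finsupp.sum_add_index' (by simp) (by simp [MonoidAlgebra.single_add]),
        Finsupp.sum_single_index (by simp), Finsupp.sum_single_index (by simp), add_comm,
        Complex.conj_ofReal]
      rfl

include hk hm hl hg hs hs2 in
lemma fisher_up {a t : ℝ} (ha : a * (8 * k ^ 10) ^ 2 = 1) (ht : 0 < t) :
    freeFisher F.ω.toLinearMap (fun i => F.OO lam sig gam t (e i)) ≤ ENNReal.ofReal
      (k ^ 4 * (1 / (t + a) + 2 * (a / (t + a) ^ 2)) + (k ^ 12 * (1 / (1 + t) +
        gam ^ 2 / 2 * (16⁻¹ / (t + 16⁻¹) ^ 2)) + 4 * (1 / (t + 1) ^ 2))) := by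
  choose ξ h1 h2 using F.boundX hk hm hl hg hs ht ha
  obtain ⟨ε, hε, h⟩ := F.boundY hk hm hl hg hs hs2 ht
  choose ζ h3 h4 using h
  refine (fisher_le F.ω (ξ := fun i => Sum.elim ξ ζ (e i)) (fun i => F.OO_sa _ _ _ _ _)
    fun i => Conj.comp e.injective ?_).trans (ENNReal.ofReal_le_ofReal ?_)
  · rcases e i with l | j
    exacts [h1 l, h3 j]
  · rw [e.sum_comp fun β => n2 F.ω (star (Sum.elim ξ ζ β)) ^ 2, Fintype.sum_sum_type]
    refine add_le_add ((Finset.sum_le_sum fun l _ => h2 l).trans (le_of_eq ?_))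
      ((Finset.sum_le_sum fun j _ => h4 j).trans ?_)
    · rw [Finset.sum_const, Finset.card_univ, nsmul_eq_mul, hm]
    · rw [Finset.sum_add_distrib, ← Finset.sum_mul, Finset.sum_const, Finset.card_univ,
        nsmul_eq_mul, Fintype.card_prod, Fintype.card_prod, Nat.cast_mul, Nat.cast_mul, hm]
      exact add_le_add (le_of_eq (by ring)) (mul_le_mul_of_nonneg_right hε (by positivity))

include hk hm hl hg hs hs2 in
theorem core (Z S : Fin n → B) (hZ : Z = fun i => F.ZZ lam sig gam (e i))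
    (hS : S = fun i => F.s (inr (e i))) :
    (∀ s : ℝ, 0 < s → freeFisher F.ω.toLinearMap (heatTuple Z S s) < ⊤) ∧
    IntegrableOn (fun s : ℝ => (n : ℝ) / (1 + s) -
      (freeFisher F.ω.toLinearMap (heatTuple Z S s)).toReal) (Set.Ioi 0) ∧
    ⊥ < chi F.ω.toLinearMap Z ∧
    chi F.ω.toLinearMap Z ≤ ((chiStar F.ω.toLinearMap Z S - 1 / 2 : ℝ) : EReal) := by
  have hk0 : 0 < k := by linarith
  have hl0 := pos_of_mul_one hl (by positivity)
  have hn : (n : ℝ) = k ^ 4 + k ^ 12 := by
    have := Fintype.card_congr e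
    simp only [Fintype.card_fin, Fintype.card_sum, Fintype.card_prod] at this
    rw [this]
    push_cast
    rw [hm]
    ring
  have h1 : (1 : ℝ) ≤ (8 * k ^ 10) ^ 2 :=
    one_le_pow₀ (by linarith [one_le_pow₀ (by linarith : 1 ≤ k) (n := 10)])
  have hO : ∀ t, heatTuple Z S t = fun i => F.OO lam sig gam t (e i) := fun t => by
    rw [hZ, hS]; rfl
  have hU : ∀ t, 0 < t → freeFisher F.ω.toLinearMap (heatTuple Z S t) ≤ _ := fun t ht =>
    hO t ▸ F.fisher_up hk hm hl hg hs hs2 e (inv_mul_cancel₀ (by positivity)) ht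
  have hT : ∀ t, 0 < t → freeFisher F.ω.toLinearMap (heatTuple Z S t) < ⊤ := fun t ht =>
    (hU t ht).trans_lt ENNReal.ofReal_lt_top
  obtain ⟨hI, hJ⟩ := integ_main (φ := fun s : ℝ => (n : ℝ) / (1 + s) -
      (freeFisher F.ω.toLinearMap (heatTuple Z S s)).toReal) (m := k ^ 4)
      (a := ((8 * k ^ 10) ^ 2)⁻¹) (r := k ^ 12 * gam ^ 2 / 2) (E := 4)
      (C := ∑ i, (nu sig (e i) ^ 2 + n2 F.ω (F.YY lam gam (e i)) ^ 2))
      ((by fun_prop : Measurable fun s : ℝ => (n : ℝ) / (1 + s)).sub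
        (measurable_fisher F.ω Z S).ennreal_toReal) (by positivity) (by positivity)
      (inv_le_one_of_one_le₀ h1) (by positivity) (by positivity) (by positivity)
      (fun s hs => by
        have h := (ENNReal.ofReal_le_iff_le_toReal (hT s hs).ne).1
          (le_fisher _ _ F.one (1 / (1 + s)))
        have h2 : ∀ i, (F.ω.toLinearMap (heatTuple Z S s i * heatTuple Z S s i)).re =
            nu sig (e i) ^ 2 + s + n2 F.ω (F.YY lam gam (e i)) ^ 2 := fun i => by
          rw [hO]; exact F.ω_OO_OO lam sig gam hs (e i)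
        simp only [h2] at h
        refine (sub_le_sub_left h _).trans ?_
        rw [show (n : ℝ) / (1 + s) = ∑ _ : Fin n, 1 / (1 + s) by simp [div_eq_mul_inv],
          ← Finset.sum_sub_distrib, Finset.sum_mul]
        refine Finset.sum_le_sum fun i _ => le_of_sub_nonneg (le_of_le_of_eq
          (by positivity : 0 ≤ 1 / (s + 1) ^ 2) ?_)
        field_simp
        ring)
      fun s hs => by
        have := ENNReal.toReal_le_of_le_ofReal (by positivity) (hU s hs)
        rw [hn, add_div, div_eq_mul_one_div (k ^ 4), div_eq_mul_one_div (k ^ 12)]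
        linarith
  obtain ⟨h2, h3⟩ := F.chi_le (gam := gam) e hl0 (by linarith : 0 < sig)
  refine ⟨hT, hI, hZ ▸ h2, (hZ ▸ h3).trans (EReal.coe_le_coe_iff.2 ?_)⟩
  have e1 : Real.log lam = -Real.log (4 * k) := by rw [eq_inv_of_mul_eq_one_left hl, Real.log_inv]
  have e2 : 2 * Real.log sig ≤ -gam ^ 2 := by
    have := Real.log_le_sub_one_of_pos (by positivity : 0 < sig ^ 2)
    rw [Real.log_pow] at this
    push_cast at this
    linarith
  have e3 : Real.log ((8 * k ^ 10) ^ 2)⁻¹ = -2 * (Real.log (4 * k) + (Real.log 2 + 9 * Real.log k)) := by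
    rw [Real.log_inv, Real.log_pow, show 8 * k ^ 10 = 4 * k * (2 * k ^ 9) by ring,
      Real.log_mul (by positivity) (by positivity), Real.log_mul two_ne_zero (by positivity),
      Real.log_pow]
    push_cast
    ring
  have e4 := mul_le_mul_of_nonneg_left (add_le_add (Real.log_le_sub_one_of_pos two_pos)
    (mul_le_mul_of_nonneg_left (Real.log_le_sub_one_of_pos hk0) (by norm_num : (0 : ℝ) ≤ 9)))
    (by positivity : 0 ≤ k ^ 4)
  have e5 := mul_le_mul_of_nonneg_left e2 (by positivity : 0 ≤ k ^ 12)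
  have e6 : k ^ 12 * gam ^ 2 * 10000 = k ^ 6 := by
    linear_combination k ^ 6 * (gam * (100 * k ^ 3) + 1) * hg
  have e7 : 10 ^ 6 * k ^ 5 ≤ k ^ 6 := by nlinarith [pow_pos hk0 5]
  have e8 : k ^ 4 ≤ k ^ 5 := pow_le_pow_right₀ (by linarith) (by norm_num)
  have e9 : 1 ≤ k ^ 4 := one_le_pow₀ (by linarith)
  rw [chiStar, hm, e1]
  rw [e3] at hJ
  nlinarith

end Crest.Agent.R89.Fock
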