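import Crest.Agent.R89.SWNorm
import Crest.Agent.R89.Conj

/-! The planted model inside the full Fock space. -/

set_option autoImplicit false

namespace Crest.Agent.R89

open scoped ComplexOrder
open Finset Crest.Agent.R120 Sum

/-- Labels of the variables: single letters and triples. -/
abbrev JJ (ι : Type) := ι ⊕ ι × ι × ι

lemma commute_wv {I B : Type*} [Monoid B] {s : I → B} {d : B} (h : ∀ i, Commute d (s i))
    (w : List I) : Commute d (wv s w) := by
  induction w with
  | nil => exact Commute.one_right _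
  | cons i w ih => exact (h i).mul_right ih

lemma wv_mem_gen {I B : Type*} [CStarAlgebra B] {S : StarSubalgebra ℂ B} {s : I → B}
    (h : ∀ i, s i ∈ S) (w : List I) : wv s w ∈ S := by
  induction w with
  | nil => exact one_mem _
  | cons i w ih => exact mul_mem (h i) ih

/-- Size of the Gaussian part. -/
def nu {ι : Type} (sig : ℝ) : JJ ι → ℝ
  | inl _ => 0
  | inr _ => sig

/-- Size of the noise at time `t`. -/
noncomputable def sg {ι : Type} (sig t : ℝ) (β : JJ ι) : ℝ := √(nu sig β ^ 2 + t)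

lemma sg_pos {ι : Type} (sig : ℝ) {t : ℝ} (ht : 0 < t) (β : JJ ι) : 0 < sg sig t β :=
  Real.sqrt_pos.2 (by positivity)

lemma sg_sq {ι : Type} (sig : ℝ) {t : ℝ} (ht : 0 < t) (β : JJ ι) :
    sg sig t β ^ 2 = nu sig β ^ 2 + t := Real.sq_sqrt (by positivity)

/-- The seven ways in which a hidden letter enters an observation. -/
def lt7 {ι : Type} (τ : Fin 7) : JJ ι → ι
  | inl l => l
  | inr (a, b, c) => ![a, a, b, c, c, b, a] τ

/-- The letters before. -/
def pre7 {ι : Type} (τ : Fin 7) : JJ ι → List ι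
  | inl _ => []
  | inr (a, b, c) => ![[], [], [a], [a, b], [], [c], [c, b]] τ

/-- The letters after. -/
def post7 {ι : Type} (τ : Fin 7) : JJ ι → List ι
  | inl _ => []
  | inr (a, b, c) => ![[], [b, c], [c], [], [b, a], [a], []] τ

/-- The coefficient. -/
def th7 {ι : Type} (lam gam : ℝ) (τ : Fin 7) : JJ ι → ℝ
  | inl _ => if τ = 0 then lam else 0
  | inr _ => if τ = 0 then 0 else gam

namespace Fock

variable {ι : Type} [DecidableEq ι] {B : Type} [CStarAlgebra B] [PartialOrder B]
  [StarOrderedRing B] (F : Fock (JJ ι ⊕ JJ ι) B) (lam sig gam : ℝ)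

/-- The hidden semicircular elements. -/
def xx (l : ι) : B := F.s (inl (inl l))

/-- The planted part of the variables. -/
noncomputable def YY : JJ ι → B
  | inl l => (lam : ℂ) • F.xx l
  | inr (a, b, c) => (gam : ℂ) • (wv F.xx [a, b, c] + wv F.xx [c, b, a])

/-- The variables. -/
noncomputable def ZZ (β : JJ ι) : B := (nu sig β : ℂ) • F.s (inl β) + F.YY lam gam β

/-- The variables at time `t`. -/
noncomputable def OO (t : ℝ) (β : JJ ι) : B := F.ZZ lam sig gam β + (√t : ℂ) • F.s (inr β)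

/-- The annihilators of the noise at time `t`. -/
noncomputable def EE (t : ℝ) (β : JJ ι) : B :=
  ((sg sig t β : ℝ) : ℂ)⁻¹ • ((nu sig β : ℂ) • F.D (inl β) + (√t : ℂ) • F.D (inr β))

lemma xx_mem (l : ι) : F.xx l ∈ gen (Set.range F.s) := subset_gen _ ⟨_, rfl⟩

lemma YY_mem (β : JJ ι) : F.YY lam gam β ∈ gen (Set.range F.s) := by
  rcases β with l | ⟨a, b, c⟩
  · exact SMulMemClass.smul_mem _ (F.xx_mem l)
  · exact SMulMemClass.smul_mem _ (add_mem (wv_mem_gen F.xx_mem _) (wv_mem_gen F.xx_mem _))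

lemma OO_mem (t : ℝ) (β : JJ ι) : F.OO lam sig gam t β ∈ gen (Set.range F.s) :=
  add_mem (add_mem (SMulMemClass.smul_mem _ (subset_gen _ ⟨_, rfl⟩)) (F.YY_mem lam gam β))
    (SMulMemClass.smul_mem _ (subset_gen _ ⟨_, rfl⟩))

lemma YY_sa (β : JJ ι) : IsSelfAdjoint (F.YY lam gam β) := by
  have h : ∀ l, star (F.xx l) = F.xx l := fun l => F.sa _
  rcases β with l | ⟨a, b, c⟩
  · simp [YY, IsSelfAdjoint, h]
  · simp [YY, IsSelfAdjoint, h, add_comm, mul_assoc]

lemma ZZ_sa (β : JJ ι) : IsSelfAdjoint (F.ZZ lam sig gam β) := by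
  simp [ZZ, IsSelfAdjoint, (F.sa _).star_eq, (F.YY_sa lam gam β).star_eq]

lemma OO_sa (t : ℝ) (β : JJ ι) : IsSelfAdjoint (F.OO lam sig gam t β) := by
  simp [OO, IsSelfAdjoint, (F.sa _).star_eq, (F.ZZ_sa lam sig gam β).star_eq]

lemma comm_xx {i : JJ ι ⊕ JJ ι} (hi : ∀ l, i ≠ inl (inl l)) (l : ι) : Commute (F.D i) (F.xx l) :=
  sub_eq_zero.1 ((F.comm _ _).trans (if_neg (hi l)))

lemma comm_YY {i : JJ ι ⊕ JJ ι} (hi : ∀ l, i ≠ inl (inl l)) (β : JJ ι) :
    Commute (F.D i) (F.YY lam gam β) := by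
  rcases β with l | ⟨a, b, c⟩
  · exact (F.comm_xx hi l).smul_right _
  · exact ((commute_wv (F.comm_xx hi) _).add_right (commute_wv (F.comm_xx hi) _)).smul_right _

lemma comm_EE (t : ℝ) (α β : JJ ι) : Commute (F.EE sig t α) (F.YY lam gam β) := by
  refine (Commute.add_left ?_ ((F.comm_YY lam gam (by simp) β).smul_left _)).smul_left _
  rcases α with l | j
  · simp [nu]
  · exact (F.comm_YY lam gam (by simp) β).smul_left _

lemma comm_OO (t : ℝ) (d : B) (β : JJ ι) : d * F.OO lam sig gam t β - F.OO lam sig gam t β * d =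
    (nu sig β : ℂ) • (d * F.s (inl β) - F.s (inl β) * d) + (√t : ℂ) • (d * F.s (inr β) -
      F.s (inr β) * d) + (d * F.YY lam gam β - F.YY lam gam β * d) := by
  simp only [OO, ZZ, mul_add, add_mul, smul_sub, mul_smul_comm, smul_mul_assoc]
  abel

variable {t : ℝ} (ht : 0 < t)

/-- The noise structure at time `t`. -/
noncomputable def noise : Noise (JJ ι) B where
  ω := F.ω
  E := F.EE sig t
  O := F.OO lam sig gam t
  P := F.P
  σ := sg sig t
  one := F.one
  EE α β := by
    have h1 : ((sg sig t β : ℝ) : ℂ) ≠ 0 := by exact_mod_cast (sg_pos sig ht β).ne'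
    have h2 : ((sg sig t β : ℝ) : ℂ) ^ 2 = (nu sig β : ℂ) ^ 2 + (√t : ℂ) ^ 2 := by
      exact_mod_cast (sg_sq sig ht β).trans (by rw [Real.sq_sqrt ht.le])
    simp only [EE, star_smul, star_add, mul_add, add_mul, mul_smul_comm, smul_mul_assoc, F.DD,
      inl.injEq, inr.injEq, reduceCtorEq, if_false, smul_zero, add_zero, zero_add]
    split_ifs with h
    · subst h
      simp only [smul_smul, ← add_smul, star_inv₀, Complex.star_def, Complex.conj_ofReal]
      convert one_smul ℂ (1 : B)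
      field_simp
      rw [h2]
    · simp
  ωE b β := by simp [EE, mul_add, F.ωD]
  EP β := by simp [EE, add_mul, F.DP]
  EO α β := by
    have h1 : ((sg sig t β : ℝ) : ℂ) ≠ 0 := by exact_mod_cast (sg_pos sig ht β).ne'
    have h2 : ((sg sig t β : ℝ) : ℂ) ^ 2 = (nu sig β : ℂ) ^ 2 + (√t : ℂ) ^ 2 := by
      exact_mod_cast (sg_sq sig ht β).trans (by rw [Real.sq_sqrt ht.le])
    have h3 : ∀ i, F.EE sig t α * F.s i - F.s i * F.EE sig t α = ((sg sig t α : ℝ) : ℂ)⁻¹ •
        ((nu sig α : ℂ) • (F.D (inl α) * F.s i - F.s i * F.D (inl α)) +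
          (√t : ℂ) • (F.D (inr α) * F.s i - F.s i * F.D (inr α))) := fun i => by
      simp only [EE, mul_add, add_mul, smul_sub, mul_smul_comm, smul_mul_assoc, smul_add]
      abel
    rw [comm_OO, (F.comm_EE lam sig gam t α β).eq, sub_self, h3, h3]
    simp only [F.comm, inl.injEq, inr.injEq, reduceCtorEq, if_false, smul_zero, add_zero, zero_add]
    split_ifs with h
    · subst h
      simp only [smul_smul, ← add_smul]
      congr 1
      field_simp
      rw [h2]
    · simp
  ωP := F.ωP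

/-- The planted structure at time `t`. -/
noncomputable def plant : Plant ι (JJ ι) (Fin 7) B where
  toNoise := F.noise lam sig gam ht
  x := F.xx
  D l := F.D (inl (inl l))
  ℓ := lt7
  θ τ β := th7 lam gam τ β / sg sig t β
  pre := pre7
  post := post7
  ωx l b := F.ωs _ b
  ωD b l := F.ωD b _
  Dx l l' := (F.comm _ _).trans (by simp [noise])
  DO l β := by
    have hx : ∀ l', F.D (inl (inl l)) * F.xx l' - F.xx l' * F.D (inl (inl l)) =
        if l' = l then F.P else 0 := fun l' => (F.comm _ _).trans (by simp [eq_comm])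
    simp only [noise, div_mul_cancel₀ _ (sg_pos sig ht β).ne']
    rw [comm_OO, F.comm, F.comm]
    rcases β with l' | ⟨a, b, c⟩
    · simp [nu, YY, ← smul_sub, hx, lt7, pre7, post7, th7]
    · simp only [YY, mul_smul_comm, smul_mul_assoc, mul_add, add_mul, ← smul_sub,
        add_sub_add_comm, comm_wv_gen, sp, hx]
      simp [lt7, pre7, post7, th7, Fin.sum_univ_succ, add_assoc]
  tr b a d := by
    rw [wv_append, mul_assoc (wv _ d)]
    exact F.tr_comm (mul_mem (wv_mem_gen F.xx_mem _) (wv_mem_gen (F.OO_mem lam sig gam t) _))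
      (wv_mem_gen F.xx_mem _)

end Fock

end Crest.Agent.R89
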