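import Crest.Agent.R89.Defs

/-! Finite sums over words, Minkowski's inequality and the numerical recursion. -/

set_option autoImplicit false

namespace Crest.Agent.R89

open Finset

lemma sp_ite {L M : Type*} [AddCommMonoid M] [DecidableEq L] (w : List L) (i : L)
    (g : List L → List L → M) :
    sp w (fun a l b => if l = i then g a b else 0) =
      ∑ k ∈ range w.length, if w[k]? = some i then g (w.take k) (w.drop (k + 1)) else 0 := by
  rw [sp_eq_sum, Finset.sum_range]
  refine Finset.sum_congr rfl fun k _ => ?_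
  simp

lemma comm_wv_gen {I B : Type*} [Ring B] (s : I → B) (D : B) (w : List I) :
    D * wv s w - wv s w * D = sp w fun a l b => wv s a * (D * s l - s l * D) * wv s b := by
  induction w with
  | nil => simp [sp]
  | cons l w ih =>
    have := map_sp (AddMonoidHom.mulLeft (s l)) w
      fun a l b => wv s a * (D * s l - s l * D) * wv s b
    simp only [AddMonoidHom.coe_mulLeft] at this
    simp only [sp, wv_cons, wv_nil, mul_assoc] at this ih ⊢
    rw [← this, ← ih]
    noncomm_ring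

/-- Words of a given length. -/
def Wd (ι : Type*) [Fintype ι] : ℕ → Finset (List ι)
  | 0 => {[]}
  | r + 1 => (univ ×ˢ Wd ι r).map ⟨fun p => p.1 :: p.2, fun p q h => by
      simp only [List.cons.injEq] at h; exact Prod.ext h.1 h.2⟩

variable {ι : Type*} [Fintype ι]

lemma sum_Wd_zero {M : Type*} [AddCommMonoid M] (f : List ι → M) : ∑ b ∈ Wd ι 0, f b = f [] := by
  simp [Wd]

lemma sum_Wd_succ {M : Type*} [AddCommMonoid M] (r : ℕ) (f : List ι → M) :
    ∑ b ∈ Wd ι (r + 1), f b = ∑ l, ∑ b ∈ Wd ι r, f (l :: b) := by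
  rw [Wd, Finset.sum_map, Finset.sum_product]; rfl

lemma length_of_mem_Wd {r : ℕ} {b : List ι} (h : b ∈ Wd ι r) : b.length = r := by
  induction r generalizing b with
  | zero => simpa [Wd] using h
  | succ r ih =>
    obtain ⟨p, hp, rfl⟩ := Finset.mem_map.1 h
    change (p.1 :: p.2).length = r + 1
    rw [List.length_cons, ih (Finset.mem_product.1 hp).2]

lemma sum_Wd_add {M : Type*} [AddCommMonoid M] (r s : ℕ) (f : List ι → M) :
    ∑ b ∈ Wd ι (r + s), f b = ∑ a ∈ Wd ι r, ∑ c ∈ Wd ι s, f (a ++ c) := by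
  induction r generalizing f with
  | zero => simp [sum_Wd_zero]
  | succ r ih =>
    rw [Nat.succ_add, sum_Wd_succ, sum_Wd_succ]
    exact Finset.sum_congr rfl fun l _ => ih _

/-- The `ℓ²` norm over a finite set. -/
noncomputable def nrm {X : Type*} (s : Finset X) (f : X → ℝ) : ℝ := √(∑ x ∈ s, f x ^ 2)

section
variable {X : Type*} (s : Finset X)

lemma nrm_nonneg (f : X → ℝ) : 0 ≤ nrm s f := Real.sqrt_nonneg _

lemma nrm_sq (f : X → ℝ) : nrm s f ^ 2 = ∑ x ∈ s, f x ^ 2 :=
  Real.sq_sqrt (Finset.sum_nonneg fun _ _ => sq_nonneg _)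

lemma nrm_mono {f g : X → ℝ} (h0 : ∀ x ∈ s, 0 ≤ f x) (h : ∀ x ∈ s, f x ≤ g x) :
    nrm s f ≤ nrm s g :=
  Real.sqrt_le_sqrt (Finset.sum_le_sum fun x hx => pow_le_pow_left₀ (h0 x hx) (h x hx) 2)

lemma nrm_le {f : X → ℝ} {K : ℝ} (hK : 0 ≤ K) (h : ∑ x ∈ s, f x ^ 2 ≤ K ^ 2) : nrm s f ≤ K :=
  Real.sqrt_le_iff.2 ⟨hK, h⟩

lemma nrm_eq (f : X → ℝ) :
    nrm s f = ‖(WithLp.toLp 2 fun x : s => f x : EuclideanSpace ℝ s)‖ := by
  rw [EuclideanSpace.norm_eq, nrm, ← Finset.sum_coe_sort]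
  simp

lemma nrm_sum_le {κ : Type*} (T : Finset κ) (f : κ → X → ℝ) :
    nrm s (fun x => ∑ t ∈ T, f t x) ≤ ∑ t ∈ T, nrm s (f t) := by
  simp only [nrm_eq]
  refine le_trans (le_of_eq ?_) (norm_sum_le T _)
  congr 1
  ext x
  simp

lemma nrm_add_le (f g : X → ℝ) : nrm s (fun x => f x + g x) ≤ nrm s f + nrm s g := by
  simp only [nrm_eq]
  exact le_trans (le_of_eq (by congr 1)) (norm_add_le _ _)

end

lemma conv_le {u v : ℕ → ℝ} (hu : ∀ i, 0 ≤ u i) (hv : ∀ i, 0 ≤ v i) (D : ℕ) :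
    ∑ n ∈ range (D + 1), ∑ i ∈ range n, u i * v (n - 1 - i) ≤
      (∑ i ∈ range D, u i) * ∑ i ∈ range D, v i := by
  rw [Finset.sum_range_succ', Finset.sum_range_zero, add_zero]
  simp only [Nat.add_sub_cancel]
  rw [Finset.sum_range_diag_flip D fun i j => u i * v j, Finset.sum_mul]
  refine Finset.sum_le_sum fun i _ => ?_
  rw [← Finset.mul_sum]
  exact mul_le_mul_of_nonneg_left (Finset.sum_le_sum_of_subset_of_nonneg
    (Finset.range_subset_range.2 (Nat.sub_le _ _)) fun j _ _ => hv j) (hu i)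

lemma rec_bound {T : Type*} [Fintype T] (p q : T → ℕ) (θ : T → ℝ) (hθ : ∀ t, 0 ≤ θ t) {k : ℝ}
    (hk : 0 < k) (hsm : ∑ t, θ t * k ^ 2 * (4 * k) ^ (p t + q t) ≤ 7 / 8 * (4 * k))
    (a : ℕ → ℕ → ℝ) (h0 : ∀ r n, 0 ≤ a r n) (hz : ∀ n, a 0 n ≤ if n = 0 then 1 else 0)
    (hrec : ∀ r n, a (r + 1) n ≤ ∑ j ∈ range r, k ^ 2 * (a j 0 * a (r - 1 - j) n) +
      ∑ i ∈ range n, ∑ t, θ t * k ^ 2 * (a (p t + r) i * a (q t) (n - 1 - i))) (D r : ℕ) :
    ∑ n ∈ range D, a r n ≤ (4 * k) ^ r := by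
  set u : ℕ → ℝ := fun j => a j 0 / (2 * k) ^ j with hu
  have hu0 : ∀ j, 0 ≤ u j := fun j => div_nonneg (h0 _ _) (by positivity)
  have hau : ∀ j, a j 0 = u j * (2 * k) ^ j := fun j => by rw [hu]; field_simp
  have hA : ∀ J, ∑ j ∈ range J, u j ≤ 2 := by
    intro J
    induction J with
    | zero => simp
    | succ J ih =>
      have h1 : ∀ r, u (r + 1) ≤ 4⁻¹ * ∑ j ∈ range r, u j * u (r - 1 - j) := fun r => by
        have := hrec r 0
        rw [Finset.sum_range_zero, add_zero, hau] at this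
        refine le_of_mul_le_mul_right (this.trans (le_of_eq ?_)) (pow_pos (by positivity) (r + 1))
        rw [Finset.mul_sum, Finset.sum_mul]
        refine Finset.sum_congr rfl fun j hj => ?_
        obtain ⟨s, rfl⟩ := Nat.exists_eq_add_of_lt (Finset.mem_range.1 hj)
        rw [hau, hau, show j + s + 1 - 1 - j = s by omega]
        ring
      have h2 : u 0 ≤ 1 := by simpa [hu] using hz 0
      have h3 := conv_le hu0 hu0 J
      rw [Finset.sum_range_succ] at h3
      have h4 : 0 ≤ ∑ j ∈ range J, u j * u (J - 1 - j) :=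
        Finset.sum_nonneg fun j _ => mul_nonneg (hu0 _) (hu0 _)
      have h5 := Finset.sum_le_sum fun r (_ : r ∈ range J) => h1 r
      have h6 : 0 ≤ ∑ j ∈ range J, u j := Finset.sum_nonneg fun j _ => hu0 _
      rw [← Finset.mul_sum] at h5
      rw [Finset.sum_range_succ']
      nlinarith
  induction D generalizing r with
  | zero => simp; positivity
  | succ D ihD =>
    induction r using Nat.strong_induction_on with
    | _ r ihr =>
    rcases r with _ | r
    · refine (Finset.sum_le_sum fun n _ => hz n).trans ?_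
      simp
    refine (Finset.sum_le_sum fun n _ => hrec r n).trans ?_
    rw [Finset.sum_add_distrib, Finset.sum_comm]
    have h1 : ∑ j ∈ range r, ∑ n ∈ range (D + 1), k ^ 2 * (a j 0 * a (r - 1 - j) n) ≤
        ∑ j ∈ range r, u j * ((4 * k) ^ (r + 1) / 16) := by
      refine Finset.sum_le_sum fun j hj => ?_
      obtain ⟨s, rfl⟩ := Nat.exists_eq_add_of_lt (Finset.mem_range.1 hj)
      rw [← Finset.mul_sum, ← Finset.mul_sum, show j + s + 1 - 1 - j = s by omega, hau]
      have h2 := ihr s (by omega)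
      have h3 : (2 * k) ^ j ≤ (4 * k) ^ j := pow_le_pow_left₀ (by positivity) (by linarith) j
      have := hu0 j
      calc k ^ 2 * (u j * (2 * k) ^ j * ∑ i ∈ range (D + 1), a s i)
          ≤ k ^ 2 * (u j * (4 * k) ^ j * (4 * k) ^ s) := by
            gcongr
            exact Finset.sum_nonneg fun _ _ => h0 _ _
        _ = _ := by ring
    have h2 : ∑ n ∈ range (D + 1), ∑ i ∈ range n, ∑ t,
        θ t * k ^ 2 * (a (p t + r) i * a (q t) (n - 1 - i)) ≤
        ∑ t, θ t * k ^ 2 * (4 * k) ^ (p t + q t) * (4 * k) ^ r := by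
      simp only [Finset.sum_comm (t := (univ : Finset T)), ← Finset.mul_sum]
      refine Finset.sum_le_sum fun t _ => ?_
      have h3 := (conv_le (h0 (p t + r)) (h0 (q t)) D).trans (mul_le_mul (ihD _) (ihD _)
        (Finset.sum_nonneg fun _ _ => h0 _ _) (by positivity))
      have := hθ t
      rw [mul_assoc (θ t * k ^ 2)]
      refine mul_le_mul_of_nonneg_left (h3.trans (le_of_eq ?_)) (by positivity)
      ring
    rw [← Finset.sum_mul] at h1 h2
    have h3 := hA r
    have h4 : (0 : ℝ) < (4 * k) ^ r := by positivity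
    have h5 := mul_le_mul_of_nonneg_right hsm h4.le
    have h6 := mul_le_mul_of_nonneg_right h3 (by positivity : 0 ≤ (4 * k) ^ (r + 1) / 16)
    have e : (4 * k) ^ (r + 1) = (4 * k) ^ r * (4 * k) := pow_succ _ _
    rw [e] at h1 h6 ⊢
    nlinarith

end Crest.Agent.R89
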