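import Crest.Agent.R89.Hom
import Crest.Agent.R120.L2

/-! The low-degree expansion: conditional expectations of planted words are small. -/

set_option autoImplicit false

namespace Crest.Agent.R89

open scoped ComplexOrder
open Finset

lemma hasSum_conv {f g : ℕ → ℂ} {F G : ℂ} (hf : HasSum f F) (hg : HasSum g G) :
    HasSum (fun n => ∑ i ∈ range n, f i * g (n - 1 - i)) (F * G) := by
  have h := hasSum_sum_range_mul_of_summable_norm (summable_norm_iff.2 hf.summable)
    (summable_norm_iff.2 hg.summable)
  rw [hf.tsum_eq, hg.tsum_eq] at h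
  rw [← hasSum_nat_add_iff' 1]
  simpa using h

lemma hasSum_sp {L : Type*} (w : List L) {g : ℕ → List L → L → List L → ℂ}
    {G : List L → L → List L → ℂ} (h : ∀ a l b, w = a ++ l :: b →
      HasSum (fun n => g n a l b) (G a l b)) : HasSum (fun n => sp w (g n)) (sp w G) := by
  induction w generalizing g G with
  | nil => exact hasSum_zero
  | cons l w ih =>
    exact (h [] l w rfl).add (ih fun a l' b e => h (l :: a) l' b (by rw [e]; rfl))

lemma sp_sum {L M κ : Type*} [AddCommMonoid M] (w : List L) (s : Finset κ)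
    (g : κ → List L → L → List L → M) :
    (sp w fun a l b => ∑ i ∈ s, g i a l b) = ∑ i ∈ s, sp w (g i) := by
  simp only [sp_eq_sum]
  exact Finset.sum_comm

lemma mem_Wd {ι : Type*} [Fintype ι] (b : List ι) : b ∈ Wd ι b.length := by
  induction b with
  | nil => simp [Wd]
  | cons l b ih => exact Finset.mem_map.2 ⟨(l, b), by simp [ih], rfl⟩

/-- Noisy observations of polynomials in hidden semicircular elements `x l`. -/
structure Plant (ι J T : Type) [DecidableEq ι] [DecidableEq J] [Fintype T] (B : Type)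
    [CStarAlgebra B] [PartialOrder B] [StarOrderedRing B] extends Noise J B where
  x : ι → B
  D : ι → B
  ℓ : T → J → ι
  θ : T → J → ℝ
  pre : T → J → List ι
  post : T → J → List ι
  ωx : ∀ l b, ω (x l * b) = ω (D l * b)
  ωD : ∀ b l, ω (b * D l) = 0
  Dx : ∀ l l', D l * x l' - x l' * D l = if l = l' then P else 0
  DO : ∀ l β, D l * O β - O β * D l = ∑ t, if ℓ t β = l then
    ((θ t β * σ β : ℝ) : ℂ) • (wv x (pre t β) * P * wv x (post t β)) else 0
  tr : ∀ b a d, ω (wv x b * wv O a * wv x d) = ω (wv x (d ++ b) * wv O a)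

namespace Plant

variable {ι J T : Type} [DecidableEq ι] [DecidableEq J] [Fintype T] [Fintype J] {B : Type}
  [CStarAlgebra B] [PartialOrder B] [StarOrderedRing B] (S : Plant ι J T B)

/-- The homogeneous components of the operator representing a planted word. -/
noncomputable def Aop : List ι → ℕ → B
  | [], n => if n = 0 then 1 else 0
  | l :: b, n => (∑ k ∈ range b.length,
      if b[k]? = some l then Aop (b.take k) 0 * Aop (b.drop (k + 1)) n else 0) +
      ∑ i : Fin n, ∑ t, ∑ β, if S.ℓ t β = l then
        (S.θ t β : ℂ) • (Aop (S.pre t β ++ b) i * S.E β * Aop (S.post t β) (n - 1 - i)) else 0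
termination_by b n => (n, b.length)
decreasing_by
  · exact Prod.Lex.right' _ (Nat.zero_le _) (by simp)
  · exact Prod.Lex.right _ (by simp)
  · exact Prod.Lex.left _ _ i.2
  · exact Prod.Lex.left _ _ (by have := i.2; omega)

lemma Aop_cons (l : ι) (b : List ι) (n : ℕ) : S.Aop (l :: b) n = (∑ k ∈ range b.length,
      if b[k]? = some l then S.Aop (b.take k) 0 * S.Aop (b.drop (k + 1)) n else 0) +
      ∑ i ∈ range n, ∑ t, ∑ β, if S.ℓ t β = l then (S.θ t β : ℂ) •
        (S.Aop (S.pre t β ++ b) i * S.E β * S.Aop (S.post t β) (n - 1 - i)) else 0 := by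
  rw [Aop, Finset.sum_range (n := n)]

lemma Aop_mem (b : List ι) (n : ℕ) : S.Aop b n ∈ S.M ^ n := by
  induction b, n using Aop.induct S with
  | case1 => simp [Aop, Submodule.one_le.1 le_rfl]
  | case2 n h => simp [Aop, h]
  | case3 l b n h1 h2 h3 h4 =>
    rw [Aop]
    refine add_mem (Submodule.sum_mem _ fun k _ => ?_) (Submodule.sum_mem _ fun i _ =>
      Submodule.sum_mem _ fun t _ => Submodule.sum_mem _ fun β _ => ?_)
    · split_ifs with h
      · simpa [← pow_add] using Submodule.mul_mem_mul (h1 k) (h2 k)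
      · exact zero_mem _
    · split_ifs with h
      · have := Submodule.mul_mem_mul (Submodule.mul_mem_mul (h3 i t β) (S.E_mem β))
          (h4 i t β)
        rw [← pow_succ, ← pow_add, show i + 1 + (n - 1 - i) = n by have := i.2; omega] at this
        exact Submodule.smul_mem _ _ this
      · exact zero_mem _

omit [Fintype J] in
lemma planted (l : ι) (b : List ι) (u : List J) : S.ω (wv S.x (l :: b) * wv S.O u) =
    (∑ k ∈ range b.length, if b[k]? = some l then
      S.ω (wv S.x (b.take k)) * S.ω (wv S.x (b.drop (k + 1)) * wv S.O u) else 0) +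
    sp u fun a α c => ∑ t, if S.ℓ t α = l then ((S.θ t α * S.σ α : ℝ) : ℂ) *
      (S.ω (wv S.x (S.pre t α ++ b) * wv S.O a) * S.ω (wv S.x (S.post t α) * wv S.O c)) else 0 := by
  have e : S.D l * (wv S.x b * wv S.O u) = (S.D l * wv S.x b - wv S.x b * S.D l) * wv S.O u +
      wv S.x b * (S.D l * wv S.O u - wv S.O u * S.D l) + wv S.x b * wv S.O u * S.D l := by
    noncomm_ring
  rw [wv_cons, mul_assoc, S.ωx, e, map_add, map_add, S.ωD, add_zero, comm_wv_gen, comm_wv_gen,
    ← sp_ite b l fun a c => S.ω (wv S.x a) * S.ω (wv S.x c * wv S.O u)]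
  congr 1
  · rw [sp_eq_sum, sp_eq_sum, Finset.sum_mul, map_sum]
    refine Finset.sum_congr rfl fun k _ => ?_
    rw [S.Dx]
    by_cases h : b[k] = l
    · rw [if_pos h.symm, if_pos h, mul_assoc, S.ωP]
    · rw [if_neg (Ne.symm h), if_neg h, mul_zero, zero_mul, zero_mul, map_zero]
  · rw [sp_eq_sum, sp_eq_sum, Finset.mul_sum, map_sum]
    refine Finset.sum_congr rfl fun k _ => ?_
    rw [S.DO, Finset.mul_sum, Finset.sum_mul, Finset.mul_sum, map_sum]
    refine Finset.sum_congr rfl fun t _ => ?_
    split_ifs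
    · rw [mul_smul_comm, smul_mul_assoc, mul_smul_comm, map_smul, ← S.tr, ← S.ωP]
      simp only [mul_assoc, smul_eq_mul]
    · simp

lemma hasSum_Aop (u : List J) (b : List ι) :
    HasSum (fun n => S.ω (S.Aop b n * wv S.O u)) (S.ω (wv S.x b * wv S.O u)) := by
  suffices h : ∀ K (b : List ι) (u : List J), u.length ≤ K →
      HasSum (fun n => S.ω (S.Aop b n * wv S.O u)) (S.ω (wv S.x b * wv S.O u)) from h _ b u le_rfl
  intro K
  induction K using Nat.strong_induction_on with | _ K ihK =>
  intro b
  induction hr : b.length using Nat.strong_induction_on generalizing b with | _ r ihr =>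
  intro u hu
  rcases b with _ | ⟨l, b⟩
  · simpa [Aop] using hasSum_single (f := fun n => S.ω (S.Aop [] n * wv S.O u)) 0
      fun n hn => by simp [Aop, hn]
  rw [planted]
  simp only [Aop_cons, add_mul, map_add, Finset.sum_mul, map_sum]
  subst hr
  refine HasSum.add (hasSum_sum fun k _ => ?_) ?_
  · split_ifs
    · obtain ⟨c, hc⟩ := Submodule.mem_one.1 (pow_zero S.M ▸ S.Aop_mem (b.take k) 0)
      have h1 := (ihr _ (by simp) (b.take k) rfl [] (Nat.zero_le _)).unique
        (hasSum_single 0 fun n hn => Noise.vanish (S.Aop_mem _ n) [] (Nat.pos_of_ne_zero hn))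
      have h2 := (ihr _ (by simp) (b.drop (k + 1)) rfl u hu).mul_left c
      simp only [wv_nil, mul_one, ← hc, Algebra.algebraMap_eq_smul_one, map_smul, S.one,
        smul_eq_mul, smul_mul_assoc, one_mul] at h1 ⊢
      rwa [h1]
    · simp
  · have key : ∀ n i t, (∑ β, S.ω ((if S.ℓ t β = l then (S.θ t β : ℂ) • (S.Aop (S.pre t β ++ b) i *
        S.E β * S.Aop (S.post t β) (n - 1 - i)) else 0) * wv S.O u)) = sp u fun a α c =>
          if S.ℓ t α = l then ((S.θ t α * S.σ α : ℝ) : ℂ) * (S.ω (S.Aop (S.pre t α ++ b) i *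
            wv S.O a) * S.ω (S.Aop (S.post t α) (n - 1 - i) * wv S.O c)) else 0 := by
      intro n i t
      have h1 : ∀ β, S.ω ((if S.ℓ t β = l then (S.θ t β : ℂ) • (S.Aop (S.pre t β ++ b) i *
          S.E β * S.Aop (S.post t β) (n - 1 - i)) else 0) * wv S.O u) = sp u fun a α c =>
          if α = β then if S.ℓ t β = l then ((S.θ t β * S.σ β : ℝ) : ℂ) *
            (S.ω (S.Aop (S.pre t β ++ b) i * wv S.O a) *
              S.ω (S.Aop (S.post t β) (n - 1 - i) * wv S.O c)) else 0 else 0 := fun β => by
        split_ifs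
        · rw [smul_mul_assoc, map_smul, Noise.cat_E (S.Aop_mem _ _), sp_eq_sum, sp_eq_sum,
            Finset.smul_sum]
          refine Finset.sum_congr rfl fun k _ => ?_
          split_ifs with h
          · simp [h, mul_assoc]
          · simp
        · simp [sp_eq_sum]
      simp only [h1, ← sp_sum, Finset.sum_ite_eq, Finset.mem_univ, if_true]
    simp only [key, ← sp_sum]
    refine hasSum_sp u fun a α c e => ?_
    simp only [Finset.sum_comm (t := (univ : Finset T))]
    refine hasSum_sum fun t _ => ?_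
    have ha : a.length < K := by subst e; simp at hu; omega
    have hc : c.length < K := by subst e; simp at hu; omega
    split_ifs
    · simpa only [Finset.mul_sum] using (hasSum_conv (ihK _ ha (S.pre t α ++ b) a le_rfl)
        (ihK _ hc (S.post t α) c le_rfl)).mul_left ((S.θ t α * S.σ α : ℝ) : ℂ)
    · simp

end Plant

end Crest.Agent.R89
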