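import Crest.Agent.R89.SW

/-! Norm estimate for the low-degree expansion. -/

set_option autoImplicit false

namespace Crest.Agent.R89.Plant

open scoped ComplexOrder
open Finset Filter Topology

variable {ι J T : Type} [DecidableEq ι] [DecidableEq J] [Fintype T] [Fintype J] [Fintype ι]
  {B : Type} [CStarAlgebra B] [PartialOrder B] [StarOrderedRing B] (S : Plant ι J T B)

omit [DecidableEq J] [Fintype T] [Fintype J] [PartialOrder B] [StarOrderedRing B] in
lemma split_le {k : ℝ} (hm : (Fintype.card ι : ℝ) ≤ k ^ 4) (X Y : List ι → B) (j s : ℕ) :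
    nrm (univ ×ˢ Wd ι (j + (s + 1))) (fun p : ι × List ι => ‖if p.2[j]? = some p.1 then
      X (p.2.take j) * Y (p.2.drop (j + 1)) else 0‖) ≤
      k ^ 2 * (nrm (Wd ι j) (fun b => ‖X b‖) * nrm (Wd ι s) fun b => ‖Y b‖) := by
  refine nrm_le _ (mul_nonneg (sq_nonneg _) (mul_nonneg (nrm_nonneg _ _) (nrm_nonneg _ _))) ?_
  rw [Finset.sum_product_right, sum_Wd_add, mul_pow, mul_pow, nrm_sq, nrm_sq, ← pow_mul]
  refine le_trans ?_ (mul_le_mul_of_nonneg_right hm (by positivity))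
  rw [Finset.sum_mul, Finset.mul_sum]
  refine Finset.sum_le_sum fun a ha => ?_
  rw [sum_Wd_succ, ← nsmul_eq_mul, ← Finset.card_univ, ← Finset.sum_const]
  refine Finset.sum_le_sum fun l _ => ?_
  rw [Finset.mul_sum]
  refine Finset.sum_le_sum fun c _ => ?_
  obtain rfl := length_of_mem_Wd ha
  have : ∀ l', ‖if l = l' then X a * Y c else 0‖ ^ 2 = if l = l' then ‖X a * Y c‖ ^ 2 else 0 :=
    fun l' => by split_ifs <;> simp
  simp only [List.getElem?_append_right le_rfl, Nat.sub_self, List.getElem?_cons_zero,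
    Option.some.injEq, List.take_left', List.drop_length_add_append, List.drop_one,
    List.tail_cons, this, Finset.sum_ite_eq, Finset.mem_univ, if_true, ← mul_pow]
  exact pow_le_pow_left₀ (norm_nonneg _) (norm_mul_le _ _) 2

lemma noise_le {K : ℝ} (hK : 0 ≤ K) (t : T) (p q : ℕ)
    (hc : ∀ f g : List ι → ℝ, (∀ b, 0 ≤ f b) → (∀ b, 0 ≤ g b) →
      ∑ β, S.θ t β ^ 2 * (f (S.pre t β) * g (S.post t β)) ≤
        K ^ 2 * ((∑ b ∈ Wd ι p, f b) * ∑ b ∈ Wd ι q, g b)) (r i j : ℕ) :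
    nrm (univ ×ˢ Wd ι r) (fun x : ι × List ι => ‖∑ β, if S.ℓ t β = x.1 then (S.θ t β : ℂ) •
        (S.Aop (S.pre t β ++ x.2) i * S.E β * S.Aop (S.post t β) j) else 0‖) ≤
      K * (nrm (Wd ι (p + r)) (fun b => ‖S.Aop b i‖) * nrm (Wd ι q) fun b => ‖S.Aop b j‖) := by
  refine nrm_le _ (mul_nonneg hK (mul_nonneg (nrm_nonneg _ _) (nrm_nonneg _ _))) ?_
  rw [mul_pow, mul_pow, nrm_sq, nrm_sq, sum_Wd_add]
  refine le_trans ?_ (hc (fun d => ∑ b ∈ Wd ι r, ‖S.Aop (d ++ b) i‖ ^ 2)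
    (fun d => ‖S.Aop d j‖ ^ 2) (fun _ => by positivity) fun _ => by positivity)
  have h1 : ∀ x : ι × List ι, ‖∑ β, if S.ℓ t β = x.1 then (S.θ t β : ℂ) •
      (S.Aop (S.pre t β ++ x.2) i * S.E β * S.Aop (S.post t β) j) else 0‖ ^ 2 ≤
      ∑ β, if S.ℓ t β = x.1 then S.θ t β ^ 2 * (‖S.Aop (S.pre t β ++ x.2) i‖ ^ 2 *
        ‖S.Aop (S.post t β) j‖ ^ 2) else 0 := fun x => by
    refine le_trans (le_of_eq ?_) ((Noise.norm_sum_le (fun β => if S.ℓ t β = x.1 then
      (S.θ t β : ℂ) • S.Aop (S.pre t β ++ x.2) i else 0) _ fun β =>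
        S.Aop_mem (S.post t β) j).trans (le_of_eq ?_))
    · simp only [ite_mul, smul_mul_assoc, zero_mul]
    · refine Finset.sum_congr rfl fun β _ => ?_
      split_ifs
      · rw [norm_smul, mul_pow, Complex.norm_real, Real.norm_eq_abs, sq_abs, mul_assoc]
      · simp
  refine (Finset.sum_le_sum fun x _ => h1 x).trans (le_of_eq ?_)
  rw [Finset.sum_comm]
  refine Finset.sum_congr rfl fun β _ => ?_
  simp only [Finset.sum_product_right, Finset.sum_ite_eq, Finset.mem_univ, if_true,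
    Finset.sum_mul, Finset.mul_sum]

theorem exists_G {k : ℝ} (hk : 0 < k) (hm : (Fintype.card ι : ℝ) ≤ k ^ 4) (p q : T → ℕ)
    (Θ : T → ℝ) (hΘ : ∀ t, 0 ≤ Θ t)
    (hsm : ∑ t, Θ t * k ^ 2 * (4 * k) ^ (p t + q t) ≤ 7 / 8 * (4 * k))
    (hc : ∀ t (f g : List ι → ℝ), (∀ b, 0 ≤ f b) → (∀ b, 0 ≤ g b) →
      ∑ β, S.θ t β ^ 2 * (f (S.pre t β) * g (S.post t β)) ≤
        (Θ t * k ^ 2) ^ 2 * ((∑ b ∈ Wd ι (p t), f b) * ∑ b ∈ Wd ι (q t), g b)) :
    ∃ G : List ι → B, (∀ b u, S.ω (G b * wv S.O u) = S.ω (wv S.x b * wv S.O u)) ∧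
      ∀ r, ∑ b ∈ Wd ι r, ‖G b‖ ^ 2 ≤ ((4 * k) ^ r) ^ 2 := by
  have : Nontrivial B := ⟨1, 0, fun h => by simpa [h] using S.one⟩
  have key := rec_bound p q Θ hΘ hk hsm (fun r n => nrm (Wd ι r) fun b => ‖S.Aop b n‖)
    (fun _ _ => nrm_nonneg _ _) (fun n => nrm_le _ (by positivity) (by
      rw [sum_Wd_zero, Aop]; split_ifs <;> simp)) fun r n => by
    have e : nrm (Wd ι (r + 1)) (fun b => ‖S.Aop b n‖) =
        nrm (univ ×ˢ Wd ι r) fun x : ι × List ι => ‖S.Aop (x.1 :: x.2) n‖ := by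
      rw [nrm, nrm, sum_Wd_succ, Finset.sum_product]
    rw [e]
    refine (nrm_mono _ (fun _ _ => norm_nonneg _) fun x hx => ?_).trans ((nrm_add_le _ _ _).trans
      (add_le_add ((nrm_sum_le _ _ fun j (x : ι × List ι) => ‖if x.2[j]? = some x.1 then
        S.Aop (x.2.take j) 0 * S.Aop (x.2.drop (j + 1)) n else 0‖).trans
          (Finset.sum_le_sum fun j hj => ?_))
        ((nrm_sum_le _ _ _).trans (Finset.sum_le_sum fun i _ => (nrm_sum_le _ _ _).trans
          (Finset.sum_le_sum fun t _ => S.noise_le (mul_nonneg (hΘ t) (sq_nonneg k)) t _ _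
            (hc t) r i (n - 1 - i))))))
    · rw [Aop_cons, length_of_mem_Wd (Finset.mem_product.1 hx).2]
      exact (norm_add_le _ _).trans (add_le_add (norm_sum_le _ _) ((norm_sum_le _ _).trans
        (Finset.sum_le_sum fun i _ => norm_sum_le _ _)))
    · obtain ⟨s, rfl⟩ := Nat.exists_eq_add_of_lt (Finset.mem_range.1 hj)
      rw [show j + s + 1 - 1 - j = s by omega]
      exact split_le hm (fun b => S.Aop b 0) (fun b => S.Aop b n) j s
  have hs : ∀ b, Summable (S.Aop b) := fun b => by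
    refine (summable_of_sum_range_le (c := (4 * k) ^ b.length) (fun _ => norm_nonneg _)
      fun D => le_trans (Finset.sum_le_sum fun n _ => ?_) (key D b.length)).of_norm
    exact Real.le_sqrt_of_sq_le (Finset.single_le_sum (f := fun b => ‖S.Aop b n‖ ^ 2)
      (fun _ _ => sq_nonneg _) (mem_Wd b))
  refine ⟨fun b => ∑' n, S.Aop b n, fun b u => ?_, fun r => ?_⟩
  · exact (((hs b).hasSum.mul_right _).map S.ω (R120.tr_continuous S.ω)).unique
      (S.hasSum_Aop u b)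
  · refine le_of_tendsto' (tendsto_finsetSum _ fun b _ =>
      ((hs b).hasSum.tendsto_sum_nat.norm).pow 2) fun D => ?_
    rw [← nrm_sq]
    refine pow_le_pow_left₀ (nrm_nonneg _ _) (le_trans ?_ (key D r)) 2
    exact (nrm_mono _ (fun _ _ => norm_nonneg _) fun b _ => norm_sum_le _ _).trans
      (nrm_sum_le _ _ _)

end Crest.Agent.R89.Plant
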