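import Crest.Agent.R89.Defs

/-! Statements of the delegated parts (to be proved in `Fock.lean`, `GUE.lean`, `Chi.lean`). -/

set_option autoImplicit false

namespace Crest.Agent.R89.Skel

open scoped ComplexOrder
open Crest.Agent.R120 Crest.OpAlg Filter MeasureTheory

theorem exists_fock (I : Type) [DecidableEq I] :
    ∃ (B : Type) (_ : CStarAlgebra B) (_ : PartialOrder B) (_ : StarOrderedRing B),
      Nonempty (Fock I B) := sorry

section
variable {I : Type} [DecidableEq I] {B : Type} [CStarAlgebra B] [PartialOrder B]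
  [StarOrderedRing B] (F : Fock I B)

theorem tr_comm {a b : B} (ha : a ∈ gen (Set.range F.s)) (hb : b ∈ gen (Set.range F.s)) :
    F.ω (a * b) = F.ω (b * a) := sorry

theorem comm_wv (i : I) (w : List I) : F.D i * wv F.s w - wv F.s w * F.D i =
    sp w fun a l b => if l = i then wv F.s a * F.P * wv F.s b else 0 := sorry

theorem sd (i : I) (w : List I) : F.ω (wv F.s (i :: w)) =
    sp w fun a l b => if l = i then F.ω (wv F.s a) * F.ω (wv F.s b) else 0 := sorry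

theorem catalan_moments (i : I) (k : ℕ) :
    F.ω (F.s i ^ (2 * k)) = (catalan k : ℂ) ∧ F.ω (F.s i ^ (2 * k + 1)) = 0 := sorry

theorem free {κ : Type*} (cls : I → κ) (l : List (κ × B)) (hl : l ≠ [])
    (hc : l.IsChain fun a b => a.1 ≠ b.1)
    (hm : ∀ e ∈ l, e.2 ∈ Algebra.adjoin ℂ (F.s '' {i | cls i = e.1}))
    (h0 : ∀ e ∈ l, F.ω e.2 = 0) : F.ω (l.map Prod.snd).prod = 0 := sorry

end

section Herm
variable {d : ℕ}

theorem herm_eq_sum (a : EuclideanSpace ℝ (Fin d × Fin d)) :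
    hermitianOfCoords a = ∑ p, (a p : ℂ) • Hb p := sorry

theorem herm_isHermitian (a : EuclideanSpace ℝ (Fin d × Fin d)) :
    (hermitianOfCoords a).IsHermitian := sorry

theorem Hb_complete (i j k l : Fin d) :
    ∑ p, Hb p i j * Hb p k l = if i = l ∧ j = k then 1 else 0 := sorry

theorem sum_trace_Hb_mul (M N : Matrix (Fin d) (Fin d) ℂ) :
    ∑ p, (Hb p * M).trace * (Hb p * N).trace = (M * N).trace := sorry

theorem sum_trace_Hb_Hb (M N : Matrix (Fin d) (Fin d) ℂ) :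
    ∑ p, (Hb p * M * Hb p * N).trace = M.trace * N.trace := sorry

theorem trace_herm_sq (a : EuclideanSpace ℝ (Fin d × Fin d)) :
    (hermitianOfCoords a * hermitianOfCoords a).trace = ((‖a‖ ^ 2 : ℝ) : ℂ) := sorry

theorem herm_coords {N : Matrix (Fin d) (Fin d) ℂ} (hN : N.IsHermitian) :
    hermitianOfCoords (WithLp.toLp 2 fun p => ((Hb p * N).trace).re) = N := sorry

end Herm

theorem gue_univ (n : ℕ) {d : ℕ} (hd : 0 < d) : gue n d Set.univ = ENNReal.ofReal (gueZ n d) :=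
  sorry

theorem gue_moment {A : Type*} [Ring A] [Algebra ℂ A] {n : ℕ} (τ : A →ₗ[ℂ] ℂ) (g : Fin n → A)
    (h1 : τ 1 = 1)
    (hSD : ∀ i w, τ (wv g (i :: w)) = sp w fun a l b =>
      if l = i then τ (wv g a) * τ (wv g b) else 0) (w : FreeMonoid (Fin n)) (ε δ : ℝ)
    (hε : 0 < ε) (hδ : 0 < δ) : ∀ᶠ d : ℕ in atTop,
      gue n d {a | ε ≤ ‖matrixMoment (matrixTuple a) w - τ (wordEval g w)‖} ≤
        ENNReal.ofReal (δ * gueZ n d) := sorry

theorem gue_norm (n : ℕ) (δ : ℝ) (hδ : 0 < δ) : ∀ᶠ d : ℕ in atTop,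
    gue n d {a | ∃ l, 32 < ‖Matrix.toEuclideanCLM (n := Fin d) (𝕜 := ℂ) (matrixTuple a l)‖} ≤
      ENNReal.ofReal (δ * gueZ n d) := sorry

theorem gue_lower {A : Type*} [Ring A] [Algebra ℂ A] {n : ℕ} (τ : A →ₗ[ℂ] ℂ) (g : Fin n → A)
    (h1 : τ 1 = 1)
    (hSD : ∀ i w, τ (wv g (i :: w)) = sp w fun a l b =>
      if l = i then τ (wv g a) * τ (wv g b) else 0) (m : ℕ) (ε : ℝ) (hε : 0 < ε) :
    ∀ᶠ d : ℕ in atTop, ENNReal.ofReal (2⁻¹ * gueZ n d) ≤
      volume (microstates τ g 32 m d ε) := sorry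

theorem chi_bounds {A : Type*} [Ring A] [Algebra ℂ A] {n : ℕ} (τ : A →ₗ[ℂ] ℂ) (g : Fin n → A)
    (p : Fin n → Prop) (c : Fin n → ℝ) (hc : ∀ i, 0 < c i) (H : Fin n → NCPoly n)
    (hH0 : ∀ i, p i → H i = 0)
    (hHp : ∀ i, ∀ w ∈ (H i).coeff.support, ∀ l ∈ FreeMonoid.toList w, p l)
    (hHs : ∀ i, polyStar (H i) = H i) (h2 : ∀ i, τ (g i * g i) = 1)
    (hlow : ∀ (m : ℕ) (ε : ℝ), 0 < ε → ∀ᶠ d : ℕ in atTop,
      ENNReal.ofReal (2⁻¹ * gueZ n d) ≤
        volume (microstates τ g 32 m d ε)) :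
    ⊥ < chi τ (fun i => (c i : ℂ) • g i + polyEval g (H i)) ∧
      chi τ (fun i => (c i : ℂ) • g i + polyEval g (H i)) ≤
        (((n : ℝ) / 2 * Real.log (2 * Real.pi * Real.exp 1) + ∑ i, Real.log (c i) + 1 / 2 : ℝ) :
          EReal) := sorry

end Crest.Agent.R89.Skel
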