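import Crest.Agent.R89.Bounds

/-! The bound on the conjugate vectors at each time, for the chosen parameters. -/

set_option autoImplicit false

namespace Crest.Agent.R89.Fock

open scoped ComplexOrder
open Finset Crest.Agent.R120 Sum

lemma pos_of_mul_one {x y : ℝ} (h : x * y = 1) (hy : 0 < y) : 0 < x :=
  (pos_iff_pos_of_mul_pos (h ▸ one_pos)).2 hy

variable {ι : Type} [DecidableEq ι] [Fintype ι] {B : Type} [CStarAlgebra B] [PartialOrder B]
  [StarOrderedRing B] (F : Fock (JJ ι ⊕ JJ ι) B) {k lam sig gam t : ℝ} (hk : 10 ^ 6 ≤ k)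
  (hm : (Fintype.card ι : ℝ) = k ^ 4) (hl : lam * (4 * k) = 1) (hg : gam * (100 * k ^ 3) = 1)
  (hs : 1 / 2 ≤ sig) (hs2 : sig ^ 2 = 1 - gam ^ 2) (ht : 0 < t)

include hk hm hl hg hs ht in
lemma boundX {a : ℝ} (ha : a * (8 * k ^ 10) ^ 2 = 1) (l : ι) :
    ∃ ξ, Conj F.ω.toLinearMap (F.OO lam sig gam t) (inl l) ξ ∧
      n2 F.ω (star ξ) ^ 2 ≤ 1 / (t + a) + 2 * (a / (t + a) ^ 2) := by
  have hk0 : 0 < k := by linarith
  have ha0 : 0 < a := pos_of_mul_one ha (by positivity)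
  have hl0 : 0 < lam := pos_of_mul_one hl (by positivity)
  have hg0 : 0 < gam := pos_of_mul_one hg (by positivity)
  have e : 1 / (t + a) + 2 * (a / (t + a) ^ 2) = (t + 3 * a) / (t + a) ^ 2 := by
    field_simp; ring
  rw [e]
  rcases le_total t a with h | h
  · obtain ⟨ξ, h1, h2⟩ := F.conj_X lam sig gam ht hl0 (by linarith) hg0.le l
    refine ⟨ξ, h1, (pow_le_pow_left₀ (n2_nonneg _ _) ((n2_le_norm F.one _).trans
      ((norm_star ξ).trans_le (h2.trans (?_ : _ ≤ 8 * k ^ 10)))) 2).trans ?_⟩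
    · have h3 : gam / sig ≤ 2 * gam := by rw [div_le_iff₀ (by linarith)]; nlinarith
      have h4 : (10 : ℝ) ≤ k ^ 9 := (by linarith : 10 ≤ k).trans (le_self_pow₀ (by linarith) (by simp))
      have h5 : k ^ 12 * gam * 100 = k ^ 9 := by linear_combination k ^ 9 * hg
      have h6 := mul_le_mul_of_nonneg_left h3 (by positivity : 0 ≤ k ^ 12)
      rw [hm, inv_eq_of_mul_eq_one_right hl]
      calc 4 * k * (2 + (k ^ 4) ^ 3 * (56 * (gam / sig))) ≤ 4 * k * (2 * k ^ 9) := by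
            gcongr; nlinarith
        _ = _ := by ring
    · rw [← inv_eq_of_mul_eq_one_right ha, inv_eq_one_div, div_le_div_iff₀ ha0 (by positivity)]
      nlinarith [mul_nonneg ht.le (sub_nonneg.2 h), mul_nonneg ha0.le (sub_nonneg.2 h)]
  · obtain ⟨ξ, h1, h2⟩ := (F.noise lam sig gam ht).conj_E (inl l) (sg_pos sig ht _)
    refine ⟨ξ, h1, h2.trans ?_⟩
    have : (F.noise lam sig gam ht).σ (inl l) ^ 2 = t := (sg_sq sig ht _).trans (by simp [nu])
    rw [this, div_le_div_iff₀ ht (by positivity)]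
    nlinarith [mul_nonneg ha0.le (sub_nonneg.2 h)]

include hk hm hl hg hs ht in
lemma exists_G (ht' : 1 / 16 ≤ t) : ∃ G : List ι → B,
    (∀ b u, F.ω (G b * wv (F.OO lam sig gam t) u) = F.ω (wv F.xx b * wv (F.OO lam sig gam t) u)) ∧
      ∑ b ∈ Wd ι 3, ‖G b‖ ^ 2 ≤ ((4 * k) ^ 3) ^ 2 := by
  have hk0 : 0 < k := by linarith
  have hl0 : 0 < lam := pos_of_mul_one hl (by positivity)
  have hg0 : 0 < gam := pos_of_mul_one hg (by positivity)
  refine ((F.plant lam sig gam ht).exists_G hk0 hm.le ![0, 0, 1, 2, 0, 1, 2] ![0, 2, 1, 0, 2, 1, 0]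
    (fun τ => if τ = 0 then 4 * lam else 2 * gam) (fun τ => by positivity) ?_
    fun τ f g hf hg' => ?_).imp fun G h => ⟨h.1, h.2 3⟩
  · simp [Fin.sum_univ_succ]
    have h1 : lam * k ^ 2 * 4 = k := by linear_combination k * hl
    have h2 : gam * k ^ 4 * 100 = k := by linear_combination k * hg
    nlinarith
  · simp only [plant, Fintype.sum_sum_type, th7]
    split_ifs with h
    · subst h
      have h1 : ∀ l : ι, (lam / sg sig t (inl l : JJ ι)) ^ 2 ≤ (4 * lam) ^ 2 := fun l => by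
        rw [div_pow, sg_sq sig ht, div_le_iff₀ (by positivity), nu]
        nlinarith [sq_nonneg lam]
      refine (add_le_add (Finset.sum_le_sum fun l _ => mul_le_mul_of_nonneg_right (h1 l)
        (mul_nonneg (hf _) (hg' _))) le_rfl).trans (le_of_eq ?_)
      simp [pre7, post7, sum_Wd_zero, hm]
      ring
    · have h1 : ∀ j, (gam / sg sig t (inr j : JJ ι)) ^ 2 ≤ (2 * gam) ^ 2 := fun j => by
        rw [div_pow, sg_sq sig ht, div_le_iff₀ (by positivity), nu]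
        nlinarith [mul_nonneg (sq_nonneg gam) (by nlinarith : 0 ≤ 4 * (sig ^ 2 + t) - 1)]
      refine (add_le_add le_rfl (Finset.sum_le_sum fun j _ => mul_le_mul_of_nonneg_right (h1 j)
        (mul_nonneg (hf _) (hg' _)))).trans (le_of_eq ?_)
      rw [← Finset.mul_sum, count7 τ h, hm]
      simp only [zero_div, ne_eq, OfNat.ofNat_ne_zero, not_false_eq_true, zero_pow, zero_mul,
        Finset.sum_const_zero]
      ring

include hk hm hl hg hs hs2 ht in
lemma boundY : ∃ e : ι × ι × ι → ℝ, ∑ j, e j ≤ 4 ∧ ∀ j,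
    ∃ ξ, Conj F.ω.toLinearMap (F.OO lam sig gam t) (inr j) ξ ∧ n2 F.ω (star ξ) ^ 2 ≤
      1 / (1 + t) + gam ^ 2 / 2 * (16⁻¹ / (t + 16⁻¹) ^ 2) + e j * (1 / (t + 1) ^ 2) := by
  have hk0 : 0 < k := by linarith
  have hg0 : 0 < gam := pos_of_mul_one hg (by positivity)
  have hσ : ∀ j, (F.noise lam sig gam ht).σ (inr j) ^ 2 = 1 - gam ^ 2 + t := fun j =>
    hs2 ▸ sg_sq sig ht (inr j)
  rcases le_total t (1 / 16) with h | h
  · refine ⟨0, by simp, fun j => ?_⟩
    obtain ⟨ξ, h1, h2⟩ := (F.noise lam sig gam ht).conj_E (inr j) (sg_pos sig ht _)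
    refine ⟨ξ, h1, h2.trans ?_⟩
    have h3 : 4 ≤ 16⁻¹ / (t + 16⁻¹) ^ 2 := by rw [le_div_iff₀ (by positivity)]; nlinarith
    have h4 : gam ^ 2 ≤ 1 / 2 := by
      have : 1 ≤ k ^ 3 := one_le_pow₀ (by linarith)
      nlinarith
    have h5 : 1 / (1 - gam ^ 2 + t) ≤ 1 / (1 + t) + gam ^ 2 / 2 * 4 := by
      rw [div_add' _ _ _ (by positivity), div_le_div_iff₀ (by linarith) (by positivity)]
      have : 1 ≤ 2 * (1 + t) * (1 - gam ^ 2 + t) := by nlinarith
      nlinarith [mul_le_mul_of_nonneg_left this (mul_nonneg (sq_nonneg gam) (by linarith : 0 ≤ 1 + t))]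
    rw [hσ, Pi.zero_apply, zero_mul, add_zero]
    exact h5.trans (by gcongr)
  obtain ⟨G, hG, hG'⟩ := F.exists_G hk hm hl hg hs ht h
  refine ⟨fun j => 2 * ((512 * gam ^ 2) ^ 2 + 2 * gam ^ 2 * (‖G [j.1, j.2.1, j.2.2]‖ ^ 2 +
    ‖G [j.2.2, j.2.1, j.1]‖ ^ 2)), ?_, fun ⟨a, b, c⟩ => ?_⟩
  · simp only [sum_Wd_succ, sum_Wd_zero] at hG'
    simp only [← Finset.mul_sum, Finset.sum_add_distrib, Fintype.sum_prod_type, Finset.sum_const,
      Finset.card_univ, nsmul_eq_mul, Fintype.card_prod, Nat.cast_mul, hm]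
    rw [sum3_swap fun a b c => ‖G [c, b, a]‖ ^ 2]
    have h1 := mul_le_mul_of_nonneg_left hG' (sq_nonneg gam)
    have h2 : gam * k ^ 3 = 1 / 100 := by linarith
    have h3 : gam ^ 2 * ((4 * k) ^ 3) ^ 2 = 4096 * (gam * k ^ 3) ^ 2 := by ring
    have h4 : k ^ 4 * (k ^ 4 * k ^ 4) * (512 * gam ^ 2) ^ 2 = 512 ^ 2 * (gam * k ^ 3) ^ 4 := by
      ring
    rw [h3, h2] at h1
    rw [h4, h2]
    linarith
  · obtain ⟨ξ, h1, h2⟩ := (F.noise lam sig gam ht).conj_Y (inr (a, b, c))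
      (A := (gam : ℂ) • (G [a, b, c] + G [c, b, a])) (sg_pos sig ht _) (sq_nonneg _)
      (F.OO_sa _ _ _ _ _) (F.ω_OO _ _ _ ht _) (fun u => by
        simp only [noise, YY, smul_mul_assoc, add_mul, map_smul, map_add, hG]) (F.ω_YO _ _ _ ht _)
    refine ⟨ξ, h1, h2.trans ?_⟩
    have h3 := F.le_n2_YY lam gam (a, b, c)
    have h4 := pow_le_pow_left₀ (n2_nonneg _ _) (F.n2_YY_le lam gam hg0.le (a, b, c)) 2
    have h5 : 1 / 2 ≤ (F.noise lam sig gam ht).σ (inr (a, b, c)) :=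
      Real.le_sqrt_of_sq_le (by rw [nu]; nlinarith)
    have h6 : ‖(gam : ℂ) • (G [a, b, c] + G [c, b, a])‖ ^ 2 ≤
        2 * gam ^ 2 * (‖G [a, b, c]‖ ^ 2 + ‖G [c, b, a]‖ ^ 2) := by
      rw [norm_smul, mul_pow, Complex.norm_real, Real.norm_eq_abs, sq_abs, mul_comm 2, mul_assoc]
      refine mul_le_mul_of_nonneg_left ((pow_le_pow_left₀ (norm_nonneg _) (norm_add_le _ _)
        2).trans ?_) (sq_nonneg _)
      nlinarith [sq_nonneg (‖G [a, b, c]‖ - ‖G [c, b, a]‖)]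
    have h7 : n2 F.ω (F.YY lam gam (inr (a, b, c))) ^ 2 /
        (F.noise lam sig gam ht).σ (inr (a, b, c)) ≤ 512 * gam ^ 2 := by
      rw [div_le_iff₀ (by linarith)]
      nlinarith [sq_nonneg gam]
    rw [hσ, mul_one_div]
    refine add_le_add (le_add_of_le_of_nonneg ?_ (by positivity)) ?_
    · exact one_div_le_one_div_of_le (by positivity) (by linarith)
    · have h8 := pow_le_pow_left₀ (by positivity) h7 2
      exact div_le_div₀ (by positivity) (by linarith) (by positivity)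
        (pow_le_pow_left₀ (by positivity) (by linarith) 2)

end Crest.Agent.R89.Fock
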